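import Crest.Agent.R191.Tree

/-!
Row 191 (S0291): Walsh characters on the fair coin space, and the `ℓ²` bound for free families.
-/

set_option autoImplicit false
set_option linter.unusedSectionVars false

namespace Crest.Agent.R191.BernAux

open MeasureTheory Finset
open scoped ENNReal symmDiff

/-- fair coin product measure -/
noncomputable def coin (I : Type) : Measure (I → Bool) :=
  Measure.infinitePi (fun _ : I => (PMF.uniformOfFintype Bool).toMeasure)

instance (I : Type) : IsProbabilityMeasure (coin I) :=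
  inferInstanceAs (IsProbabilityMeasure
    (Measure.infinitePi (fun _ : I => (PMF.uniformOfFintype Bool).toMeasure)))

variable {I : Type}

theorem mp_reindex (e : I ≃ I) :
    MeasurePreserving (fun (x : I → Bool) p => x (e p)) (coin I) (coin I) := by
  refine ⟨by fun_prop, ?_⟩
  have := Measure.infinitePi_map_piCongrLeft
    (fun _ : I => (PMF.uniformOfFintype Bool).toMeasure) e.symm
  refine Eq.trans ?_ this
  congr 1
  funext x p
  simp [MeasurableEquiv.coe_piCongrLeft, Equiv.piCongrLeft_apply_eq_cast]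

variable [DecidableEq I]

/-- flip one coordinate -/
def flip (q : I) (x : I → Bool) : I → Bool := fun p => if p = q then !x p else x p

theorem map_not : (PMF.uniformOfFintype Bool).toMeasure.map (fun b => !b) =
    (PMF.uniformOfFintype Bool).toMeasure := by
  refine Measure.ext_iff_singleton.2 fun b => ?_
  rw [Measure.map_apply (measurable_of_finite _) (measurableSet_singleton _)]
  have : (fun b => !b) ⁻¹' {b} = {!b} := by ext c; cases b <;> cases c <;> simp
  rw [this]
  simp

theorem mp_flip (q : I) : MeasurePreserving (flip q) (coin I) (coin I) := by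
  have hm : ∀ p : I, Measurable fun b : Bool => if p = q then !b else b :=
    fun _ => measurable_of_finite _
  refine ⟨measurable_pi_lambda _ fun p => (hm p).comp (measurable_pi_apply p), ?_⟩
  have := Measure.infinitePi_map_pi (fun _ : I => (PMF.uniformOfFintype Bool).toMeasure) hm
  refine Eq.trans this ?_
  unfold coin
  congr 1
  funext p
  by_cases h : p = q
  · simp only [if_pos h, map_not]
  · simp only [if_neg h, Measure.map_id']

theorem real_preimage {α : Type*} [MeasurableSpace α] {μ : Measure α} {f : α → α}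
    (hf : MeasurePreserving f μ μ) {s : Set α} (hs : MeasurableSet s) :
    μ.real (f ⁻¹' s) = μ.real s := by
  simp only [Measure.real, hf.measure_preimage hs.nullMeasurableSet]

theorem real_cyl (q : ℕ → I) (hq : Function.Injective q) (u : ℕ → (I → Bool) → Bool)
    (hu : ∀ n, Measurable (u n)) (hf : ∀ n m x, u n (flip (q m) x) = u n x) (m : ℕ) :
    MeasurableSet {x : I → Bool | ∀ n < m, x (q n) = u n x} ∧
      (coin I).real {x | ∀ n < m, x (q n) = u n x} = (1 / 2) ^ m := by
  induction m with
  | zero => simp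
  | succ m ih =>
    have hD : MeasurableSet {x : I → Bool | x (q m) = u m x} :=
      measurableSet_eq_fun (measurable_pi_apply _) (hu m)
    have e1 : {x : I → Bool | ∀ n < m + 1, x (q n) = u n x} =
        {x | ∀ n < m, x (q n) = u n x} ∩ {x | x (q m) = u m x} := by
      ext x; exact Nat.forall_lt_succ_right
    have e2 : flip (q m) ⁻¹' ({x | ∀ n < m, x (q n) = u n x} ∩ {x | x (q m) = u m x}) =
        {x | ∀ n < m, x (q n) = u n x} \ {x | x (q m) = u m x} := by
      ext x
      simp only [Set.mem_preimage, Set.mem_inter_iff, Set.mem_ofPred_eq, hf, Set.mem_sdiff]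
      refine and_congr (forall₂_congr fun n hn => ?_) ?_
      · rw [flip, if_neg fun h => hn.ne (hq h)]
      · rw [flip, if_pos rfl]
        cases x (q m) <;> cases u m x <;> simp
    rw [e1]
    refine ⟨ih.1.inter hD, ?_⟩
    have h1 := real_preimage (mp_flip (q m)) (ih.1.inter hD)
    have h2 := measureReal_inter_add_sdiff (μ := coin I)
      (s := {x | ∀ n < m, x (q n) = u n x}) hD
    rw [e2] at h1
    rw [pow_succ, ← ih.2]
    linarith

/-- sign of a bit -/
def sg (b : Bool) : ℝ := if b then -1 else 1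

/-- Walsh character -/
def chi (A : Finset I) (x : I → Bool) : ℝ := ∏ p ∈ A, sg (x p)

theorem sg_not (b : Bool) : sg (!b) = -sg b := by cases b <;> simp [sg]
theorem sg_mul_self (b : Bool) : sg b * sg b = 1 := by cases b <;> simp [sg]
theorem abs_sg (b : Bool) : |sg b| = 1 := by cases b <;> simp [sg]

theorem abs_chi (A : Finset I) (x : I → Bool) : |chi A x| = 1 := by
  simp [chi, abs_prod, abs_sg]

theorem measurable_chi (A : Finset I) : Measurable (chi A) :=
  Finset.measurable_prod _ fun p _ => (measurable_of_finite sg).comp (measurable_pi_apply p)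

theorem chi_flip (A : Finset I) (q : I) (x : I → Bool) :
    chi A (flip q x) = (if q ∈ A then -1 else 1) * chi A x := by
  unfold chi
  split_ifs with h
  · rw [← mul_prod_erase _ _ h, ← mul_prod_erase _ _ h, flip, if_pos rfl, sg_not,
      prod_congr rfl fun p hp => by rw [flip, if_neg (ne_of_mem_erase hp)]]
    ring
  · rw [one_mul]
    exact prod_congr rfl fun p hp => by rw [flip, if_neg fun e : p = q => h (e ▸ hp)]

theorem integrable_chi_mul (A B : Finset I) :
    Integrable (fun x => chi A x * chi B x) (coin I) :=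
  Integrable.of_bound ((measurable_chi A).mul (measurable_chi B)).aestronglyMeasurable 1
    (Filter.Eventually.of_forall fun x => by simp [abs_chi])

theorem integral_chi_mul (A B : Finset I) :
    ∫ x, chi A x * chi B x ∂(coin I) = if A = B then 1 else 0 := by
  split_ifs with h
  · subst h
    have : ∀ x, chi A x * chi A x = 1 := fun x => by
      rw [← abs_mul_abs_self, abs_chi, one_mul]
    simp [this]
  · obtain ⟨q, hq⟩ : ∃ q, ¬ (q ∈ A ↔ q ∈ B) := by
      by_contra hc
      push Not at hc
      exact h (Finset.ext hc)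
    have h1 := integral_map (μ := coin I) (mp_flip q).measurable.aemeasurable
      (f := fun x => chi A x * chi B x)
      ((measurable_chi A).mul (measurable_chi B)).aestronglyMeasurable
    rw [(mp_flip q).map_eq] at h1
    have h2 : ∀ x, chi A (flip q x) * chi B (flip q x) = -(chi A x * chi B x) := fun x => by
      rw [chi_flip, chi_flip]
      by_cases hA : q ∈ A <;> by_cases hB : q ∈ B <;> simp_all
    simp only [h2, integral_neg] at h1
    linarith

theorem integral_sq (T : Finset (Finset I)) (b : Finset I → ℝ) :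
    ∫ x, (∑ η ∈ T, b η * chi η x) ^ 2 ∂(coin I) = ∑ η ∈ T, b η ^ 2 := by
  have e : ∀ x, (∑ η ∈ T, b η * chi η x) ^ 2 =
      ∑ η ∈ T, ∑ ζ ∈ T, b η * b ζ * (chi η x * chi ζ x) := fun x => by
    rw [pow_two, sum_mul_sum]
    exact sum_congr rfl fun _ _ => sum_congr rfl fun _ _ => by ring
  simp only [e]
  rw [integral_finsetSum _ fun η _ => integrable_finsetSum _ fun ζ _ =>
    (integrable_chi_mul η ζ).const_mul _]
  refine sum_congr rfl fun η hη => ?_
  rw [integral_finsetSum _ fun ζ _ => (integrable_chi_mul η ζ).const_mul _]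
  simp [integral_const_mul, integral_chi_mul, hη, pow_two]

theorem integral_lin (T : Finset (Finset I)) (b : Finset I → ℝ) (hb : ∀ η, η ∉ T → b η = 0) :
    ∫ x, ∑ η ∈ T, b η * chi η x ∂(coin I) = b ∅ := by
  have e : ∀ η x, chi η x = chi η x * chi (∅ : Finset I) x := fun η x => by simp [chi]
  rw [integral_finsetSum _ fun η _ => by
    simpa only [← e] using (integrable_chi_mul η ∅).const_mul (b η)]
  rw [sum_congr rfl fun η _ => by
    rw [integral_const_mul, show (fun x => chi η x) = fun x => chi η x * chi ∅ x from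
      funext (e η), integral_chi_mul]]
  simp only [mul_ite, mul_one, mul_zero, sum_ite_eq']
  split_ifs with h
  · rfl
  · exact (hb _ h).symm

/-- sets whose indicator is a finite combination of characters -/
def Poly (I : Type) : Set (Set (I → Bool)) :=
  {S | MeasurableSet S ∧ S.indicator 1 ∈
    Algebra.adjoin ℝ (Set.range fun (p : I) (x : I → Bool) => sg (x p))}

theorem isSetRing_poly : IsSetRing (Poly I) where
  empty_mem := ⟨.empty, by rw [Set.indicator_empty']; exact zero_mem _⟩
  union_mem := fun s t hs ht => ⟨hs.1.union ht.1, by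
    have : (s ∪ t).indicator (1 : (I → Bool) → ℝ) =
        s.indicator 1 + t.indicator 1 - s.indicator 1 * t.indicator 1 := by
      funext x
      by_cases h1 : x ∈ s <;> by_cases h2 : x ∈ t <;> simp [h1, h2]
    rw [this]
    exact sub_mem (add_mem hs.2 ht.2) (mul_mem hs.2 ht.2)⟩
  sdiff_mem := fun s t hs ht => ⟨hs.1.diff ht.1, by
    have : (s \ t).indicator (1 : (I → Bool) → ℝ) =
        s.indicator 1 - s.indicator 1 * t.indicator 1 := by
      funext x
      by_cases h1 : x ∈ s <;> by_cases h2 : x ∈ t <;> simp [h1, h2]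
    rw [this]
    exact sub_mem hs.2 (mul_mem hs.2 ht.2)⟩

theorem generateFrom_poly :
    (MeasurableSpace.pi : MeasurableSpace (I → Bool)) = MeasurableSpace.generateFrom (Poly I) := by
  refine le_antisymm (iSup_le fun p => ?_) (MeasurableSpace.generateFrom_le fun s hs => hs.1)
  rintro _ ⟨B, -, rfl⟩
  refine MeasurableSpace.measurableSet_generateFrom
    ⟨measurable_pi_apply p (Set.toFinite B).measurableSet, ?_⟩
  have : ((fun x : I → Bool => x p) ⁻¹' B).indicator (1 : (I → Bool) → ℝ) =
      ((B.indicator 1 false + B.indicator 1 true) / 2 : ℝ) • (1 : (I → Bool) → ℝ) +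
      ((B.indicator 1 false - B.indicator 1 true) / 2 : ℝ) • fun x => sg (x p) := by
    funext x
    have : ((fun x : I → Bool => x p) ⁻¹' B).indicator (1 : (I → Bool) → ℝ) x =
        B.indicator 1 (x p) := rfl
    rw [this]
    simp only [Pi.add_apply, Pi.smul_apply, Pi.one_apply, smul_eq_mul]
    cases x p <;> simp only [sg] <;> simp <;> ring
  rw [this]
  exact add_mem (Subalgebra.smul_mem _ (one_mem _) _)
    (Subalgebra.smul_mem _ (Algebra.subset_adjoin (Set.mem_range_self p)) _)

theorem exists_poly {S : Set (I → Bool)} (hS : MeasurableSet S) {ε : ℝ} (hε : 0 < ε) :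
    ∃ T ∈ Poly I, (coin I).real (T ∆ S) ≤ ε := by
  obtain ⟨T, hT, h⟩ := exists_measure_symmDiff_lt_of_generateFrom_isSetRing (μ := coin I)
    isSetRing_poly ⟨{Set.univ}, Set.countable_singleton _, by
      rintro _ rfl
      exact ⟨.univ, by rw [Set.indicator_univ]; exact one_mem _⟩, by simp⟩ generateFrom_poly hS
    (ENNReal.ofReal_pos.2 hε)
  exact ⟨T, hT, ENNReal.toReal_le_of_le_ofReal hε.le h.le⟩

theorem Poly.exists_coeff {S : Set (I → Bool)} (hS : S ∈ Poly I) :
    ∃ (s : Finset (Finset I)) (a : Finset I → ℝ), (∀ A, A ∉ s → a A = 0) ∧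
      ∀ x, S.indicator (1 : (I → Bool) → ℝ) x = ∑ A ∈ s, a A * chi A x := by
  have h1 : S.indicator (1 : (I → Bool) → ℝ) ∈ Submodule.span ℝ (Set.range (chi (I := I))) := by
    have h2 := hS.2
    rw [← Subalgebra.mem_toSubmodule, Algebra.adjoin_eq_span] at h2
    refine Submodule.span_mono (fun f hf => ?_) h2
    induction hf using Submonoid.closure_induction_left with
    | one => exact ⟨∅, by funext x; simp [chi]⟩
    | mul_left g hg f _ ih =>
      obtain ⟨p, rfl⟩ := hg
      obtain ⟨A, rfl⟩ := ih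
      by_cases hp : p ∈ A
      · refine ⟨A.erase p, funext fun x => ?_⟩
        simp only [Pi.mul_apply, chi]
        rw [← mul_prod_erase _ _ hp, ← mul_assoc, sg_mul_self, one_mul]
      · exact ⟨insert p A, funext fun x => by simp only [Pi.mul_apply, chi, prod_insert hp]⟩
  obtain ⟨c, hc⟩ := Finsupp.mem_span_range_iff_exists_finsupp.1 h1
  refine ⟨c.support, c, fun A hA => Finsupp.notMem_support_iff.1 hA, fun x => ?_⟩
  rw [← hc, Finsupp.sum, Finset.sum_apply]
  rfl

theorem exists_word {G Ξ : Type*} [Group G] [MulAction G Ξ] :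
    ∃ wd : Ξ → G, ∀ x : Ξ, (∀ g : G, g • x = x → g = 1) → ∀ g : G, wd (g • x) = g * wd x := by
  have h : ∀ x : Ξ, ∃ g : G, g • (Quotient.mk (MulAction.orbitRel G Ξ) x).out = x := fun x =>
    (MulAction.orbitRel G Ξ).symm (Quotient.mk_out (s := MulAction.orbitRel G Ξ) x)
  choose wd hwd using h
  refine ⟨wd, fun x hx g => ?_⟩
  have h1 : Quotient.mk (MulAction.orbitRel G Ξ) (g • x) = Quotient.mk _ x :=
    Quotient.sound (MulAction.mem_orbit x g)
  have h2 := hwd (g • x)
  rw [h1] at h2
  have h3 := hx (wd x * (wd (g • x))⁻¹ * g) (by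
    rw [mul_smul, mul_smul, inv_smul_eq_iff.2 h2.symm, hwd])
  rw [mul_eq_one_iff_eq_inv, mul_inv_eq_iff_eq_mul, eq_inv_mul_iff_mul_eq] at h3
  exact h3.symm

theorem sq_sum_le {ι : Type} [Fintype ι] (x : ι → ℝ) (P : ι → Prop) [DecidablePred P]
    (hP : ∀ i j, ¬ P i → ¬ P j → i = j) :
    (∑ i, x i) ^ 2 ≤ 2 * Fintype.card ι * (∑ i, if P i then x i ^ 2 else 0) + 2 * ∑ i, x i ^ 2 := by
  classical
  rw [← sum_filter_add_sum_filter_not univ P x, ← sum_filter]
  have h1 : (∑ i ∈ univ.filter P, x i) ^ 2 ≤ Fintype.card ι * ∑ i ∈ univ.filter P, x i ^ 2 := by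
    refine sq_sum_le_card_mul_sum_sq.trans (mul_le_mul_of_nonneg_right ?_ (by positivity))
    exact_mod_cast card_le_univ _
  have h2 : (∑ i ∈ univ.filter fun i => ¬ P i, x i) ^ 2 ≤ ∑ i, x i ^ 2 := by
    refine sq_sum_le_card_mul_sum_sq.trans ?_
    have h3 : ((univ.filter fun i => ¬ P i).card : ℝ) ≤ 1 := by
      exact_mod_cast card_le_one.2 fun i hi j hj => hP i j (mem_filter.1 hi).2 (mem_filter.1 hj).2
    refine (mul_le_of_le_one_left (by positivity) h3).trans ?_
    exact sum_le_sum_of_subset_of_nonneg (subset_univ _) fun _ _ _ => sq_nonneg _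
  nlinarith [sq_nonneg (∑ i ∈ univ.filter P, x i - ∑ i ∈ univ.filter fun i => ¬ P i, x i)]

/-- the `ℓ²` bound for an action of a free group that is free off one fixed point -/
theorem l2_bound {ι Ξ : Type} [Fintype ι] [DecidableEq Ξ] [MulAction (FreeGroup ι) Ξ] (o : Ξ)
    (ho : ∀ g : FreeGroup ι, g • o = o) (hfree : ∀ x : Ξ, x ≠ o → ∀ g : FreeGroup ι, g • x = x → g = 1)
    (s T : Finset Ξ) (hT : ∀ i : ι, ∀ A ∈ s, FreeGroup.of i • A ∈ T) (a : Ξ → ℝ)
    (ha : ∀ A, A ∉ s → a A = 0) :
    ∑ η ∈ T, (∑ i : ι, a ((FreeGroup.of i)⁻¹ • η)) ^ 2 ≤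
      4 * Fintype.card ι * (∑ A ∈ s, a A ^ 2 - a o ^ 2) + (Fintype.card ι : ℝ) ^ 2 * a o ^ 2 := by
  classical
  obtain ⟨wd, hwd⟩ := exists_word (G := FreeGroup ι) (Ξ := Ξ)
  have tr : ∀ (i : ι) (h : Ξ → ℝ), (∀ A, A ∉ s → h A = 0) →
      ∑ η ∈ T, h ((FreeGroup.of i)⁻¹ • η) = ∑ A ∈ s, h A := by
    intro i h hh
    rw [← sum_subset (s₁ := s.map (MulAction.toPerm (FreeGroup.of i)).toEmbedding) (s₂ := T)]
    · simp
    · intro η hη
      obtain ⟨A, hA, rfl⟩ := mem_map.1 hη
      exact hT i A hA
    · intro η _ hη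
      refine hh _ fun hc => hη (mem_map.2 ⟨_, hc, by simp⟩)
  set n : ℝ := (Fintype.card ι : ℝ) with hn
  have hn0 : 0 ≤ n := Nat.cast_nonneg _
  let b : Ξ → ℝ := fun A => if A = o then 0 else a A ^ 2
  have hb0 : ∀ A, 0 ≤ b A := fun A => by simp only [b]; split_ifs <;> positivity
  have hbs : ∀ A, A ∉ s → b A = 0 := fun A hA => by simp [b, ha A hA]
  have hb : ∑ A ∈ s, b A = ∑ A ∈ s, a A ^ 2 - a o ^ 2 := by
    have : ∀ A, a A ^ 2 = b A + if A = o then a o ^ 2 else 0 := fun A => by
      simp only [b]; split_ifs with h <;> simp [h]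
    rw [sum_congr rfl fun A _ => this A, sum_add_distrib, sum_ite_eq']
    split_ifs with h
    · ring
    · rw [ha o h]; ring
  have pt : ∀ η, (∑ i : ι, a ((FreeGroup.of i)⁻¹ • η)) ^ 2 ≤ (if η = o then n ^ 2 * a o ^ 2 else 0) +
      (2 * n * (∑ i : ι, if St (i, false) (wd ((FreeGroup.of i)⁻¹ • η)) then
        b ((FreeGroup.of i)⁻¹ • η) else 0) + 2 * ∑ i : ι, b ((FreeGroup.of i)⁻¹ • η)) := by
    intro η
    by_cases h : η = o
    · subst h
      simp [ho, b, mul_pow, hn]
    · have hne : ∀ i : ι, (FreeGroup.of i)⁻¹ • η ≠ o := fun i hc =>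
        h (by rw [inv_smul_eq_iff, ho] at hc; exact hc)
      simp only [b, if_neg h, if_neg (hne _), zero_add]
      refine sq_sum_le _ (fun i => St (i, false) (wd ((FreeGroup.of i)⁻¹ • η))) fun i j hi hj => ?_
      have k : ∀ i : ι, ¬ St (i, false) (wd ((FreeGroup.of i)⁻¹ • η)) → St (i, true) (wd η) := by
        intro i hi
        have := hwd _ (hfree _ (hne i)) (FreeGroup.of i)
        rw [smul_inv_smul] at this
        rw [this]
        exact St_el_mul.2 hi
      simpa using (k i hi).unique (k j hj)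
  refine (sum_le_sum fun η _ => pt η).trans ?_
  rw [sum_add_distrib, sum_add_distrib, ← mul_sum, ← mul_sum, sum_comm, sum_comm (s := T),
    sum_congr rfl fun i _ => tr i (fun A => if St (i, false) (wd A) then b A else 0)
      fun A hA => by simp [hbs A hA],
    sum_congr rfl fun i _ => tr i b hbs, sum_comm, sum_const, card_univ, nsmul_eq_mul, ← hb, ← hn]
  have h1 : ∑ A ∈ s, ∑ i : ι, (if St (i, false) (wd A) then b A else 0) ≤ ∑ A ∈ s, b A := by
    refine sum_le_sum fun A _ => ?_
    rw [← sum_filter, sum_const, nsmul_eq_mul]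
    refine mul_le_of_le_one_left (hb0 A) ?_
    exact_mod_cast card_le_one.2 fun i hi j hj => by
      simpa using (mem_filter.1 hi).2.unique (mem_filter.1 hj).2
  have h2 : ∑ η ∈ T, (if η = o then n ^ 2 * a o ^ 2 else 0) ≤ n ^ 2 * a o ^ 2 := by
    rw [sum_ite_eq']
    split_ifs
    · exact le_rfl
    · positivity
  have h3 := mul_le_mul_of_nonneg_left h1 hn0
  linarith

end Crest.Agent.R191.BernAux
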