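import Mathlib
import Crest.Prelude.Def_Cost
import Crest.Agent.R191.BernAux

/-!
Row 191 (S0291): the Bernoulli shift over `Γ × ℕ` and its spectral gap for free families.
-/

set_option autoImplicit false
set_option linter.unusedSectionVars false

namespace Crest.Agent.R191

open MeasureTheory
open scoped ENNReal

/-- The Bernoulli space. -/
def Bern (Γ : Type) : Type := Γ × ℕ → Bool

instance (Γ : Type) : MeasurableSpace (Bern Γ) := MeasurableSpace.pi

instance (Γ : Type) [Countable Γ] : StandardBorelSpace (Bern Γ) :=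
  inferInstanceAs (StandardBorelSpace (Γ × ℕ → Bool))

instance (Γ : Type) [Group Γ] : MulAction Γ (Bern Γ) where
  smul γ x := fun p => x (p.1 * γ, p.2)
  one_smul x := by funext p; change x (p.1 * 1, p.2) = x p; simp
  mul_smul γ δ x := by
    funext p; change x (p.1 * (γ * δ), p.2) = x (p.1 * γ * δ, p.2); rw [mul_assoc]

/-- The fair coin product measure. -/
noncomputable def bern (Γ : Type) : Measure (Bern Γ) :=
  Measure.infinitePi (fun _ : Γ × ℕ => (PMF.uniformOfFintype Bool).toMeasure)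

instance (Γ : Type) : IsProbabilityMeasure (bern Γ) :=
  inferInstanceAs (IsProbabilityMeasure
    (Measure.infinitePi (fun _ : Γ × ℕ => (PMF.uniformOfFintype Bool).toMeasure)))

variable {Γ : Type} [Group Γ] [Countable Γ]

omit [Countable Γ] in
theorem bern_mp (g : Γ) : MeasurePreserving (fun x : Bern Γ => g • x) (bern Γ) (bern Γ) :=
  BernAux.mp_reindex (Equiv.prodCongr (Equiv.mulRight g) (Equiv.refl ℕ))

theorem bern_free : Crest.Dynamics.IsFreePMPAction Γ (Bern Γ) (bern Γ) := by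
  classical
  refine ⟨bern_mp, fun g hg => ?_⟩
  have h := BernAux.real_cyl (I := Γ × ℕ) (fun n => (1, n)) (fun a b h => (Prod.ext_iff.1 h).2)
    (fun n x => x (g, n)) (fun n => measurable_pi_apply _) fun n m x => by
      rw [BernAux.flip, if_neg fun h => hg (Prod.ext_iff.1 h).1]
  have h1 : ∀ m : ℕ, (bern Γ).real {x | g • x = x} ≤ (1 / 2) ^ m := fun m => by
    rw [← (h m).2]
    refine measureReal_mono (μ := bern Γ) fun x hx n _ => ?_
    have := congrFun hx (1, n)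
    rw [← this]
    change x (1 * g, n) = _
    rw [one_mul]
  have h2 : (bern Γ).real {x | g • x = x} ≤ 0 :=
    ge_of_tendsto' (tendsto_pow_atTop_nhds_zero_of_lt_one (by norm_num) (by norm_num)) h1
  exact (measureReal_eq_zero_iff (measure_ne_top _ _)).1 (le_antisymm h2 measureReal_nonneg)

theorem bern_pieces (ε : ℝ≥0∞) (hε : 0 < ε) :
    ∃ (n : ℕ) (P : Fin n → Set (Bern Γ)), (∀ i, MeasurableSet (P i)) ∧
      (∀ i, 0 < bern Γ (P i) ∧ bern Γ (P i) ≤ ε) ∧ ∀ x, ∃ i, x ∈ P i := by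
  classical
  obtain ⟨m, hm⟩ := ENNReal.exists_inv_two_pow_lt hε.ne'
  let e := Fintype.equivFin (Fin m → Bool)
  let y : Fin (Fintype.card (Fin m → Bool)) → ℕ → Bool := fun i n =>
    if h : n < m then e.symm i ⟨n, h⟩ else false
  have h := fun i => BernAux.real_cyl (I := Γ × ℕ) (fun n => (1, n))
    (fun a b h => (Prod.ext_iff.1 h).2) (fun n _ => y i n) (fun n => measurable_const)
    (fun n m x => rfl) m
  refine ⟨_, fun i => {x | ∀ n < m, x (1, n) = y i n}, fun i => (h i).1, fun i => ?_,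
    fun x => ⟨e fun n => x (1, n), fun n hn => by simp [y, hn]⟩⟩
  have h1 : bern Γ {x | ∀ n < m, x (1, n) = y i n} = 2⁻¹ ^ m := by
    rw [← ENNReal.toReal_eq_toReal_iff' (measure_ne_top _ _) (by simp)]
    refine (h i).2.trans ?_
    simp
  rw [h1]
  exact ⟨ENNReal.pow_pos (by simp) _, hm.le⟩

/-- the action of the free group on finite sets of coordinates -/
@[reducible] noncomputable def finAct {ι : Type} (τ : ι → Γ) :
    MulAction (FreeGroup ι) (Finset (Γ × ℕ)) where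
  smul f A := A.map (Equiv.prodCongr (Equiv.mulRight (FreeGroup.lift τ f)⁻¹)
    (Equiv.refl ℕ)).toEmbedding
  one_smul A := by
    change A.map _ = A
    conv_rhs => rw [← Finset.map_refl (s := A)]
    congr 1
    ext p <;> simp
  mul_smul f g A := by
    change A.map _ = (A.map _).map _
    rw [Finset.map_map]
    congr 1
    ext p <;> simp [mul_assoc]

omit [Countable Γ] in
theorem spectral_poly {ι : Type} [Fintype ι] (τ : ι → Γ)
    (hτ : Function.Injective (FreeGroup.lift τ)) (S : Set (Bern Γ))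
    (hS : S ∈ BernAux.Poly (Γ × ℕ)) :
    ∑ i, ∑ j, (bern Γ).real ({x | (τ i)⁻¹ • x ∈ S} ∩ {x | (τ j)⁻¹ • x ∈ S}) ≤
      4 * Fintype.card ι * ((bern Γ).real S - (bern Γ).real S ^ 2) +
        (Fintype.card ι : ℝ) ^ 2 * (bern Γ).real S ^ 2 := by
  classical
  let _ := finAct τ
  obtain ⟨s, a, ha, hx⟩ := BernAux.Poly.exists_coeff hS
  have hSm : MeasurableSet S := hS.1
  replace hx : ∀ x : Bern Γ, S.indicator (1 : Bern Γ → ℝ) x = ∑ A ∈ s, a A * BernAux.chi A x := hx
  have hmem : ∀ (f : FreeGroup ι) (A : Finset (Γ × ℕ)) (p : Γ × ℕ), p ∈ A →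
      (p.1 * (FreeGroup.lift τ f)⁻¹, p.2) ∈ f • A := fun f A p hp =>
    Finset.mem_map.2 ⟨p, hp, rfl⟩
  have hfree : ∀ A : Finset (Γ × ℕ), A ≠ ∅ → ∀ f : FreeGroup ι, f • A = A → f = 1 := by
    intro A hA f hf
    obtain ⟨p, hp⟩ := Finset.nonempty_iff_ne_empty.2 hA
    have h1 : ∀ k : ℕ, f ^ k • A = A := fun k => by
      induction k with
      | zero => simp
      | succ k ih => rw [pow_succ, mul_smul, hf, ih]
    obtain ⟨k, l, hkl, h⟩ := Finite.exists_ne_map_eq_of_infinite fun k : ℕ =>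
      (⟨(p.1 * (FreeGroup.lift τ (f ^ k))⁻¹, p.2), h1 k ▸ hmem _ _ _ hp⟩ : A)
    have h2 : f ^ k = f ^ l := hτ (by simpa using h)
    by_contra h3
    exact hkl (injective_pow_iff_not_isOfFinOrder.2 (not_isOfFinOrder_of_isMulTorsionFree h3) h2)
  have hchi : ∀ (i : ι) (A : Finset (Γ × ℕ)) (x : Bern Γ),
      BernAux.chi A ((τ i)⁻¹ • x : Bern Γ) = BernAux.chi (FreeGroup.of i • A) x := by
    intro i A x
    change _ = BernAux.chi (A.map _) x
    simp only [BernAux.chi, Finset.prod_map, FreeGroup.lift_apply_of]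
    rfl
  let T : Finset (Finset (Γ × ℕ)) := Finset.univ.biUnion fun i : ι => s.image (FreeGroup.of i • ·)
  have hT : ∀ i : ι, ∀ A ∈ s, FreeGroup.of i • A ∈ T := fun i A hA =>
    Finset.mem_biUnion.2 ⟨i, Finset.mem_univ _, Finset.mem_image_of_mem _ hA⟩
  have key := BernAux.l2_bound (ι := ι) (∅ : Finset (Γ × ℕ)) (fun _ => rfl) hfree s T hT a ha
  have e1 : (bern Γ).real S = a ∅ := by
    rw [← BernAux.integral_lin s a ha, ← integral_indicator_one hSm]
    exact integral_congr_ae (Filter.Eventually.of_forall hx)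
  have e2 : (bern Γ).real S = ∑ A ∈ s, a A ^ 2 := by
    rw [← BernAux.integral_sq s a, ← integral_indicator_one hSm]
    refine integral_congr_ae (Filter.Eventually.of_forall fun x => ?_)
    simp only [← hx]
    by_cases h : x ∈ S <;> simp [h]
  have e3 : ∀ (i : ι) (x : Bern Γ), S.indicator (1 : Bern Γ → ℝ) ((τ i)⁻¹ • x) =
      ∑ η ∈ T, a ((FreeGroup.of i)⁻¹ • η) * BernAux.chi η x := by
    intro i x
    rw [← Finset.sum_subset (s₁ := s.map (MulAction.toPerm (FreeGroup.of i)).toEmbedding) (s₂ := T)]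
    · refine (hx _).trans ?_
      simp [hchi]
    · intro η hη
      obtain ⟨A, hA, rfl⟩ := Finset.mem_map.1 hη
      exact hT i A hA
    · intro η _ hη
      rw [ha _ fun hc => hη (Finset.mem_map.2 ⟨_, hc, by simp⟩), zero_mul]
  have hm : ∀ i j, MeasurableSet ({x : Bern Γ | (τ i)⁻¹ • x ∈ S} ∩ {x | (τ j)⁻¹ • x ∈ S}) :=
    fun i j => ((bern_mp _).measurable hSm).inter ((bern_mp _).measurable hSm)
  have e4 : ∑ i, ∑ j, (bern Γ).real ({x | (τ i)⁻¹ • x ∈ S} ∩ {x | (τ j)⁻¹ • x ∈ S}) =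
      ∑ η ∈ T, (∑ i : ι, a ((FreeGroup.of i)⁻¹ • η)) ^ 2 := by
    rw [← BernAux.integral_sq]
    simp only [← integral_indicator_one (hm _ _)]
    have hi : ∀ i j, Integrable (({x : Bern Γ | (τ i)⁻¹ • x ∈ S} ∩ {x | (τ j)⁻¹ • x ∈ S}).indicator
        (1 : Bern Γ → ℝ)) (bern Γ) := fun i j => (integrable_const 1).indicator (hm i j)
    rw [Finset.sum_congr rfl fun i _ => (integral_finsetSum _ fun j _ => hi i j).symm,
      ← integral_finsetSum _ fun i _ => integrable_finsetSum _ fun j _ => hi i j]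
    refine integral_congr_ae (Filter.Eventually.of_forall fun x => ?_)
    simp only [Finset.sum_mul]
    rw [Finset.sum_comm (s := T)]
    simp only [← e3]
    rw [pow_two, Finset.sum_mul_sum]
    refine Finset.sum_congr rfl fun i _ => Finset.sum_congr rfl fun j _ => ?_
    by_cases h1 : (τ i)⁻¹ • x ∈ S <;> by_cases h2 : (τ j)⁻¹ • x ∈ S <;> simp [h1, h2]
  rw [e4]
  rw [← e2, ← e1] at key
  exact key

theorem bern_spectral {ι : Type} [Fintype ι] (τ : ι → Γ)
    (hτ : Function.Injective (FreeGroup.lift τ)) (S : Set (Bern Γ)) (hS : MeasurableSet S) :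
    ∑ i, ∑ j, (bern Γ).real ({x | (τ i)⁻¹ • x ∈ S} ∩ {x | (τ j)⁻¹ • x ∈ S}) ≤
      4 * Fintype.card ι * ((bern Γ).real S - (bern Γ).real S ^ 2) +
        (Fintype.card ι : ℝ) ^ 2 * (bern Γ).real S ^ 2 := by
  classical
  set n : ℝ := (Fintype.card ι : ℝ) with hn
  have hn0 : 0 ≤ n := Nat.cast_nonneg _
  refine le_of_forall_pos_le_add fun ε hε => ?_
  have hK : 0 < 4 * n ^ 2 + 12 * n + 1 := by positivity
  obtain ⟨T, hT, hTS⟩ := BernAux.exists_poly (I := Γ × ℕ) (S := S) hS (div_pos hε hK)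
  set δ := ε / (4 * n ^ 2 + 12 * n + 1) with hδ
  have hδ0 : 0 < δ := div_pos hε hK
  have hδε : δ * (4 * n ^ 2 + 12 * n + 1) = ε := div_mul_cancel₀ _ hK.ne'
  obtain ⟨T, rfl⟩ : ∃ T' : Set (Bern Γ), T' = T := ⟨T, rfl⟩
  have hTm : MeasurableSet T := hT.1
  change (bern Γ).real (symmDiff T S) ≤ δ at hTS
  have key := spectral_poly τ hτ T hT
  have h1 := abs_le.1 ((abs_measureReal_sub_le_measureReal_symmDiff (μ := bern Γ)
    hTm.nullMeasurableSet hS.nullMeasurableSet).trans hTS)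
  have h2 : ∀ i j, (bern Γ).real ({x | (τ i)⁻¹ • x ∈ S} ∩ {x | (τ j)⁻¹ • x ∈ S}) ≤
      (bern Γ).real ({x | (τ i)⁻¹ • x ∈ T} ∩ {x | (τ j)⁻¹ • x ∈ T}) + 2 * δ := by
    intro i j
    have k : ∀ i, (bern Γ).real ((fun x : Bern Γ => (τ i)⁻¹ • x) ⁻¹' symmDiff T S) ≤ δ := fun i =>
      (BernAux.real_preimage (bern_mp _) (hTm.symmDiff hS)).trans_le hTS
    have hsub : {x : Bern Γ | (τ i)⁻¹ • x ∈ S} ∩ {x | (τ j)⁻¹ • x ∈ S} ⊆
        ({x | (τ i)⁻¹ • x ∈ T} ∩ {x | (τ j)⁻¹ • x ∈ T}) ∪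
        (((fun x : Bern Γ => (τ i)⁻¹ • x) ⁻¹' symmDiff T S) ∪
          ((fun x : Bern Γ => (τ j)⁻¹ • x) ⁻¹' symmDiff T S)) := by
      rintro x ⟨a, b⟩
      simp only [Set.mem_union, Set.mem_inter_iff, Set.mem_ofPred_eq, Set.mem_preimage,
        Set.mem_symmDiff] at a b ⊢
      tauto
    have := measureReal_mono (μ := bern Γ) hsub
    have := measureReal_union_le (μ := bern Γ) ({x | (τ i)⁻¹ • x ∈ T} ∩ {x | (τ j)⁻¹ • x ∈ T})
      (((fun x : Bern Γ => (τ i)⁻¹ • x) ⁻¹' symmDiff T S) ∪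
          ((fun x : Bern Γ => (τ j)⁻¹ • x) ⁻¹' symmDiff T S))
    have := measureReal_union_le (μ := bern Γ) ((fun x : Bern Γ => (τ i)⁻¹ • x) ⁻¹' symmDiff T S)
      ((fun x : Bern Γ => (τ j)⁻¹ • x) ⁻¹' symmDiff T S)
    linarith [k i, k j]
  refine (Finset.sum_le_sum fun i _ => Finset.sum_le_sum fun j _ => h2 i j).trans ?_
  simp only [Finset.sum_add_distrib, Finset.sum_const, Finset.card_univ, nsmul_eq_mul, ← hn] at key ⊢
  have a0 : 0 ≤ (bern Γ).real S := measureReal_nonneg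
  have a1 : (bern Γ).real S ≤ 1 := measureReal_le_one
  have b0 : 0 ≤ (bern Γ).real T := measureReal_nonneg
  have b1 : (bern Γ).real T ≤ 1 := measureReal_le_one
  generalize (bern Γ).real S = u at *
  generalize (bern Γ).real T = v at *
  have c1 : v ^ 2 ≤ u ^ 2 + 2 * δ := by nlinarith [h1.1, h1.2]
  have c2 : u ^ 2 ≤ v ^ 2 + 2 * δ := by nlinarith [h1.1, h1.2]
  have c3 := mul_le_mul_of_nonneg_left c1 (sq_nonneg n)
  have c4 := mul_le_mul_of_nonneg_left (show v - v ^ 2 ≤ u - u ^ 2 + 3 * δ by linarith [h1.2]) hn0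
  nlinarith

theorem bern_saturate (τ : Fin 5 → Γ) (hτ : Function.Injective (FreeGroup.lift τ))
    (A : Set (Bern Γ)) (hA : MeasurableSet A) (hA0 : 0 < bern Γ A) :
    ∀ᵐ x ∂(bern Γ), ∃ h ∈ Subgroup.closure (Set.range τ), h • x ∈ A := by
  set S : Set (Bern Γ) := {x | ¬ ∃ h ∈ Subgroup.closure (Set.range τ), h • x ∈ A} with hSdef
  have hS : MeasurableSet S := by
    have : S = ⋂ h : Subgroup.closure (Set.range τ), ((fun x : Bern Γ => (h : Γ) • x) ⁻¹' A)ᶜ := by
      ext x; simp [hSdef]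
    rw [this]
    exact MeasurableSet.iInter fun h => ((bern_mp _).measurable hA).compl
  have hinv : ∀ i, {x : Bern Γ | (τ i)⁻¹ • x ∈ S} = S := by
    intro i
    have hi : τ i ∈ Subgroup.closure (Set.range τ) := Subgroup.subset_closure ⟨i, rfl⟩
    ext x
    simp only [hSdef, Set.mem_ofPred_eq]
    refine not_congr ⟨fun ⟨h, hh, hx⟩ => ⟨h * (τ i)⁻¹, mul_mem hh (inv_mem hi), ?_⟩,
      fun ⟨h, hh, hx⟩ => ⟨h * τ i, mul_mem hh hi, ?_⟩⟩
    · rwa [mul_smul]
    · rwa [mul_smul, smul_inv_smul]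
  have key := bern_spectral τ hτ S hS
  simp only [hinv, Set.inter_self, Finset.sum_const, Finset.card_univ, Fintype.card_fin,
    nsmul_eq_mul] at key
  have h1 : (bern Γ).real S ≤ (bern Γ).real Aᶜ :=
    measureReal_mono fun x hx hxA => hx ⟨1, one_mem _, by simpa using hxA⟩
  rw [probReal_compl_eq_one_sub hA] at h1
  have h2 : 0 < (bern Γ).real A := ENNReal.toReal_pos hA0.ne' (measure_ne_top _ _)
  have a0 : 0 ≤ (bern Γ).real S := measureReal_nonneg
  have h3 : (bern Γ).real S = 0 := by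
    push_cast at key
    nlinarith
  exact (measureReal_eq_zero_iff (measure_ne_top _ _)).1 h3

end Crest.Agent.R191
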