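import Crest.Agent.R191.Ext

/-!
Row 191 (S0291): completing cells (the growth process), combinatorial part.
-/

set_option autoImplicit false
set_option linter.unusedSectionVars false

namespace Crest.Agent.R191

open FreeGroup

variable {A U : Type*}

/-- The symmetric set of directed edges given by a set of positive edges. -/
def symE (Y : FreeGroup A → A → Prop) (g : FreeGroup A) : A × Bool → Prop
  | (a, true) => Y g a
  | (a, false) => Y (g * (of a)⁻¹) a

@[simp] lemma symE_true (Y : FreeGroup A → A → Prop) (g : FreeGroup A) (a : A) :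
    symE Y g (a, true) ↔ Y g a := Iff.rfl

@[simp] lemma symE_false (Y : FreeGroup A → A → Prop) (g : FreeGroup A) (a : A) :
    symE Y g (a, false) ↔ Y (g * (of a)⁻¹) a := Iff.rfl

lemma symE_symm (Y : FreeGroup A → A → Prop) : Symm (symE Y) := by
  rintro g ⟨a, _ | _⟩ h
  · simpa using h
  · simpa using h

lemma symE_mul {Y : FreeGroup A → A → Prop} {l : FreeGroup A} (h : ∀ g a, Y g a → Y (l * g) a)
    (g : FreeGroup A) (s : A × Bool) (hs : symE Y g s) : symE Y (l * g) s := by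
  rcases s with ⟨a, _ | _⟩
  · simpa [mul_assoc] using h _ _ hs
  · exact h _ _ hs

lemma Symm.reach_iff {E : FreeGroup A → A × Bool → Prop} (hE : Symm E) {g : FreeGroup A}
    {s : A × Bool} (h : E g s) : Reach E g ↔ Reach E (g * el s) := by
  refine ⟨fun H => H.step h, fun H => ?_⟩
  have := H.step (hE _ _ h)
  rw [el_inv'] at this
  simpa using this

variable [DecidableEq A]

lemma hull_false {L : Subgroup (FreeGroup A)} {g : FreeGroup A} {a : A} :
    Hull L g (a, false) ↔ Hull L (g * (of a)⁻¹) (a, true) := by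
  rw [← hull_rev]; simp

lemma symE_of_hull {L : Subgroup (FreeGroup A)} {Y : FreeGroup A → A → Prop}
    (h : ∀ g a, Hull L g (a, true) → Y g a) (g : FreeGroup A) (s : A × Bool) (hs : Hull L g s) :
    symE Y g s := by
  rcases s with ⟨a, _ | _⟩
  · exact h _ _ (hull_false.1 hs)
  · exact h _ _ hs

namespace Cfg

variable (c : Cfg A U)

lemma hull_axis_in {L : Subgroup (FreeGroup A)} {p : FreeGroup A} {u : U} (h : c.loop p u ∈ L)
    (n : ℕ) : Hull L (c.vx p u (n + 1)) (c.σ n u, false) := by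
  rw [hull_false, vx_succ]; simpa using c.hull_axis h n

omit [DecidableEq A] in
lemma reach_axis {E : FreeGroup A → A × Bool → Prop} (hE : Symm E) (l p : FreeGroup A) (u : U)
    (i : ℕ) : ∀ k, (∀ n, i ≤ n → n < i + k → E (l * c.vx p u n) (c.σ n u, true)) →
      (Reach E (l * c.vx p u i) ↔ Reach E (l * c.vx p u (i + k))) := by
  intro k
  induction k with
  | zero => simp
  | succ k ih =>
    intro h
    rw [ih fun n h1 h2 => h n h1 (by omega), ← add_assoc, vx_succ, ← mul_assoc]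
    exact hE.reach_iff (h (i + k) (by omega) (by omega))

omit [DecidableEq A] in
lemma vx_mod (p : FreeGroup A) (u : U) (n : ℕ) :
    c.vx p u n = c.vx (c.loop p u ^ (n / c.ℓ) * p) u (n % c.ℓ) := by
  rw [vx_mul, ← vx_add_mul_ℓ, Nat.mod_add_div']

omit [DecidableEq A] in
lemma loop_mul_mem {L : Subgroup (FreeGroup A)} {l p : FreeGroup A} {u : U} (hl : l ∈ L) :
    c.loop (l * p) u ∈ L ↔ c.loop p u ∈ L := by
  rw [loop_mul, L.mul_mem_cancel_right (L.inv_mem hl), L.mul_mem_cancel_left hl]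

lemma Avail.mul {L : Subgroup (FreeGroup A)} {l p : FreeGroup A} {u : U} (hl : l ∈ L)
    (h : c.Avail L p u) : c.Avail L (l * p) u := by
  obtain ⟨i, hi, h⟩ := h
  exact ⟨i, hi, fun n h1 h2 => by rw [vx_mul]; exact (h n h1 h2).mul hl⟩

/-- Add the loops around all available cells with type in `P`. -/
def step (L : Subgroup (FreeGroup A)) (P : Set U) : Subgroup (FreeGroup A) :=
  Subgroup.closure ((L : Set (FreeGroup A)) ∪ {g | ∃ p u, u ∈ P ∧ c.Avail L p u ∧ g = c.loop p u})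

lemma le_step (L : Subgroup (FreeGroup A)) (P : Set U) : L ≤ c.step L P :=
  fun _ h => Subgroup.subset_closure (.inl h)

lemma loop_mem_step {L : Subgroup (FreeGroup A)} {P : Set U} {p : FreeGroup A} {u : U}
    (hu : u ∈ P) (h : c.Avail L p u) : c.loop p u ∈ c.step L P :=
  Subgroup.subset_closure (.inr ⟨p, u, hu, h, rfl⟩)

lemma hull_step {L : Subgroup (FreeGroup A)} {P : Set U} {g : FreeGroup A} {a : A}
    (h : Hull (c.step L P) g (a, true)) :
    ∃ l ∈ c.step L P, Hull L (l * g) (a, true) ∨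
      ∃ p u n, u ∈ P ∧ c.Avail L p u ∧ l * g = c.vx p u n ∧ a = c.σ n u := by
  let Y : FreeGroup A → A → Prop := fun g a => ∃ l ∈ c.step L P, Hull L (l * g) (a, true) ∨
      ∃ p u n, u ∈ P ∧ c.Avail L p u ∧ l * g = c.vx p u n ∧ a = c.σ n u
  have hinv : ∀ l ∈ c.step L P, ∀ g s, symE Y g s → symE Y (l * g) s := by
    intro l hl
    apply symE_mul
    rintro g a ⟨l', hl', h⟩
    exact ⟨l' * l⁻¹, mul_mem hl' (inv_mem hl), by simpa [mul_assoc] using h⟩
  have hH : ∀ g s, Hull L g s → symE Y g s :=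
    symE_of_hull fun g a h => ⟨1, one_mem _, .inl (by simpa using h)⟩
  refine hull_subset (symE_symm Y) (reach_of_closure (symE_symm Y) hinv ?_) h
  rintro h (hh | ⟨p, u, hu, hav, rfl⟩)
  · exact (reach_hull_of_mem hh).mono hH
  · have hl := c.loop_mem_step hu hav
    obtain ⟨i, hi, hav'⟩ := id hav
    have h4 := c.four_le
    have r1 : Reach (symE Y) (c.vx p u i) :=
      (reach_hull_of_hull (hav' i le_rfl (by omega))).mono hH
    have r2 := (c.reach_axis (symE_symm Y) 1 p u i c.ℓ (fun n _ _ =>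
      ⟨1, one_mem _, .inr ⟨p, u, n, hu, hav, by simp, rfl⟩⟩)).1 (by simpa using r1)
    rw [one_mul, vx_add_ℓ] at r2
    exact Reach.back (symE_symm Y) (hinv _ hl) r1 r2

section Process

variable (L : ℕ → Subgroup (FreeGroup A)) (P : ℕ → Set U) (T : ℕ)

/-- The cell `(p, u)` is, modulo the final group, added in round `t`. -/
def Add (t : ℕ) (p : FreeGroup A) (u : U) : Prop :=
  ∃ l ∈ L T, u ∈ P t ∧ c.Avail (L t) (l * p) u

/-- The edge `(g, a)` is, modulo the final group, in the hull in round `t`. -/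
def HH (t : ℕ) (g : FreeGroup A) (a : A) : Prop := ∃ l ∈ L T, Hull (L t) (l * g) (a, true)

/-- The `n`-th edge of the cell `(p, u)` is new when the cell is first added. -/
def New (p : FreeGroup A) (u : U) (n : ℕ) : Prop :=
  ∃ t, t < T ∧ c.Add L P T t p u ∧ (∀ t', t' < t → ¬ c.Add L P T t' p u) ∧
    ¬ HH L T t (c.vx p u n) (c.σ n u)

variable {L P T} (hL : ∀ t, L (t + 1) = c.step (L t) (P t))
include hL

lemma proc_mono : Monotone L := monotone_nat_of_le_succ fun t => hL t ▸ c.le_step _ _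

lemma Add.loop_mem {t : ℕ} (ht : t < T) {p : FreeGroup A} {u : U} (h : c.Add L P T t p u) :
    c.loop p u ∈ L T := by
  obtain ⟨l, hl, hu, hav⟩ := h
  have := c.loop_mem_step hu hav
  rw [← hL] at this
  exact (c.loop_mul_mem hl).1 (c.proc_mono hL ht this)

lemma HH_cases {t : ℕ} (ht : t ≤ T) {g : FreeGroup A} {a : A} (h : HH L T t g a) :
    HH L T 0 g a ∨ ∃ p u n, n < c.ℓ ∧ c.New L P T p u n ∧ g = c.vx p u n ∧ a = c.σ n u := by
  classical
  induction t with
  | zero => exact .inl h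
  | succ t ih =>
    by_cases h' : HH L T t g a
    · exact ih (by omega) h'
    right
    obtain ⟨l, hl, h⟩ := h
    rw [hL] at h
    obtain ⟨l', hl', h⟩ := c.hull_step h
    rw [← hL] at hl'
    have hl'' := c.proc_mono hL ht hl'
    rcases h with h | ⟨p, u, n, hu, hav, e1, rfl⟩
    · exact (h' ⟨l' * l, mul_mem hl'' hl, by rwa [mul_assoc]⟩).elim
    have hloop : c.loop p u ∈ L T := by
      have := c.loop_mem_step hu hav
      rw [← hL] at this
      exact c.proc_mono hL ht this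
    set m := (l' * l)⁻¹ * c.loop p u ^ (n / c.ℓ) with hm
    have hmL : m ∈ L T := mul_mem (inv_mem (mul_mem hl'' hl)) (pow_mem hloop _)
    have eg : g = c.vx (m * p) u (n % c.ℓ) := by
      rw [hm, mul_assoc, vx_mul, ← vx_mod, ← e1]; group
    have hadd : c.Add L P T t (m * p) u := ⟨m⁻¹, inv_mem hmL, hu, by simpa using hav⟩
    refine ⟨m * p, u, n % c.ℓ, Nat.mod_lt _ c.ℓ_pos, ⟨t, by omega, hadd, ?_, ?_⟩, eg,
      (c.σ_mod n u).symm⟩
    · rintro t' ht' ⟨l₂, hl₂, hu₂, hav₂⟩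
      apply h'
      have := c.loop_mem_step hu₂ hav₂
      rw [← hL] at this
      have h3 := c.hull_axis (c.proc_mono hL (show t' + 1 ≤ t by omega) this) (n % c.ℓ)
      rw [vx_mul, ← eg, c.σ_mod] at h3
      exact ⟨l₂, hl₂, h3⟩
    · rwa [← eg, c.σ_mod]

lemma hull_cases {g : FreeGroup A} {a : A} (h : Hull (L T) g (a, true)) :
    HH L T 0 g a ∨ ∃ p u n, n < c.ℓ ∧ c.New L P T p u n ∧ g = c.vx p u n ∧ a = c.σ n u :=
  c.HH_cases hL le_rfl ⟨1, one_mem _, by simpa using h⟩

lemma new_two (p : FreeGroup A) (u : U) :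
    ∃ n₁ n₂, ∀ n, n < c.ℓ → c.New L P T p u n → n = n₁ ∨ n = n₂ := by
  by_cases h : ∃ n, c.New L P T p u n
  swap
  · exact ⟨0, 0, fun n _ hn => (h ⟨n, hn⟩).elim⟩
  obtain ⟨_, t, ht, hadd, hmin, -⟩ := h
  have hloop := hadd.loop_mem c hL ht
  obtain ⟨l, hl, hu, i, hi, hav⟩ := id hadd
  refine ⟨(i + c.ℓ - 2) % c.ℓ, (i + c.ℓ - 1) % c.ℓ, ?_⟩
  rintro n hn ⟨t', -, hadd', hmin', hnew⟩
  have : t' = t := by
    rcases lt_trichotomy t' t with h | h | h
    · exact (hmin _ h hadd').elim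
    · exact h
    · exact (hmin' _ h hadd).elim
  subst this
  have h4 := c.four_le
  by_contra hne
  apply hnew
  rcases le_or_gt i n with h | h
  · have : n + 2 < i + c.ℓ := by
      by_contra h2
      apply hne
      rcases (show n = i + c.ℓ - 2 ∨ n = i + c.ℓ - 1 by omega) with e | e
      · left; rw [← e, Nat.mod_eq_of_lt hn]
      · right; rw [← e, Nat.mod_eq_of_lt hn]
    exact ⟨l, hl, by rw [← vx_mul]; exact hav n h this⟩
  · have : n + c.ℓ + 2 < i + c.ℓ := by
      by_contra h2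
      apply hne
      rcases (show n + c.ℓ = i + c.ℓ - 2 ∨ n + c.ℓ = i + c.ℓ - 1 by omega) with e | e
      · left; rw [← e, Nat.add_mod_right, Nat.mod_eq_of_lt hn]
      · right; rw [← e, Nat.add_mod_right, Nat.mod_eq_of_lt hn]
    have h3 := hav (n + c.ℓ) (by omega) this
    rw [vx_mul, vx_add_ℓ, c.per, ← mul_assoc] at h3
    exact ⟨_, mul_mem hl hloop, h3⟩

/-- If every type is allowed infinitely often, every type is eventually available. -/
lemma proc_exhaust (hP : ∀ u t₀, ∃ t, t₀ ≤ t ∧ u ∈ P t) (hsurj : L 0 ⊔ c.N = ⊤) (u : U) :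
    ∃ t, u ∈ P t ∧ ∃ p, c.Avail (L t) p u := by
  have hmono := c.proc_mono hL
  have hdir : Directed (· ≤ ·) L := hmono.directed_le
  have hmem : ∀ {g}, g ∈ ⨆ t, L t ↔ ∃ t, g ∈ L t := Subgroup.mem_iSup_of_directed hdir
  have hhull : ∀ {g s}, Hull (⨆ t, L t) g s → ∃ t, Hull (L t) g s := by
    rintro g s ⟨h₁, m1, h₂, m2, s1, s2⟩
    obtain ⟨t₁, m1⟩ := hmem.1 m1
    obtain ⟨t₂, m2⟩ := hmem.1 m2
    exact ⟨max t₁ t₂, h₁, hmono (le_max_left _ _) m1, h₂, hmono (le_max_right _ _) m2, s1, s2⟩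
  have hfin : ∀ (Q : ℕ → ℕ → Prop), (∀ n s t, s ≤ t → Q n s → Q n t) → ∀ m,
      (∀ n, n < m → ∃ t, Q n t) → ∃ t, ∀ n, n < m → Q n t := by
    intro Q hQ m
    induction m with
    | zero => intro _; exact ⟨0, fun n hn => by omega⟩
    | succ m ih =>
      intro h
      obtain ⟨t₁, h₁⟩ := ih fun n hn => h n (by omega)
      obtain ⟨t₂, h₂⟩ := h m (by omega)
      refine ⟨max t₁ t₂, fun n hn => ?_⟩
      rcases (show n < m ∨ n = m by omega) with h | rfl
      · exact hQ _ _ _ (le_max_left _ _) (h₁ n h)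
      · exact hQ _ _ _ (le_max_right _ _) h₂
  have htop : ⨆ t, L t = ⊤ := by
    apply c.eq_top_of_closed
    · rintro p u ⟨i, hi, hav⟩
      obtain ⟨t₀, ht₀⟩ := hfin (fun n t => i ≤ n → n + 2 < i + c.ℓ →
          Hull (L t) (c.vx p u n) (c.σ n u, true))
        (fun n s t hst h h1 h2 => (h h1 h2).mono (hmono hst)) (i + c.ℓ) (fun n _ => by
          by_cases h : i ≤ n ∧ n + 2 < i + c.ℓ
          · obtain ⟨t, ht⟩ := hhull (hav n h.1 h.2)
            exact ⟨t, fun _ _ => ht⟩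
          · exact ⟨0, fun h1 h2 => (h ⟨h1, h2⟩).elim⟩)
      obtain ⟨t, ht, hu⟩ := hP u t₀
      refine hmem.2 ⟨t + 1, ?_⟩
      rw [hL]
      exact c.loop_mem_step hu ⟨i, hi, fun n h1 h2 =>
        (ht₀ n (by omega) h1 h2).mono (hmono ht)⟩
    · rw [eq_top_iff, ← hsurj]
      exact sup_le_sup_right (le_iSup L 0) _
  obtain ⟨t₀, ht₀⟩ := hfin (fun n t => c.vx 1 u n ∈ L t) (fun n s t hst h => hmono hst h) (c.ℓ + 1)
    (fun n _ => hmem.1 (htop ▸ Subgroup.mem_top _))
  obtain ⟨t, ht, hu⟩ := hP u t₀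
  refine ⟨t, hu, 1, 0, c.ℓ_pos, fun n _ h2 => ?_⟩
  apply hull_of_mem_of_mem (hmono ht (ht₀ n (by omega)))
  rw [el_true, ← vx_succ]
  exact hmono ht (ht₀ (n + 1) (by omega))

end Process

end Cfg

end Crest.Agent.R191
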