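import Crest.Agent.R191.Good

/-!
Row 191 (S0291): counting cosets, intensities, mass transport.
-/

set_option autoImplicit false
set_option linter.unusedSectionVars false

namespace Crest.Agent.R191

open MeasureTheory
open scoped ENNReal

open Classical in
/-- The indicator of a proposition. -/
noncomputable def ind (P : Prop) : ℝ≥0∞ := if P then 1 else 0

section Ind

variable {P Q : Prop}

lemma ind_of (h : P) : ind P = 1 := if_pos h

lemma ind_of_not (h : ¬ P) : ind P = 0 := if_neg h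

lemma ind_ne_zero : ind P ≠ 0 ↔ P := by
  by_cases h : P <;> simp [ind, h]

lemma ind_le_one : ind P ≤ 1 := by
  by_cases h : P
  · simp [ind_of h]
  · simp [ind_of_not h]

lemma ind_le {b : ℝ≥0∞} (h : P → 1 ≤ b) : ind P ≤ b := by
  by_cases h' : P
  · rw [ind_of h']; exact h h'
  · simp [ind_of_not h']

lemma ind_mono (h : P → Q) : ind P ≤ ind Q := ind_le fun h' => (ind_of (h h')).ge

lemma ind_congr (h : P ↔ Q) : ind P = ind Q := by rw [propext h]

lemma ind_and : ind (P ∧ Q) = ind P * ind Q := by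
  by_cases h : P <;> by_cases h' : Q <;> simp [ind, h, h']

lemma ind_or_le : ind (P ∨ Q) ≤ ind P + ind Q := by
  by_cases h : P <;> by_cases h' : Q <;> simp [ind, h, h']

lemma ind_split (P Q : Prop) : ind P = ind (P ∧ Q) + ind (P ∧ ¬ Q) := by
  by_cases h : P <;> by_cases h' : Q <;> simp [ind, h, h']

lemma mul_ind_le {a b : ℝ≥0∞} (h : P → a ≤ b) : a * ind P ≤ b := by
  by_cases h' : P
  · rw [ind_of h', mul_one]; exact h h'
  · simp [ind_of_not h']

lemma le_mul_ind {a b : ℝ≥0∞} (h : a ≤ b) (h0 : a ≠ 0 → P) : a ≤ b * ind P := by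
  by_cases h' : a = 0
  · simp [h']
  · rwa [ind_of (h0 h'), mul_one]

variable {X : Type*} [MeasurableSpace X]

lemma measurable_ind {P : X → Prop} (h : Measurable P) : Measurable fun x => ind (P x) := by
  classical
  unfold ind
  exact Measurable.ite (measurableSet_setOfPred.2 h) measurable_const measurable_const

lemma lintegral_ind (μ : Measure X) {P : X → Prop} (h : Measurable P) :
    ∫⁻ x, ind (P x) ∂μ = μ {x | P x} := by
  rw [← lintegral_indicator_one (measurableSet_setOfPred.2 h)]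
  refine lintegral_congr fun x => ?_
  by_cases hx : P x <;> simp [ind, hx]

end Ind

/-- The number of elements with a property. -/
noncomputable def cd {I : Type*} (P : I → Prop) : ℝ≥0∞ := ∑' i, ind (P i)

section Cd

variable {I J : Type*} {P : I → Prop} {Q : J → Prop}

lemma cd_eq_encard (P : I → Prop) : cd P = ({i | P i}.encard : ℝ≥0∞) := by
  rw [← ENNReal.tsum_set_one, tsum_subtype {i | P i} (fun _ => (1 : ℝ≥0∞))]
  refine tsum_congr fun i => ?_
  by_cases h : P i <;> simp [ind, h]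

lemma cd_le_of_inj (f : I → J) (hf : ∀ i, P i → Q (f i))
    (hinj : ∀ i i', P i → P i' → f i = f i' → i = i') : cd P ≤ cd Q := by
  rw [cd_eq_encard, cd_eq_encard, ENat.toENNReal_le]
  exact Set.encard_le_encard_of_injOn (f := f) hf fun i hi i' hi' => hinj i i' hi hi'

lemma cd_le_card [Fintype I] : cd P ≤ Fintype.card I := by
  unfold cd
  calc _ ≤ ∑' _ : I, (1 : ℝ≥0∞) := ENNReal.tsum_le_tsum fun _ => ind_le_one
    _ = _ := by simp

lemma cd_true [Fintype I] : cd (fun _ : I => True) = Fintype.card I := by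
  simp [cd, ind_of]

lemma le_cd {d : ℕ} (f : Fin d → I) (hf : ∀ j, P (f j)) (hinj : Function.Injective f) :
    (d : ℝ≥0∞) ≤ cd P := by
  have := cd_le_of_inj (P := fun _ => True) (Q := P) f (fun i _ => hf i)
    fun i i' _ _ h => hinj h
  rwa [cd_true, Fintype.card_fin] at this

lemma cd_le {d : ℕ} (f : I → Fin d) (hinj : ∀ i i', P i → P i' → f i = f i' → i = i') :
    cd P ≤ d := by
  have := cd_le_of_inj (P := P) (Q := fun _ => True) f (fun _ _ => trivial) hinj
  rwa [cd_true, Fintype.card_fin] at this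

lemma cd_le_one (h : ∀ i i', P i → P i' → i = i') : cd P ≤ 1 := by
  simpa using cd_le (d := 1) (fun _ => 0) fun i i' hi hi' _ => h i i' hi hi'

lemma one_le_cd {i : I} (h : P i) : 1 ≤ cd P := by
  simpa using le_cd (d := 1) (fun _ => i) (fun _ => h) (fun _ _ _ => Subsingleton.elim _ _)

lemma cd_ne_zero (h : cd P ≠ 0) : ∃ i, P i := by
  by_contra hc
  apply h
  simp only [not_exists] at hc
  simp [cd, ind_of_not (hc _)]

lemma cd_mono {P' : I → Prop} (h : ∀ i, P i → P' i) : cd P ≤ cd P' :=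
  ENNReal.tsum_le_tsum fun i => ind_mono (h i)

lemma cd_prod (R : I × J → Prop) : cd R = ∑' i, cd fun j => R (i, j) := ENNReal.tsum_prod'

lemma cd_layer (P : I → Prop) : cd P = ∑' t : ℕ, ind ((t : ℝ≥0∞) < cd P) := by
  rw [cd_eq_encard]
  generalize ({i | P i}.encard) = a
  change _ = cd fun t : ℕ => (t : ℝ≥0∞) < a
  rw [cd_eq_encard]
  congr 1
  induction a with
  | top =>
    simp only [ENat.toENNReal_top, ENNReal.natCast_lt_top, Set.ofPred_true]
    exact Set.infinite_univ.encard_eq.symm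
  | coe n =>
    have : {t : ℕ | (t : ℝ≥0∞) < ((n : ℕ∞) : ℝ≥0∞)} = (Finset.range n : Set ℕ) := by
      ext t; simp
    rw [this, Set.encard_coe_eq_coe_finsetCard, Finset.card_range]

end Cd

section Names

variable {G G' : Type*} [Group G] [Countable G] [Group G'] [Countable G']

/-- A fixed enumeration. -/
noncomputable def enc (g : G) : ℕ := (Countable.exists_injective_nat G).choose g

lemma enc_injective : Function.Injective (enc : G → ℕ) :=
  (Countable.exists_injective_nat G).choose_spec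

/-- `g` is the chosen representative of its coset `L g`. -/
def IsName (L : Subgroup G) (g : G) : Prop := ∀ l, l ∈ L → enc g ≤ enc (l * g)

lemma exists_name (L : Subgroup G) (g : G) : ∃ l ∈ L, IsName L (l * g) := by
  classical
  have hex : ∃ n, ∃ l ∈ L, enc (l * g) = n := ⟨_, 1, L.one_mem, rfl⟩
  obtain ⟨l, hl, e⟩ := Nat.find_spec hex
  refine ⟨l, hl, fun l' hl' => ?_⟩
  rw [e]
  exact Nat.find_min' hex ⟨l' * l, L.mul_mem hl' hl, by rw [mul_assoc]⟩

lemma IsName.unique {L : Subgroup G} {g g' : G} (h : IsName L g) (h' : IsName L g')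
    (hm : g * g'⁻¹ ∈ L) : g = g' := by
  apply enc_injective
  have h1 := h _ (L.inv_mem hm)
  have h2 := h' _ hm
  simp only [mul_inv_rev, inv_inv, inv_mul_cancel_right] at h1 h2
  omega

/-- The chosen representative of the coset `L g`. -/
noncomputable def nm (L : Subgroup G) (g : G) : G := (exists_name L g).choose * g

lemma isName_nm (L : Subgroup G) (g : G) : IsName L (nm L g) := (exists_name L g).choose_spec.2

lemma nm_mem (L : Subgroup G) (g : G) : nm L g * g⁻¹ ∈ L := by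
  simpa [nm] using (exists_name L g).choose_spec.1

lemma nm_eq_iff {L : Subgroup G} {g h : G} : nm L g = h ↔ IsName L h ∧ h * g⁻¹ ∈ L := by
  constructor
  · rintro rfl; exact ⟨isName_nm L g, nm_mem L g⟩
  · rintro ⟨h1, h2⟩
    refine (isName_nm L g).unique h1 ?_
    have := L.mul_mem (nm_mem L g) (L.inv_mem h2)
    simpa [mul_assoc] using this

lemma nm_mul {L : Subgroup G} {l : G} (hl : l ∈ L) (g : G) : nm L (l * g) = nm L g := by
  rw [nm_eq_iff]
  refine ⟨isName_nm L g, ?_⟩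
  have := L.mul_mem (nm_mem L g) (L.inv_mem hl)
  simpa [mul_assoc] using this

lemma IsName.nm {L : Subgroup G} {g : G} (h : IsName L g) : nm L g = g :=
  nm_eq_iff.2 ⟨h, by simp⟩

/-- Sum over the cosets `L g`. -/
noncomputable def sumL (L : Subgroup G) (f : G → ℝ≥0∞) : ℝ≥0∞ := ∑' g, ind (IsName L g) * f g

lemma sumL_mono {L : Subgroup G} {f f' : G → ℝ≥0∞} (h : ∀ g, f g ≤ f' g) :
    sumL L f ≤ sumL L f' := ENNReal.tsum_le_tsum fun g => by gcongr; exact h g

lemma sumL_add (L : Subgroup G) (f f' : G → ℝ≥0∞) :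
    sumL L (fun g => f g + f' g) = sumL L f + sumL L f' := by
  simp only [sumL, mul_add, ENNReal.tsum_add]

lemma sumL_const_mul (L : Subgroup G) (a : ℝ≥0∞) (f : G → ℝ≥0∞) :
    sumL L (fun g => a * f g) = a * sumL L f := by
  simp only [sumL, mul_left_comm _ a, ENNReal.tsum_mul_left]

lemma sumL_tsum {T : Type*} (L : Subgroup G) (f : T → G → ℝ≥0∞) :
    sumL L (fun g => ∑' t, f t g) = ∑' t, sumL L (f t) := by
  simp only [sumL, ← ENNReal.tsum_mul_left]
  exact ENNReal.tsum_comm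

lemma sumL_ind (L : Subgroup G) (Y : G → Prop) :
    sumL L (fun g => ind (Y g)) = cd fun g => IsName L g ∧ Y g := by
  simp only [sumL, cd, ind_and]

/-- Comparison of coset sums along an injection of cosets. -/
lemma sumL_le {L : Subgroup G} {L' : Subgroup G'} {f : G → ℝ≥0∞} {f' : G' → ℝ≥0∞}
    (R : G → G' → Prop) (hf' : ∀ l ∈ L', ∀ g, f' (l * g) = f' g)
    (hex : ∀ g, f g ≠ 0 → ∃ g', R g g' ∧ f g ≤ f' g')
    (hinj : ∀ g₁ g₂ g₁' g₂', R g₁ g₁' → R g₂ g₂' → g₁' * g₂'⁻¹ ∈ L' → g₁ * g₂⁻¹ ∈ L) :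
    sumL L f ≤ sumL L' f' := by
  choose φ hφ using hex
  let s : Set G := {g | IsName L g ∧ f g ≠ 0}
  let ψ : s → G' := fun g => nm L' (φ g g.2.2)
  have hψ : Function.Injective ψ := by
    intro g₁ g₂ e
    apply Subtype.ext
    refine g₁.2.1.unique g₂.2.1 (hinj _ _ _ _ (hφ _ g₁.2.2).1 (hφ _ g₂.2.2).1 ?_)
    have h1 := nm_mem L' (φ g₁ g₁.2.2)
    have h2 := nm_mem L' (φ g₂ g₂.2.2)
    simp only [ψ] at e
    rw [e] at h1
    have := L'.mul_mem (L'.inv_mem h1) h2
    simpa [mul_assoc] using this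
  have h1 : sumL L f = ∑' g : s, ind (IsName L g) * f g := by
    unfold sumL
    refine (tsum_subtype_eq_of_support_subset ?_).symm
    intro g hg
    rw [Function.mem_support, mul_ne_zero_iff, ind_ne_zero] at hg
    exact hg
  rw [h1]
  refine le_trans ?_ (ENNReal.tsum_comp_le_tsum_of_injective hψ _)
  refine ENNReal.tsum_le_tsum fun g => ?_
  rw [ind_of g.2.1, ind_of (isName_nm _ _), one_mul, one_mul]
  refine (hφ _ g.2.2).2.trans (le_of_eq ?_)
  have := hf' _ (nm_mem L' (φ g g.2.2)) (φ g g.2.2)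
  simpa using this.symm

lemma sumL_bot (f : G → ℝ≥0∞) : sumL ⊥ f = ∑' g, f g := by
  unfold sumL
  congr 1
  funext g
  rw [ind_of, one_mul]
  intro l hl
  rw [Subgroup.mem_bot.1 hl, one_mul]

lemma le_sumL {L : Subgroup G} {f : G → ℝ≥0∞} (hf : ∀ l ∈ L, ∀ g, f (l * g) = f g) (g : G) :
    f g ≤ sumL L f := by
  refine le_trans (le_of_eq ?_) (ENNReal.le_tsum (nm L g))
  rw [ind_of (isName_nm _ _), one_mul]
  have := hf _ (nm_mem L g) g
  simpa using this.symm

lemma sumL_equiv {L : Subgroup G} {L' : Subgroup G'} (e : G ≃ G') {f : G' → ℝ≥0∞}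
    (hf : ∀ l ∈ L', ∀ g, f (l * g) = f g)
    (he : ∀ g₁ g₂, e g₁ * (e g₂)⁻¹ ∈ L' ↔ g₁ * g₂⁻¹ ∈ L) :
    sumL L (fun g => f (e g)) = sumL L' f := by
  apply le_antisymm
  · refine sumL_le (fun g g' => g' = e g) hf (fun g _ => ⟨_, rfl, le_rfl⟩) ?_
    rintro g₁ g₂ _ _ rfl rfl h
    exact (he _ _).1 h
  · refine sumL_le (fun g' g => g' = e g) ?_ (fun g _ => ⟨e.symm g, by simp, by simp⟩) ?_
    · intro l hl g
      have := hf _ ((he (l * g) g).2 (by simpa using hl)) (e g)
      simpa using this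
    · rintro _ _ g₁ g₂ rfl rfl h
      exact (he _ _).2 h

lemma sumL_mul_right {L : Subgroup G} {f : G → ℝ≥0∞} (hf : ∀ l ∈ L, ∀ g, f (l * g) = f g)
    (a : G) : sumL L (fun g => f (g * a)) = sumL L f :=
  sumL_equiv (Equiv.mulRight a) hf fun g₁ g₂ => by simp [mul_assoc]

lemma tsum_name (L : Subgroup G) (h : G) : ∑' l : L, ind (IsName L ((l : G)⁻¹ * h)) = 1 := by
  apply le_antisymm
  · refine cd_le_one (P := fun l : L => IsName L ((l : G)⁻¹ * h)) fun l l' h1 h2 => ?_
    have := h1.unique h2 (by simpa [mul_assoc] using L.mul_mem (L.inv_mem l.2) l'.2)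
    exact Subtype.ext (inv_injective (mul_right_cancel this))
  · obtain ⟨l, hl, h1⟩ := exists_name L h
    exact one_le_cd (P := fun l : L => IsName L ((l : G)⁻¹ * h)) (i := ⟨l⁻¹, L.inv_mem hl⟩)
      (by simpa using h1)

lemma tsum_unfold (L : Subgroup G) (f : G → ℝ≥0∞) :
    ∑' g, f g = sumL L fun g => ∑' l : L, f (l * g) := by
  rw [sumL_tsum]
  have : ∀ l : L, sumL L (fun g => f (l * g)) = ∑' h, ind (IsName L ((l : G)⁻¹ * h)) * f h := by
    intro l
    unfold sumL
    rw [← (Equiv.mulLeft (l : G)).tsum_eq fun h => ind (IsName L ((l : G)⁻¹ * h)) * f h]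
    simp
  simp only [this]
  rw [ENNReal.tsum_comm]
  simp only [ENNReal.tsum_mul_right, tsum_name, one_mul]

/-- Mass transport for a subgroup acting on the group. -/
lemma sumL_swap (L : Subgroup G) (K : G → G → ℝ≥0∞)
    (hK : ∀ l ∈ L, ∀ g g', K (l * g) (l * g') = K g g') :
    sumL L (fun g => ∑' g', K g g') = sumL L (fun g' => ∑' g, K g g') := by
  have h1 : ∀ g, ∑' g', K g g' = sumL L fun g' => ∑' l : L, K g (l * g') :=
    fun g => tsum_unfold L _
  have h2 : ∀ g', ∑' g, K g g' = sumL L fun g => ∑' l : L, K (l * g) g' :=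
    fun g' => tsum_unfold L _
  simp only [h1, h2]
  unfold sumL
  simp only [← ENNReal.tsum_mul_left]
  rw [ENNReal.tsum_comm]
  congr 1; funext g'; congr 1; funext g
  rw [← (Equiv.inv L).tsum_eq]
  congr 1; funext l
  rw [mul_left_comm]
  congr 2
  rw [← hK _ l.2]
  simp

end Names

section Nu

variable {Γ : Type*} [Group Γ] [Countable Γ] [DecidableEq Γ] {X : Type*} [MeasurableSpace X]
  [MulAction Γ X] (μ : Measure X)

/-- The intensity of a weight on cosets. -/
noncomputable def nu (L : X → Subgroup (FreeGroup Γ)) (f : X → FreeGroup Γ → ℝ≥0∞) : ℝ≥0∞ :=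
  ∫⁻ x, sumL (L x) (f x) ∂μ

variable {μ} {L : X → Subgroup (FreeGroup Γ)} {f f' : X → FreeGroup Γ → ℝ≥0∞}

lemma measurable_isName (hL : GSub L) (g : FreeGroup Γ) : Measurable fun x => IsName (L x) g :=
  Measurable.forall fun l => (hL.meas l).imp measurable_const

lemma measurable_sumL (hL : GSub L) (hf : ∀ g, Measurable fun x => f x g) :
    Measurable fun x => sumL (L x) (f x) :=
  Measurable.tsum fun g => (measurable_ind (measurable_isName hL g)).mul (hf g)

lemma nu_mono (h : ∀ x g, f x g ≤ f' x g) : nu μ L f ≤ nu μ L f' :=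
  lintegral_mono fun x => sumL_mono (h x)

lemma nu_mono_ae (h : ∀ᵐ x ∂μ, ∀ g, f x g ≤ f' x g) : nu μ L f ≤ nu μ L f' :=
  lintegral_mono_ae (h.mono fun _ hx => sumL_mono hx)

lemma nu_add (hL : GSub L) (hf : ∀ g, Measurable fun x => f x g) :
    nu μ L (fun x g => f x g + f' x g) = nu μ L f + nu μ L f' := by
  simp only [nu, sumL_add]
  exact lintegral_add_left (measurable_sumL hL hf) _

lemma nu_const_mul (a : ℝ≥0∞) (ha : a ≠ ⊤) :
    nu μ L (fun x g => a * f x g) = a * nu μ L f := by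
  simp only [nu, sumL_const_mul]
  exact lintegral_const_mul' _ _ ha

lemma nu_tsum {T : Type*} [Countable T] (hL : GSub L) {f : T → X → FreeGroup Γ → ℝ≥0∞}
    (hf : ∀ t g, Measurable fun x => f t x g) :
    nu μ L (fun x g => ∑' t, f t x g) = ∑' t, nu μ L (f t) := by
  simp only [nu, sumL_tsum]
  exact lintegral_tsum fun t => (measurable_sumL hL (hf t)).aemeasurable

lemma nu_ind (hL : GSub L) {Y : X → FreeGroup Γ → Prop} (hY : ∀ g, Measurable fun x => Y x g) :
    nu μ L (fun x g => ind (Y x g)) = ∑' g, μ {x | IsName (L x) g ∧ Y x g} := by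
  simp only [nu, sumL, ← ind_and]
  rw [lintegral_tsum fun g => (measurable_ind ((measurable_isName hL g).and (hY g))).aemeasurable]
  congr 1; funext g
  exact lintegral_ind μ ((measurable_isName hL g).and (hY g))

lemma sumL_rho (hL : GSub L) (δ : Γ) (x : X) {f : FreeGroup Γ → ℝ≥0∞}
    (hf : ∀ l ∈ L x, ∀ g, f (l * g) = f g) :
    sumL (L (δ • x)) (fun g => f (rho δ g)) = sumL (L x) f :=
  sumL_equiv (Equiv.ofBijective (rho δ) ⟨rho_injective δ, rho_surjective δ⟩) hf fun g₁ g₂ => by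
    rw [hL.equi δ x]; simp

/-- Mass transport. -/
lemma mtp (hμ : ∀ γ : Γ, MeasurePreserving (fun x : X => γ • x) μ μ) (hL : GSub L)
    (K : X → FreeGroup Γ × Γ → FreeGroup Γ × Γ → ℝ≥0∞)
    (hm : ∀ z z', Measurable fun x => K x z z')
    (he : ∀ (δ : Γ) x z z', K (δ • x) z z' = K x (RA.act δ z) (RA.act δ z'))
    (hi : ∀ x, ∀ l ∈ L x, ∀ g a g' a', K x (l * g, a) (l * g', a') = K x (g, a) (g', a')) :
    nu μ L (fun x g => ∑' z', K x (g, 1) z') = nu μ L (fun x g' => ∑' z, K x z (g', 1)) := by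
  have e1 : ∀ x g, ∑' z', K x (g, 1) z' = ∑' a, ∑' g', K x (g, 1) (g', a) := fun x g => by
    rw [ENNReal.tsum_prod', ENNReal.tsum_comm]
  have e2 : ∀ x g', ∑' z, K x z (g', 1) = ∑' a, ∑' g, K x (g, a) (g', 1) := fun x g => by
    rw [ENNReal.tsum_prod', ENNReal.tsum_comm]
  simp only [e1, e2]
  rw [nu_tsum hL fun a g => Measurable.tsum fun g' => hm _ _,
    nu_tsum hL fun a g => Measurable.tsum fun g' => hm _ _, ← (Equiv.inv Γ).tsum_eq]
  congr 1; funext δ
  unfold nu
  rw [← (hμ δ).lintegral_comp (measurable_sumL hL fun g => Measurable.tsum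
    fun g' => hm _ _)]
  congr 1; funext x
  rw [← sumL_swap (L x) (fun g g' => K x (g, δ) (g', 1)) fun l hl g g' => hi x l hl _ _ _ _,
    ← sumL_rho hL δ x]
  · congr 1; funext g
    rw [← (Equiv.ofBijective (rho δ) ⟨rho_injective δ, rho_surjective δ⟩).tsum_eq
      fun g' => K x (rho δ g, δ) (g', 1)]
    congr 1; funext g'
    rw [he]; simp
  · intro l hl g
    rw [← (Equiv.mulLeft l).tsum_eq]
    congr 1; funext g'
    exact hi x l hl _ _ _ _

/-- Mass transport inequality for relations. -/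
lemma mtp_le (hμ : ∀ γ : Γ, MeasurePreserving (fun x : X => γ • x) μ μ) (hL : GSub L)
    {T : Type*} [Countable T] (R : T → X → FreeGroup Γ → Γ → FreeGroup Γ → Γ → Prop)
    (hR : ∀ t, Good Γ fun x (w : (FreeGroup Γ × Γ) × (FreeGroup Γ × Γ)) =>
      R t x w.1.1 w.1.2 w.2.1 w.2.2)
    (hi : ∀ t x, ∀ l ∈ L x, ∀ g a g' a', R t x g a g' a' → R t x (l * g) a (l * g') a')
    (h1 : ∀ᵐ x ∂μ, ∀ g, f x g ≤ cd fun w : (FreeGroup Γ × Γ) × T => R w.2 x g 1 w.1.1 w.1.2)
    (h2 : ∀ᵐ x ∂μ, ∀ g, (cd fun w : (FreeGroup Γ × Γ) × T => R w.2 x w.1.1 w.1.2 g 1) ≤ f' x g) :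
    nu μ L f ≤ nu μ L f' := by
  have := mtp hμ hL (fun x z z' => ∑' t, ind (R t x z.1 z.2 z'.1 z'.2))
    (fun z z' => Measurable.tsum fun t => measurable_ind ((hR t).meas (z, z')))
    (fun δ x z z' => tsum_congr fun t => ind_congr ((hR t).equi δ x (z, z')))
    (fun x l hl g a g' a' => by
      congr 1; funext t
      refine ind_congr ⟨fun h => ?_, hi t x l hl g a g' a'⟩
      simpa using hi t x l⁻¹ ((L x).inv_mem hl) _ _ _ _ h)
  simp only [cd_prod] at h1 h2
  exact (nu_mono_ae h1).trans (this.le.trans (nu_mono_ae h2))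

end Nu

end Crest.Agent.R191
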