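import Crest.Agent.R191.Comb

/-!
Row 191 (S0291): removing blocks of four edges through vertices of degree two.
-/

set_option autoImplicit false
set_option linter.unusedSectionVars false

namespace Crest.Agent.R191

open FreeGroup

variable {A U : Type*} [DecidableEq A]

/-- A vertex off the base point with at most two hull edges. -/
def Light (L : Subgroup (FreeGroup A)) (g : FreeGroup A) : Prop :=
  g ∉ L ∧ ∀ s₁ s₂ s₃, Hull L g s₁ → Hull L g s₂ → Hull L g s₃ → s₁ = s₂ ∨ s₁ = s₃ ∨ s₂ = s₃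

lemma light_mul {L : Subgroup (FreeGroup A)} {l g : FreeGroup A} (hl : l ∈ L) :
    Light L (l * g) ↔ Light L g := by
  simp only [Light, hull_mul hl, L.mul_mem_cancel_left hl]

namespace Cfg

variable (c : Cfg A U) (L : Subgroup (FreeGroup A)) (S : Set U)

/-- The three inner vertices of the `k`-th block of the cell are light. -/
def Blk (p : FreeGroup A) (u : U) (k : ℕ) : Prop :=
  4 * k + 4 ≤ c.ℓ ∧ ∀ n, 4 * k < n → n < 4 * k + 4 → Light L (c.vx p u n)

/-- The `k`-th block of the closed cell `(p, u)` is removed. -/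
def Rmv (p : FreeGroup A) (u : U) (k : ℕ) : Prop :=
  u ∈ S ∧ c.loop p u ∈ L ∧ c.Blk L p u k ∧ ∀ k', k' < k → ¬ c.Blk L p u k'

/-- The removed edges. -/
def RE (g : FreeGroup A) (a : A) : Prop :=
  ∃ p u k n, c.Rmv L S p u k ∧ 4 * k ≤ n ∧ n < 4 * k + 4 ∧ g = c.vx p u n ∧ a = c.σ n u

/-- The remaining edges. -/
def Keep (g : FreeGroup A) (a : A) : Prop := Hull L g (a, true) ∧ ¬ c.RE L S g a

/-- The detour around a removed block. -/
def byp (u : U) (k : ℕ) : FreeGroup A :=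
  (c.wd u 0 (4 * k))⁻¹ * (c.wd u (4 * k + 4) (c.ℓ - (4 * k + 4)))⁻¹

/-- The graph of the edge weights of the retraction. -/
def WRel (g : FreeGroup A) (a : A) (h : FreeGroup A) : Prop :=
  (¬ c.RE L S g a ∧ h = of a) ∨ ∃ p u k n, c.Rmv L S p u k ∧ 4 * k ≤ n ∧ n < 4 * k + 4 ∧
    g = c.vx p u n ∧ a = c.σ n u ∧ ((n = 4 * k + 3 ∧ h = c.byp u k) ∨ (n ≠ 4 * k + 3 ∧ h = 1))

lemma WRel_ex (g : FreeGroup A) (a : A) : ∃ h, c.WRel L S g a h := by
  by_cases h : c.RE L S g a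
  · obtain ⟨p, u, k, n, h1, h2, h3, h4, h5⟩ := h
    by_cases hn : n = 4 * k + 3
    · exact ⟨_, .inr ⟨p, u, k, n, h1, h2, h3, h4, h5, .inl ⟨hn, rfl⟩⟩⟩
    · exact ⟨_, .inr ⟨p, u, k, n, h1, h2, h3, h4, h5, .inr ⟨hn, rfl⟩⟩⟩
  · exact ⟨_, .inl ⟨h, rfl⟩⟩

/-- The edge weights of the retraction. -/
noncomputable def W (g : FreeGroup A) (a : A) : FreeGroup A := (c.WRel_ex L S g a).choose

/-- The retraction. -/
noncomputable def th (g : FreeGroup A) : FreeGroup A := pint (c.W L S) g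

variable {c L S}

lemma blk_mul {l p : FreeGroup A} {u : U} {k : ℕ} (hl : l ∈ L) :
    c.Blk L (l * p) u k ↔ c.Blk L p u k := by
  simp only [Blk, vx_mul, light_mul hl]

lemma rmv_mul {l p : FreeGroup A} {u : U} {k : ℕ} (hl : l ∈ L) :
    c.Rmv L S (l * p) u k ↔ c.Rmv L S p u k := by
  simp only [Rmv, blk_mul hl, c.loop_mul_mem hl]

lemma RE.mul {l g : FreeGroup A} {a : A} (hl : l ∈ L) (h : c.RE L S g a) : c.RE L S (l * g) a := by
  obtain ⟨p, u, k, n, h1, h2, h3, rfl, h5⟩ := h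
  exact ⟨l * p, u, k, n, (rmv_mul hl).2 h1, h2, h3, (c.vx_mul _ _ _ _).symm, h5⟩

lemma re_mul {l g : FreeGroup A} {a : A} (hl : l ∈ L) : c.RE L S (l * g) a ↔ c.RE L S g a :=
  ⟨fun h => by simpa using h.mul (L.inv_mem hl), RE.mul hl⟩

lemma keep_mul {l g : FreeGroup A} {a : A} (hl : l ∈ L) :
    c.Keep L S (l * g) a ↔ c.Keep L S g a := by
  simp only [Keep, hull_mul hl, re_mul hl]

lemma Rmv.unique {p : FreeGroup A} {u : U} {k k' : ℕ} (h : c.Rmv L S p u k)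
    (h' : c.Rmv L S p u k') : k = k' := by
  rcases lt_trichotomy k k' with hk | hk | hk
  · exact (h'.2.2.2 _ hk h.2.2.1).elim
  · exact hk
  · exact (h.2.2.2 _ hk h'.2.2.1).elim

/-- At a light vertex of a closed cell the only hull edges are the two edges of the cell. -/
lemma light_ends {p : FreeGroup A} {u : U} {n : ℕ} (hl : c.loop p u ∈ L)
    (h : Light L (c.vx p u (n + 1))) {s : A × Bool} (hs : Hull L (c.vx p u (n + 1)) s) :
    s = (c.σ n u, false) ∨ s = (c.σ (n + 1) u, true) := by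
  rcases h.2 _ _ _ hs (c.hull_axis_in hl n) (c.hull_axis hl (n + 1)) with e | e | e
  · exact .inl e
  · exact .inr e
  · simp at e

/-- The edges of a block lie on no other closed cell. -/
lemma Blk.priv {p : FreeGroup A} {u : U} {k n : ℕ} (hl : c.loop p u ∈ L) (h : c.Blk L p u k)
    (h1 : 4 * k ≤ n) (h2 : n < 4 * k + 4) {p' : FreeGroup A} {u' : U} {n' : ℕ}
    (hl' : c.loop p' u' ∈ L) (hn' : n' < c.ℓ) (e1 : c.vx p' u' n' = c.vx p u n)
    (e2 : c.σ n' u' = c.σ n u) : u' = u ∧ n' = n ∧ p' = p := by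
  have hn : n < c.ℓ := by have := h.1; omega
  have key : u' = u ∧ n' % c.ℓ = n % c.ℓ := by
    by_cases hc : n + 1 < 4 * k + 4
    · have hL := h.2 (n + 1) (by omega) hc
      have e3 : c.vx p' u' (n' + 1) = c.vx p u (n + 1) := by rw [vx_succ, vx_succ, e1, e2]
      rcases light_ends hl hL (e3 ▸ c.hull_axis hl' (n' + 1)) with e | e
      · simp at e
      · exact c.sc _ _ _ _ e2 (by simpa using e)
    · obtain ⟨m, rfl⟩ : ∃ m, n = m + 1 := ⟨n - 1, by omega⟩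
      have hL := h.2 (m + 1) (by omega) h2
      obtain ⟨m', hm'⟩ : ∃ m', n' + c.ℓ = m' + 1 := ⟨n' + c.ℓ - 1, by omega⟩
      have h3 := c.hull_axis_in hl' m'
      rw [← hm', vx_add_ℓ, hull_mul hl', e1] at h3
      rcases light_ends hl hL h3 with e | e
      · obtain ⟨e4, e5⟩ := c.sc m' m u' u (by simpa using e) (by rw [← hm', c.per, e2])
        refine ⟨e4, ?_⟩
        rw [← Nat.add_mod_right n', hm', Nat.add_mod, e5, ← Nat.add_mod]
      · simp at e
  obtain ⟨rfl, e⟩ := key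
  rw [Nat.mod_eq_of_lt hn', Nat.mod_eq_of_lt hn] at e
  subst e
  exact ⟨rfl, rfl, mul_right_cancel e1⟩

lemma Rmv.priv {p : FreeGroup A} {u : U} {k n : ℕ} (h : c.Rmv L S p u k)
    (h1 : 4 * k ≤ n) (h2 : n < 4 * k + 4) {p' : FreeGroup A} {u' : U} {n' : ℕ}
    (hl' : c.loop p' u' ∈ L) (hn' : n' < c.ℓ) (e1 : c.vx p' u' n' = c.vx p u n)
    (e2 : c.σ n' u' = c.σ n u) : u' = u ∧ n' = n ∧ p' = p :=
  h.2.2.1.priv h.2.1 h1 h2 hl' hn' e1 e2

/-- An edge of a closed cell is removed only as an edge of the removed block of that cell. -/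
lemma re_axis {p : FreeGroup A} {u : U} {n : ℕ} (hl : c.loop p u ∈ L) (hn : n < c.ℓ)
    (h : c.RE L S (c.vx p u n) (c.σ n u)) :
    ∃ k, c.Rmv L S p u k ∧ 4 * k ≤ n ∧ n < 4 * k + 4 := by
  obtain ⟨p', u', k, n', h1, h2, h3, e1, e2⟩ := h
  obtain ⟨rfl, rfl, rfl⟩ := h1.priv h2 h3 hl hn e1 e2
  exact ⟨k, h1, h2, h3⟩

lemma WRel.unique {g : FreeGroup A} {a : A} {h h' : FreeGroup A} (H : c.WRel L S g a h)
    (H' : c.WRel L S g a h') : h = h' := by
  rcases H with ⟨n1, rfl⟩ | ⟨p, u, k, n, h1, h2, h3, rfl, rfl, h6⟩ <;>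
    rcases H' with ⟨n2, rfl⟩ | ⟨p', u', k', n', h1', h2', h3', e1, e2, h6'⟩
  · rfl
  · exact (n1 ⟨p', u', k', n', h1', h2', h3', e1, e2⟩).elim
  · exact (n2 ⟨p, u, k, n, h1, h2, h3, rfl, rfl⟩).elim
  · obtain ⟨rfl, rfl, rfl⟩ := h1'.priv h2' h3' h1.2.1 (by have := h1.2.2.1.1; omega) e1 e2
    obtain rfl := h1.unique h1'
    rcases h6 with ⟨a1, rfl⟩ | ⟨a1, rfl⟩ <;> rcases h6' with ⟨a2, rfl⟩ | ⟨a2, rfl⟩ <;>
      first | rfl | contradiction

lemma W_eq_iff {g : FreeGroup A} {a : A} {h : FreeGroup A} :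
    c.W L S g a = h ↔ c.WRel L S g a h :=
  ⟨fun e => e ▸ (c.WRel_ex L S g a).choose_spec,
    fun H => (c.WRel_ex L S g a).choose_spec.unique H⟩

lemma W_of_not {g : FreeGroup A} {a : A} (h : ¬ c.RE L S g a) : c.W L S g a = of a :=
  W_eq_iff.2 (.inl ⟨h, rfl⟩)

lemma W_inner {p : FreeGroup A} {u : U} {k n : ℕ} (h : c.Rmv L S p u k) (h1 : 4 * k ≤ n)
    (h2 : n < 4 * k + 3) : c.W L S (c.vx p u n) (c.σ n u) = 1 :=
  W_eq_iff.2 (.inr ⟨p, u, k, n, h, h1, by omega, rfl, rfl, .inr ⟨by omega, rfl⟩⟩)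

lemma W_last {p : FreeGroup A} {u : U} {k : ℕ} (h : c.Rmv L S p u k) :
    c.W L S (c.vx p u (4 * k + 3)) (c.σ (4 * k + 3) u) = c.byp u k :=
  W_eq_iff.2 (.inr ⟨p, u, k, _, h, by omega, by omega, rfl, rfl, .inl ⟨rfl, rfl⟩⟩)

lemma W_mul {l : FreeGroup A} (hl : l ∈ L) (g : FreeGroup A) (a : A) :
    c.W L S (l * g) a = c.W L S g a := by
  rw [W_eq_iff]
  rcases W_eq_iff.1 (rfl : c.W L S g a = _) with ⟨n1, e⟩ | ⟨p, u, k, n, h1, h2, h3, rfl, h5, h6⟩
  · exact .inl ⟨by rwa [re_mul hl], e⟩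
  · exact .inr ⟨l * p, u, k, n, (rmv_mul hl).2 h1, h2, h3, (c.vx_mul _ _ _ _).symm, h5, h6⟩

lemma th_mul {l : FreeGroup A} (hl : l ∈ L) (g : FreeGroup A) :
    c.th L S (l * g) = c.th L S l * c.th L S g := pint_mul (W_mul hl) g

lemma th_mul_of (g : FreeGroup A) (a : A) : c.th L S (g * of a) = c.th L S g * c.W L S g a :=
  pint_mul_of _ _ _

@[simp] lemma th_one : c.th L S 1 = 1 := pint_one _

lemma th_inv {l : FreeGroup A} (hl : l ∈ L) : c.th L S l⁻¹ = (c.th L S l)⁻¹ := by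
  rw [eq_inv_iff_mul_eq_one, ← th_mul (L.inv_mem hl)]; simp

lemma th_of_reach {g : FreeGroup A} (h : Reach (symE (c.Keep L S)) g) : c.th L S g = g := by
  induction h with
  | one => simp
  | @step g s _ h2 ih =>
    rcases s with ⟨a, _ | _⟩
    · have := th_mul_of (c := c) (L := L) (S := S) (g * (of a)⁻¹) a
      rw [W_of_not h2.2, inv_mul_cancel_right, ih] at this
      rw [el_false, eq_mul_inv_iff_mul_eq, ← this]
    · rw [el_true, th_mul_of, W_of_not h2.2, ih]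

lemma th_axis {p : FreeGroup A} {u : U} (i : ℕ) : ∀ k,
    (∀ n, i ≤ n → n < i + k → ¬ c.RE L S (c.vx p u n) (c.σ n u)) →
    c.th L S (c.vx p u (i + k)) = c.th L S (c.vx p u i) * c.wd u i k := by
  intro k
  induction k with
  | zero => simp
  | succ k ih =>
    intro h
    rw [← add_assoc, vx_succ, th_mul_of, ih fun n h1 h2 => h n h1 (by omega),
      W_of_not (h _ (by omega) (by omega)), wd_succ, mul_assoc]

lemma Rmv.not_re {p : FreeGroup A} {u : U} {k n : ℕ} (h : c.Rmv L S p u k) (hn : n < c.ℓ)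
    (hn' : n < 4 * k ∨ 4 * k + 4 ≤ n) : ¬ c.RE L S (c.vx p u n) (c.σ n u) := by
  intro H
  obtain ⟨k', h1, h2, h3⟩ := re_axis h.2.1 hn H
  obtain rfl := h.unique h1
  omega

lemma Rmv.th_inner {p : FreeGroup A} {u : U} {k : ℕ} (h : c.Rmv L S p u k) : ∀ i, i ≤ 3 →
    c.th L S (c.vx p u (4 * k + i)) = c.th L S (c.vx p u (4 * k)) := by
  intro i
  induction i with
  | zero => simp
  | succ i ih =>
    intro hi
    rw [← add_assoc, vx_succ, th_mul_of, W_inner h (by omega) (by omega), mul_one, ih (by omega)]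

lemma Rmv.th_last {p : FreeGroup A} {u : U} {k : ℕ} (h : c.Rmv L S p u k) :
    c.th L S (c.vx p u (4 * k + 4)) = c.th L S (c.vx p u (4 * k)) * c.byp u k := by
  rw [show 4 * k + 4 = 4 * k + 3 + 1 from rfl, vx_succ, th_mul_of, W_last h, h.th_inner 3 le_rfl]

lemma th_loop_of_rmv {p : FreeGroup A} {u : U} {k : ℕ} (h : c.Rmv L S p u k) :
    c.th L S (c.loop p u) = 1 := by
  have hk := h.2.2.1.1
  have e1 := th_axis (c := c) (L := L) (S := S) (p := p) (u := u) 0 (4 * k)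
    fun n _ h2 => h.not_re (by omega) (.inl (by omega))
  have e2 := th_axis (c := c) (L := L) (S := S) (p := p) (u := u) (4 * k + 4) (c.ℓ - (4 * k + 4))
    fun n h1 h2 => h.not_re (by omega) (.inr h1)
  rw [zero_add] at e1
  rw [h.th_last, e1, show 4 * k + 4 + (c.ℓ - (4 * k + 4)) = 0 + c.ℓ by omega, vx_add_ℓ,
    th_mul h.2.1, byp] at e2
  simpa [mul_assoc] using e2

lemma th_loop_of_not {p : FreeGroup A} {u : U} (hl : c.loop p u ∈ L)
    (h : ¬ ∃ k, c.Rmv L S p u k) : c.th L S (c.loop p u) = c.loop (c.th L S p) u := by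
  have e := th_axis (c := c) (L := L) (S := S) (p := p) (u := u) 0 c.ℓ fun n _ h2 H => by
    obtain ⟨k, h1, -⟩ := re_axis hl (by omega) H
    exact h ⟨k, h1⟩
  rw [vx_add_ℓ, th_mul hl, vx_zero] at e
  conv_rhs => rw [loop, rel, ← e]
  simp

variable (c L S) in
/-- Inner vertices of removed blocks. -/
def Inner (g : FreeGroup A) : Prop :=
  ∃ p u k n, c.Rmv L S p u k ∧ 4 * k < n ∧ n < 4 * k + 4 ∧ g = c.vx p u n

lemma Inner.light {g : FreeGroup A} (h : c.Inner L S g) : Light L g := by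
  obtain ⟨p, u, k, n, h1, h2, h3, rfl⟩ := h
  exact h1.2.2.1.2 n h2 h3

lemma Inner.out {g : FreeGroup A} {a : A} (h : c.Inner L S g) (hh : Hull L g (a, true)) :
    ∃ p u k n, c.Rmv L S p u k ∧ 4 * k < n ∧ n < 4 * k + 4 ∧ g = c.vx p u n ∧ a = c.σ n u := by
  have hL := h.light
  obtain ⟨p, u, k, n, h1, h2, h3, rfl⟩ := h
  obtain ⟨m, rfl⟩ : ∃ m, n = m + 1 := ⟨n - 1, by omega⟩
  rcases light_ends h1.2.1 hL hh with e | e
  · simp at e
  · exact ⟨p, u, k, m + 1, h1, h2, h3, rfl, by simpa using e⟩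

lemma Inner.into {g : FreeGroup A} {a : A} (h : c.Inner L S (g * of a)) (hh : Hull L g (a, true)) :
    ∃ p u k n, c.Rmv L S p u k ∧ 4 * k ≤ n ∧ n < 4 * k + 3 ∧ g = c.vx p u n ∧ a = c.σ n u := by
  have hL := h.light
  obtain ⟨p, u, k, n, h1, h2, h3, e0⟩ := h
  obtain ⟨m, rfl⟩ : ∃ m, n = m + 1 := ⟨n - 1, by omega⟩
  have hh' : Hull L (c.vx p u (m + 1)) (a, false) := by
    rw [← e0, hull_false]; simpa using hh
  rcases light_ends h1.2.1 (e0 ▸ hL) hh' with e | e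
  · have e' : a = c.σ m u := by simpa using e
    subst e'
    rw [vx_succ] at e0
    exact ⟨p, u, k, m, h1, by omega, by omega, mul_right_cancel e0, rfl⟩
  · simp at e

variable (c L S) in
/-- The invariant of the retraction along hull paths. -/
def Inv (g : FreeGroup A) : Prop :=
  Reach (symE (c.Keep L S)) (c.th L S g) ∧
    ((¬ c.Inner L S g ∧ c.th L S g * g⁻¹ ∈ L ⊓ c.N) ∨
      ∃ p u k n, c.Rmv L S p u k ∧ 4 * k < n ∧ n < 4 * k + 4 ∧ g = c.vx p u n ∧
        c.th L S g * (c.vx p u (4 * k))⁻¹ ∈ L ⊓ c.N)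

lemma Rmv.inv_iff {p : FreeGroup A} {u : U} {k n : ℕ} (h : c.Rmv L S p u k) (h1 : 4 * k ≤ n)
    (h2 : n < 4 * k + 4) : c.Inv L S (c.vx p u n) ↔
      Reach (symE (c.Keep L S)) (c.th L S (c.vx p u (4 * k))) ∧
        c.th L S (c.vx p u (4 * k)) * (c.vx p u (4 * k))⁻¹ ∈ L ⊓ c.N := by
  have hk := h.2.2.1.1
  have e : c.th L S (c.vx p u n) = c.th L S (c.vx p u (4 * k)) := by
    have := h.th_inner (n - 4 * k) (by omega)
    rwa [show 4 * k + (n - 4 * k) = n by omega] at this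
  have huniq : ∀ p' u' k' n', c.Rmv L S p' u' k' → 4 * k' < n' → n' < 4 * k' + 4 →
      c.vx p u n = c.vx p' u' n' → p' = p ∧ u' = u ∧ k' = k ∧ n' = n := by
    intro p' u' k' n' r1 r2 r3 e1
    obtain ⟨m, rfl⟩ : ∃ m, n' = m + 1 := ⟨n' - 1, by omega⟩
    rcases light_ends r1.2.1 (r1.2.2.1.2 _ r2 r3) (e1 ▸ c.hull_axis h.2.1 n) with e | e
    · simp at e
    · obtain ⟨rfl, rfl, rfl⟩ := r1.priv r2.le r3 h.2.1 (by omega) e1 (by simpa using e)
      exact ⟨rfl, rfl, r1.unique h, rfl⟩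
  unfold Inv
  rw [e]
  refine and_congr_right fun _ => ⟨?_, fun H => ?_⟩
  · rintro (⟨n1, H⟩ | ⟨p', u', k', n', r1, r2, r3, e1, H⟩)
    · rcases h1.eq_or_lt with rfl | h1
      · exact H
      · exact (n1 ⟨p, u, k, n, h, h1, h2, rfl⟩).elim
    · obtain ⟨rfl, rfl, rfl, rfl⟩ := huniq p' u' k' n' r1 r2 r3 e1
      exact H
  · rcases h1.eq_or_lt with rfl | h1
    · refine .inl ⟨?_, H⟩
      rintro ⟨p', u', k', n', r1, r2, r3, e1⟩
      obtain ⟨rfl, rfl, rfl, e2⟩ := huniq p' u' k' n' r1 r2 r3 e1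
      omega
    · exact .inr ⟨p, u, k, n, h, h1, h2, rfl, H⟩

lemma inv_iff_of_not {g : FreeGroup A} (h : ¬ c.Inner L S g) : c.Inv L S g ↔
    Reach (symE (c.Keep L S)) (c.th L S g) ∧ c.th L S g * g⁻¹ ∈ L ⊓ c.N := by
  unfold Inv
  refine and_congr_right fun _ => ⟨?_, fun H => .inl ⟨h, H⟩⟩
  rintro (⟨-, H⟩ | ⟨p, u, k, n, r1, r2, r3, e1, -⟩)
  · exact H
  · exact (h ⟨p, u, k, n, r1, r2, r3, e1⟩).elim

lemma inv_edge {g : FreeGroup A} {a : A} (hh : Hull L g (a, true)) :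
    c.Inv L S g ↔ c.Inv L S (g * of a) := by
  by_cases hre : c.RE L S g a
  · obtain ⟨p, u, k, n, r1, r2, r3, rfl, rfl⟩ := hre
    rw [← vx_succ, r1.inv_iff r2 r3]
    by_cases hn : n + 1 < 4 * k + 4
    · rw [r1.inv_iff (by omega) hn]
    obtain rfl : n = 4 * k + 3 := by omega
    have hk := r1.2.2.1.1
    have hnot : ¬ c.Inner L S (c.vx p u (4 * k + 3 + 1)) := by
      intro H
      rw [vx_succ] at H
      obtain ⟨p', u', k', n', s1, s2, s3, e1, e2⟩ := H.into hh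
      obtain ⟨rfl, e3, rfl⟩ := s1.priv s2 (by omega) r1.2.1 (by omega) e1 e2
      obtain rfl := s1.unique r1
      omega
    rw [inv_iff_of_not hnot, show 4 * k + 3 + 1 = 4 * k + 4 from rfl, r1.th_last]
    set t := c.th L S (c.vx p u (4 * k)) with ht
    set l := t * (c.vx p u (4 * k))⁻¹ with hl
    have hloop : c.loop p u ∈ L ⊓ c.N := ⟨r1.2.1, c.loop_mem_N p u⟩
    have e0 : c.vx p u c.ℓ = c.vx p u (4 * k + 4) * c.wd u (4 * k + 4) (c.ℓ - (4 * k + 4)) := by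
      rw [← vx_add]; congr 1; omega
    have e0' : c.vx p u c.ℓ = c.loop p u * p := by
      have := c.vx_add_ℓ p u 0
      rwa [zero_add, vx_zero] at this
    have e1 : t * c.byp u k = l * (c.loop p u)⁻¹ * c.vx p u (4 * k + 4) := by
      have e2 : c.vx p u (4 * k + 4) =
          c.loop p u * p * (c.wd u (4 * k + 4) (c.ℓ - (4 * k + 4)))⁻¹ := by
        rw [← e0', e0]; simp
      rw [e2, hl, byp, vx]; group
    have e2 : t = l * c.vx p u (4 * k) := by rw [hl]; simp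
    have hmem : t * c.byp u k * (c.vx p u (4 * k + 4))⁻¹ ∈ L ⊓ c.N ↔ l ∈ L ⊓ c.N := by
      rw [e1, mul_inv_cancel_right, Subgroup.mul_mem_cancel_right _ (inv_mem hloop)]
    rw [hmem]
    refine and_congr_left fun hlm => ?_
    have hkeep : ∀ l' ∈ L, ∀ n, n < c.ℓ → (n < 4 * k ∨ 4 * k + 4 ≤ n) →
        symE (c.Keep L S) (l' * c.vx p u n) (c.σ n u, true) := fun l' hl' n h1 h2 =>
      (keep_mul hl').2 ⟨c.hull_axis r1.2.1 n, r1.not_re h1 h2⟩
    have a1 := c.reach_axis (symE_symm (c.Keep L S)) l p u 0 (4 * k)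
      fun n _ h2 => hkeep l hlm.1 n (by omega) (.inl (by omega))
    have a2 := c.reach_axis (symE_symm (c.Keep L S)) (l * (c.loop p u)⁻¹) p u (4 * k + 4)
      (c.ℓ - (4 * k + 4))
      fun n h1 h2 => hkeep _ (mul_mem hlm.1 (inv_mem r1.2.1)) n (by omega) (.inr h1)
    rw [show 4 * k + 4 + (c.ℓ - (4 * k + 4)) = c.ℓ by omega, e0'] at a2
    rw [zero_add, vx_zero] at a1
    rw [e1, a2, e2, ← a1]
    simp [mul_assoc]
  · have n1 : ¬ c.Inner L S g := fun H => by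
      obtain ⟨p, u, k, n, r1, r2, r3, e1, e2⟩ := H.out hh
      exact hre ⟨p, u, k, n, r1, r2.le, r3, e1, e2⟩
    have n2 : ¬ c.Inner L S (g * of a) := fun H => by
      obtain ⟨p, u, k, n, r1, r2, r3, e1, e2⟩ := H.into hh
      exact hre ⟨p, u, k, n, r1, r2, by omega, e1, e2⟩
    rw [inv_iff_of_not n1, inv_iff_of_not n2, th_mul_of, W_of_not hre]
    have e : c.th L S g * of a * (g * of a)⁻¹ = c.th L S g * g⁻¹ := by group
    rw [e]
    refine and_congr_left fun hm => ?_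
    have hk : symE (c.Keep L S) (c.th L S g) (a, true) := by
      have := (keep_mul hm.1).2 (⟨hh, hre⟩ : c.Keep L S g a)
      simpa using this
    exact (symE_symm _).reach_iff hk

lemma inv_of_reach {g : FreeGroup A} (h : Reach (Hull L) g) : c.Inv L S g := by
  induction h with
  | one =>
    rw [inv_iff_of_not fun H => H.light.1 L.one_mem]
    simpa using Reach.one
  | @step g s _ h2 ih =>
    rcases s with ⟨a, _ | _⟩
    · rw [el_false, inv_edge (hull_false.1 h2)]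
      simpa using ih
    · exact (inv_edge h2).1 ih

variable (c L S) in
/-- The loops that avoid the removed edges. -/
def cut : Subgroup (FreeGroup A) :=
  reachSub L (symE (c.Keep L S)) (symE_symm _)
    fun _ hl => symE_mul fun _ _ h => (keep_mul hl).2 h

lemma mem_cut {g : FreeGroup A} : g ∈ c.cut L S ↔ g ∈ L ∧ Reach (symE (c.Keep L S)) g := Iff.rfl

lemma th_mem {l : FreeGroup A} (hl : l ∈ L) :
    c.th L S l ∈ c.cut L S ∧ c.th L S l * l⁻¹ ∈ c.N := by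
  have := inv_of_reach (c := c) (S := S) (reach_hull_of_mem hl)
  rw [inv_iff_of_not fun H => H.light.1 hl] at this
  exact ⟨⟨(L.mul_mem_cancel_right (L.inv_mem hl)).1 this.2.1, this.1⟩, this.2.2⟩

lemma cut_sup_N (h : L ⊔ c.N = ⊤) : c.cut L S ⊔ c.N = ⊤ := by
  rw [eq_top_iff, ← h]
  refine sup_le (fun l hl => ?_) le_sup_right
  obtain ⟨h1, h2⟩ := th_mem (c := c) (S := S) hl
  have : l = (c.th L S l * l⁻¹)⁻¹ * c.th L S l := by group
  rw [this]
  exact mul_mem (Subgroup.mem_sup_right (inv_mem h2)) (Subgroup.mem_sup_left h1)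

variable (c L S) in
/-- The loops around closed cells with type in `S`. -/
def loops : Set (FreeGroup A) := {g | g ∈ L ∧ ∃ p u, u ∈ S ∧ g = c.loop p u}

lemma cut_gen {Wd : Set (FreeGroup A)} (hW : Wd ⊆ L)
    (h : L ≤ Subgroup.closure (Wd ∪ c.loops L S)) :
    c.cut L S ≤ Subgroup.closure (c.th L S '' Wd ∪ c.loops (c.cut L S) S) := by
  have key : ∀ g ∈ Subgroup.closure (Wd ∪ c.loops L S), g ∈ L ∧
      c.th L S g ∈ Subgroup.closure (c.th L S '' Wd ∪ c.loops (c.cut L S) S) := by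
    intro g hg
    induction hg using Subgroup.closure_induction with
    | mem g hg =>
      rcases hg with hg | ⟨hg, p, u, hu, rfl⟩
      · exact ⟨hW hg, Subgroup.subset_closure (.inl ⟨g, hg, rfl⟩)⟩
      · refine ⟨hg, ?_⟩
        by_cases hr : ∃ k, c.Rmv L S p u k
        · obtain ⟨k, hr⟩ := hr
          rw [th_loop_of_rmv hr]; exact one_mem _
        · exact Subgroup.subset_closure (.inr ⟨(th_mem hg).1, _, u, hu, th_loop_of_not hg hr⟩)
    | one => exact ⟨L.one_mem, by simp⟩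
    | mul x y _ _ hx hy => exact ⟨L.mul_mem hx.1 hy.1, by rw [th_mul hx.1]; exact mul_mem hx.2 hy.2⟩
    | inv x _ hx => exact ⟨L.inv_mem hx.1, by rw [th_inv hx.1]; exact inv_mem hx.2⟩
  intro g hg
  have := (key g (h hg.1)).2
  rwa [th_of_reach hg.2] at this

lemma hull_cut {g : FreeGroup A} {a : A} (h : Hull (c.cut L S) g (a, true)) :
    c.Keep L S g a ∧ Reach (symE (c.Keep L S)) g := by
  let E : FreeGroup A → A × Bool → Prop := fun g s =>
    symE (c.Keep L S) g s ∧ Reach (symE (c.Keep L S)) g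
  have hE : Symm E := fun g s h => ⟨symE_symm _ g s h.1, h.2.step h.1⟩
  refine hull_subset (E := E) hE (fun h hh => ?_) h
  have := hh.2
  clear hh
  induction this with
  | one => exact .one
  | step h1 h2 ih => exact ih.step ⟨h2, h1⟩

lemma mem_cut_of_reach {g g' : FreeGroup A} (h : Reach (symE (c.Keep L S)) g)
    (h' : Reach (symE (c.Keep L S)) g') (hm : g * g'⁻¹ ∈ L) : g * g'⁻¹ ∈ c.cut L S :=
  ⟨hm, Reach.back (symE_symm _) (symE_mul fun _ _ h => (keep_mul hm).2 h) h' (by simpa using h)⟩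

/-- A closed cell without a removed block has a heavy vertex in every block. -/
lemma heavy_of_not_rmv {p : FreeGroup A} {u : U} (hu : u ∈ S) (hl : c.loop p u ∈ L)
    (h : ¬ ∃ k, c.Rmv L S p u k) (k : ℕ) (hk : 4 * k + 4 ≤ c.ℓ) :
    ∃ n, 4 * k ≤ n ∧ n < 4 * k + 4 ∧ ¬ Light L (c.vx p u (n + 1)) := by
  classical
  have : ¬ c.Blk L p u k := by
    intro hb
    have hex : ∃ k, c.Blk L p u k := ⟨k, hb⟩
    exact h ⟨Nat.find hex, hu, hl, Nat.find_spec hex, fun k' hk' => Nat.find_min hex hk'⟩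
  by_contra hc
  push Not at hc
  apply this
  refine ⟨hk, fun n h1 h2 => ?_⟩
  obtain ⟨m, rfl⟩ : ∃ m, n = m + 1 := ⟨n - 1, by omega⟩
  exact hc m (by omega) (by omega)

end Cfg

end Crest.Agent.R191
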