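import Crest.Agent.R191.Tree

/-!
Row 191 (S0291): small-cancellation data, relator words, cells.
-/

set_option autoImplicit false
set_option linter.unusedSectionVars false

namespace Crest.Agent.R191

open FreeGroup

/-- Small cancellation data: letters `A`, relator types `U`; the relator of type `u` is the positive
word `σ 0 u ⋯ σ (ℓ-1) u`; two consecutive letters determine the type and the position. -/
structure Cfg (A U : Type*) where
  ℓ : ℕ
  σ : ℕ → U → A
  four_le : 4 ≤ ℓ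
  per : ∀ n u, σ (n + ℓ) u = σ n u
  sc : ∀ i j u u', σ i u = σ j u' → σ (i + 1) u = σ (j + 1) u' → u = u' ∧ i % ℓ = j % ℓ
  surj : ∀ a, ∃ u, σ 0 u = a

variable {A U : Type*} (c : Cfg A U)

namespace Cfg

/-- The positive word `σ i u ⋯ σ (i+k-1) u`. -/
def wd (u : U) (i : ℕ) : ℕ → FreeGroup A
  | 0 => 1
  | k + 1 => wd u i k * of (c.σ (i + k) u)

/-- The relator of type `u`. -/
def rel (u : U) : FreeGroup A := c.wd u 0 c.ℓ

/-- The normal closure of the relators. -/
def N : Subgroup (FreeGroup A) := Subgroup.normalClosure (Set.range c.rel)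

instance : c.N.Normal := Subgroup.normalClosure_normal

/-- The `n`-th vertex on the axis of the relator `u` through `p`. -/
def vx (p : FreeGroup A) (u : U) (n : ℕ) : FreeGroup A := p * c.wd u 0 n

/-- The loop around the cell of type `u` at `p`. -/
def loop (p : FreeGroup A) (u : U) : FreeGroup A := p * c.rel u * p⁻¹

@[simp] lemma wd_zero (u : U) (i : ℕ) : c.wd u i 0 = 1 := rfl

lemma wd_succ (u : U) (i k : ℕ) : c.wd u i (k + 1) = c.wd u i k * of (c.σ (i + k) u) := rfl

lemma wd_add (u : U) (i k m : ℕ) : c.wd u i (k + m) = c.wd u i k * c.wd u (i + k) m := by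
  induction m with
  | zero => simp
  | succ m ih => rw [← add_assoc, wd_succ, wd_succ, ih, mul_assoc, add_assoc]

lemma wd_succ' (u : U) (i k : ℕ) : c.wd u i (k + 1) = of (c.σ i u) * c.wd u (i + 1) k := by
  rw [add_comm k 1, wd_add]; simp [wd_succ]

lemma wd_per (u : U) (i k : ℕ) : c.wd u (i + c.ℓ) k = c.wd u i k := by
  induction k with
  | zero => simp
  | succ k ih => rw [wd_succ, wd_succ, ih, add_right_comm, c.per]

lemma per_mul (n m : ℕ) (u : U) : c.σ (n + m * c.ℓ) u = c.σ n u := by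
  induction m with
  | zero => simp
  | succ m ih => rw [Nat.succ_mul, ← add_assoc, c.per, ih]

lemma σ_mod (n : ℕ) (u : U) : c.σ (n % c.ℓ) u = c.σ n u := by
  conv_rhs => rw [← Nat.mod_add_div' n c.ℓ, per_mul]

lemma σ_congr {n m : ℕ} (h : n % c.ℓ = m % c.ℓ) (u : U) : c.σ n u = c.σ m u := by
  rw [← σ_mod, h, σ_mod]

lemma ℓ_pos : 0 < c.ℓ := by have := c.four_le; omega

@[simp] lemma vx_zero (p : FreeGroup A) (u : U) : c.vx p u 0 = p := by simp [vx]

lemma vx_succ (p : FreeGroup A) (u : U) (n : ℕ) :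
    c.vx p u (n + 1) = c.vx p u n * of (c.σ n u) := by
  simp [vx, wd_succ, mul_assoc]

lemma vx_add (p : FreeGroup A) (u : U) (n k : ℕ) :
    c.vx p u (n + k) = c.vx p u n * c.wd u n k := by
  simp [vx, wd_add, mul_assoc]

lemma vx_add_ℓ (p : FreeGroup A) (u : U) (n : ℕ) :
    c.vx p u (n + c.ℓ) = c.loop p u * c.vx p u n := by
  have := c.wd_per u 0 n
  rw [zero_add] at this
  simp [vx, loop, rel, add_comm n, wd_add, this, mul_assoc]

lemma vx_mul (l p : FreeGroup A) (u : U) (n : ℕ) : c.vx (l * p) u n = l * c.vx p u n := by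
  simp [vx, mul_assoc]

lemma loop_mul (l p : FreeGroup A) (u : U) : c.loop (l * p) u = l * c.loop p u * l⁻¹ := by
  simp [loop, mul_assoc]

lemma vx_add_mul_ℓ (p : FreeGroup A) (u : U) (n m : ℕ) :
    c.vx p u (n + m * c.ℓ) = c.loop p u ^ m * c.vx p u n := by
  induction m with
  | zero => simp
  | succ m ih => rw [Nat.succ_mul, ← add_assoc, vx_add_ℓ, ih, pow_succ', mul_assoc]

lemma loop_mem_N (p : FreeGroup A) (u : U) : c.loop p u ∈ c.N :=
  (inferInstance : c.N.Normal).conj_mem _ (Subgroup.subset_normalClosure ⟨u, rfl⟩) p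

variable [DecidableEq A]

lemma St_wd_succ (u : U) (k : ℕ) : ∀ i, St (c.σ i u, true) (c.wd u i (k + 1)) ∧
    norm (c.wd u i (k + 1)) = k + 1 := by
  induction k with
  | zero => intro i; rw [wd_succ']; simpa using St_el (c.σ i u, true)
  | succ k ih =>
    intro i
    obtain ⟨h1, h2⟩ := ih (i + 1)
    have h3 : ¬ St (inv' (c.σ i u, true)) (c.wd u (i + 1) (k + 1)) := by
      intro h; simpa using St.unique h h1
    have h4 := toWord_el_mul_of_not h3
    rw [wd_succ']
    refine ⟨St_el_mul.2 h3, ?_⟩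
    unfold FreeGroup.norm at h2 ⊢
    rw [← el_true, h4, List.length_cons, h2]

lemma St_wd_inv (u : U) (i k : ℕ) : ∃ a, St (a, false) (c.wd u i (k + 1))⁻¹ := by
  induction k with
  | zero => exact ⟨c.σ i u, by simpa [wd_succ] using St_el (c.σ i u, false)⟩
  | succ k ih =>
    obtain ⟨a, ha⟩ := ih
    refine ⟨c.σ (i + (k + 1)) u, ?_⟩
    rw [wd_succ, mul_inv_rev, ← el_false, St_el_mul]
    intro h
    simpa using St.unique h ha

/-- The edges on the axis of a closed cell lie in the hull. -/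
lemma hull_axis {L : Subgroup (FreeGroup A)} {p : FreeGroup A} {u : U} (h : c.loop p u ∈ L)
    (n : ℕ) : Hull L (c.vx p u n) (c.σ n u, true) := by
  have hℓ := c.ℓ_pos
  set m := n + norm p + 1 with hm
  have hml : m ≤ m * c.ℓ := Nat.le_mul_of_pos_right _ hℓ
  refine ⟨c.loop p u ^ m, L.pow_mem h _, (c.loop p u ^ m)⁻¹, L.inv_mem (L.pow_mem h _), ?_, ?_⟩
  · obtain ⟨k, hk⟩ : ∃ k, m * c.ℓ = n + (k + 1) := ⟨m * c.ℓ - n - 1, by omega⟩
    have e1 := c.vx_add_mul_ℓ p u 0 m
    rw [zero_add, vx_zero, hk, vx_add] at e1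
    have e2 : (c.vx p u n)⁻¹ * c.loop p u ^ m = c.wd u n (k + 1) * p⁻¹ := by
      rw [inv_mul_eq_iff_eq_mul, ← mul_assoc, e1]; simp
    unfold Sep
    rw [e2]
    obtain ⟨h1, h2⟩ := c.St_wd_succ u k n
    apply St_mul_of_norm_lt _ h1
    rw [h2, norm_inv_eq]; omega
  · obtain ⟨k, hk⟩ : ∃ k, n + m * c.ℓ = k + 1 := ⟨n + m * c.ℓ - 1, by omega⟩
    have e1 := c.vx_add_mul_ℓ p u n m
    rw [hk] at e1
    have e2 : (c.vx p u n)⁻¹ * (c.loop p u ^ m)⁻¹ = (c.wd u 0 (k + 1))⁻¹ * p⁻¹ := by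
      rw [← mul_inv_rev, ← e1, vx, mul_inv_rev]
    unfold Sep
    rw [e2]
    obtain ⟨a, ha⟩ := c.St_wd_inv u 0 k
    have := St_mul_of_norm_lt p⁻¹ ha (by
      rw [norm_inv_eq, norm_inv_eq, (c.St_wd_succ u k 0).2]; omega)
    intro h'
    simpa using St.unique h' this

/-- All but at most two consecutive edges of the cell `(p, u)` are in the hull of `L`. -/
def Avail (L : Subgroup (FreeGroup A)) (p : FreeGroup A) (u : U) : Prop :=
  ∃ i, i < c.ℓ ∧ ∀ n, i ≤ n → n + 2 < i + c.ℓ → Hull L (c.vx p u n) (c.σ n u, true)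

end Cfg

end Crest.Agent.R191
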