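import Crest.Agent.R191.Count

/-!
Row 191 (S0291): intensity estimates for the growth process and for the cut.
-/

set_option autoImplicit false
set_option linter.unusedSectionVars false

namespace Crest.Agent.R191

open MeasureTheory FreeGroup
open scoped ENNReal

variable {Γ : Type*} [Group Γ] [Countable Γ] [DecidableEq Γ] {X : Type*} [MeasurableSpace X]
  [MulAction Γ X] {μ : Measure X} (hμ : ∀ γ : Γ, MeasurePreserving (fun x : X => γ • x) μ μ)
  (c : Cfg Γ Γ) [c.RI]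

/-- The set of group elements that move `x` into `S`. -/
def Sx (S : Set X) (x : X) : Set Γ := {u | u • x ∈ S}

lemma mem_Sx {S : Set X} {x : X} {u : Γ} : u ∈ (Sx S x : Set Γ) ↔ u • x ∈ S := Iff.rfl

lemma one_mem_Sx {S : Set X} {x : X} : (1 : Γ) ∈ (Sx S x : Set Γ) ↔ x ∈ S := by simp [mem_Sx]

include hμ in
lemma gset_Sx {S : Set X} (hS : MeasurableSet S) : GSet (Γ := Γ) (Sx S) :=
  ⟨fun u => measurableSet_setOfPred.1 ((hμ u).measurable hS), fun δ x u => by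
    simp [mem_Sx, mul_smul]⟩

variable (μ) in
/-- The intensity of hull edges. -/
noncomputable def EE (L : X → Subgroup (FreeGroup Γ)) : ℝ≥0∞ :=
  nu μ L fun x g => ind (Hull (L x) g (1, true))

lemma Cfg.σ_eq (n : ℕ) (u : Γ) : c.σ n u = c.σ n 1 * u := by
  rw [← c.σ_mul', one_mul]

lemma Cfg.cell_unique {p p' : FreeGroup Γ} {u u' : Γ} {n : ℕ} (h1 : c.vx p u n = c.vx p' u' n)
    (h2 : c.σ n u = c.σ n u') : p = p' ∧ u = u' := by
  rw [c.σ_eq n u, c.σ_eq n u', mul_right_inj] at h2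
  subst h2
  exact ⟨mul_right_cancel h1, rfl⟩

lemma nu_sat_le {L L' : X → Subgroup (FreeGroup Γ)} (h : ∀ x, L x ≤ L' x)
    {Y : X → FreeGroup Γ → Prop} (hY : ∀ x, ∀ l ∈ L x, ∀ g, Y x (l * g) ↔ Y x g) :
    nu μ L' (fun x g => ind (∃ l ∈ L' x, Y x (l * g))) ≤ nu μ L fun x g => ind (Y x g) := by
  refine lintegral_mono fun x => sumL_le (fun g g' => ∃ l ∈ L' x, g' = l * g)
    (fun l hl g => ind_congr (hY x l hl g)) ?_ ?_
  · intro g hg
    obtain ⟨l, hl, h⟩ := ind_ne_zero.1 hg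
    exact ⟨l * g, ⟨l, hl, rfl⟩, ind_mono fun _ => h⟩
  · rintro g₁ g₂ _ _ ⟨l₁, h₁, rfl⟩ ⟨l₂, h₂, rfl⟩ hm
    have := (L' x).mul_mem ((L' x).mul_mem ((L' x).inv_mem h₁) (h x hm)) h₂
    simpa [mul_assoc] using this

include hμ in
lemma avail_le {L : X → Subgroup (FreeGroup Γ)} (hL : GSub L) :
    nu μ L (fun x p => ind (c.Avail (L x) p 1)) ≤ c.ℓ * EE μ L := by
  rw [EE, ← nu_const_mul _ (by simp)]
  refine mtp_le hμ hL (T := Fin c.ℓ) (fun n x p u g a => g = c.vx p u n ∧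
    a = c.σ n u ∧ Hull (L x) g (a, true)) ?_ ?_ ?_ ?_
  · intro n
    repeat' first | good_step | exact good_hull hL (by eqv) (by eqv)
  · rintro n x l hl p u _ _ ⟨rfl, rfl, h⟩
    exact ⟨(c.vx_mul _ _ _ _).symm, rfl, h.mul hl⟩
  · refine .of_forall fun x p => ind_le ?_
    rintro ⟨i, hi, h⟩
    have := c.four_le
    exact one_le_cd (i := ((c.vx p 1 i, c.σ i 1), ⟨i, hi⟩)) ⟨rfl, rfl, h i le_rfl (by omega)⟩
  · refine .of_forall fun x g => le_mul_ind (cd_le (fun w => w.2) ?_) fun h => ?_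
    · rintro ⟨⟨p, u⟩, n⟩ ⟨⟨p', u'⟩, n'⟩ ⟨h1, h2, -⟩ ⟨h1', h2', -⟩ rfl
      obtain ⟨rfl, rfl⟩ := c.cell_unique (h1.symm.trans h1') (h2.symm.trans h2')
      rfl
    · obtain ⟨_, -, -, h⟩ := cd_ne_zero h
      exact h

include hμ in
lemma closed_le {L : X → Subgroup (FreeGroup Γ)} (hL : GSub L) :
    nu μ L (fun x p => ind (c.loop p 1 ∈ L x)) ≤ c.ℓ * EE μ L :=
  (nu_mono fun _ _ => ind_mono fun h => ⟨0, c.ℓ_pos, fun n _ _ => c.hull_axis h n⟩).trans
    (avail_le hμ c hL)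

section Process

lemma Cfg.add_mul {L : ℕ → Subgroup (FreeGroup Γ)} {P : ℕ → Set Γ} {T t : ℕ} {l p : FreeGroup Γ}
    {u : Γ} (hl : l ∈ L T) : c.Add L P T t (l * p) u ↔ c.Add L P T t p u := by
  constructor
  · rintro ⟨l', hl', h⟩
    exact ⟨l' * l, mul_mem hl' hl, by rwa [mul_assoc]⟩
  · rintro ⟨l', hl', h⟩
    exact ⟨l' * l⁻¹, mul_mem hl' (inv_mem hl), by simpa [mul_assoc] using h⟩

lemma Cfg.HH_mul {L : ℕ → Subgroup (FreeGroup Γ)} {T t : ℕ} {l g : FreeGroup Γ}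
    {a : Γ} (hl : l ∈ L T) : Cfg.HH L T t (l * g) a ↔ Cfg.HH L T t g a := by
  constructor
  · rintro ⟨l', hl', h⟩
    exact ⟨l' * l, mul_mem hl' hl, by rwa [mul_assoc]⟩
  · rintro ⟨l', hl', h⟩
    exact ⟨l' * l⁻¹, mul_mem hl' (inv_mem hl), by simpa [mul_assoc] using h⟩

lemma Cfg.new_mul {L : ℕ → Subgroup (FreeGroup Γ)} {P : ℕ → Set Γ} {T n : ℕ} {l p : FreeGroup Γ}
    {u : Γ} (hl : l ∈ L T) : c.New L P T (l * p) u n ↔ c.New L P T p u n := by
  simp only [Cfg.New, c.add_mul hl, c.vx_mul, Cfg.HH_mul hl]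

variable {L : ℕ → X → Subgroup (FreeGroup Γ)} (hL : ∀ t, GSub (L t))
  {P : ℕ → X → Set Γ} (hP : ∀ t, GSet (P t))
  (hstep : ∀ t x, L (t + 1) x = c.step (L t x) (P t x))

include hμ hL hP hstep in
lemma EE_proc_le (T : ℕ) : EE μ (L T) ≤ EE μ (L 0) + 2 * nu μ (L T) fun x p =>
    ind (∃ t, t < T ∧ c.Add (fun t => L t x) (fun t => P t x) T t p 1) := by
  have h1 : EE μ (L T) ≤ nu μ (L T) fun x g => ind (Cfg.HH (fun t => L t x) T 0 g 1) +
      ind (∃ p u n, n < c.ℓ ∧ c.New (fun t => L t x) (fun t => P t x) T p u n ∧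
        g = c.vx p u n ∧ 1 = c.σ n u) :=
    nu_mono fun x g => (ind_mono fun h => c.hull_cases (fun t => hstep t x) h).trans ind_or_le
  rw [nu_add (hL T) fun g => measurable_ind
    ((good_HH hL T 0 (Z := FreeGroup Γ × Γ) (g := Prod.fst) (a := Prod.snd)
      (by eqv) (by eqv)).meas (g, 1))] at h1
  refine h1.trans (add_le_add ?_ ?_)
  · exact nu_sat_le (L := L 0) (L' := L T)
      (fun x => c.proc_mono (L := fun t => L t x) (fun t => hstep t x) (Nat.zero_le T))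
      (Y := fun x g => Hull (L 0 x) g (1, true)) fun x l hl g => hull_mul hl
  rw [← nu_const_mul _ (by simp)]
  refine mtp_le hμ (hL T) (T := ℕ) (fun n x g a p u => n < c.ℓ ∧
    c.New (fun t => L t x) (fun t => P t x) T p u n ∧ g = c.vx p u n ∧ a = c.σ n u) ?_ ?_ ?_ ?_
  · intro n
    repeat' first | good_step | exact good_new hL hP c T n (by eqv) (by eqv)
  · rintro n x l hl _ _ p u ⟨h1, h2, rfl, rfl⟩
    exact ⟨h1, (c.new_mul hl).2 h2, (c.vx_mul _ _ _ _).symm, rfl⟩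
  · refine .of_forall fun x g => ind_le ?_
    rintro ⟨p, u, n, h⟩
    exact one_le_cd (i := ((p, u), n)) h
  · refine .of_forall fun x p => le_mul_ind ?_ fun h => ?_
    · obtain ⟨n₁, n₂, h⟩ := c.new_two (L := fun t => L t x) (P := fun t => P t x) (T := T)
        (fun t => hstep t x) p 1
      refine cd_le (d := 2) (fun w => if w.2 = n₁ then 0 else 1) ?_
      rintro ⟨⟨g, a⟩, n⟩ ⟨⟨g', a'⟩, n'⟩ ⟨h1, h2, e1, e2⟩ ⟨h1', h2', e1', e2'⟩ e
      have : n = n' := by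
        have a1 := h n h1 h2
        have a2 := h n' h1' h2'
        by_cases b1 : n = n₁ <;> by_cases b2 : n' = n₁ <;> simp [b1, b2] at e <;> omega
      subst this
      simp only at e1 e2 e1' e2'
      rw [e1, e2, e1', e2']
    · obtain ⟨_, -, ⟨t, ht, h, -⟩, -⟩ := cd_ne_zero h
      exact ⟨t, ht, h⟩

include hμ hL hP hstep in
lemma EE_proc_fin (h0 : EE μ (L 0) < ⊤) (T : ℕ) : EE μ (L T) < ⊤ := by
  induction T using Nat.strong_induction_on with
  | _ T ih =>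
  refine (EE_proc_le hμ c hL hP hstep T).trans_lt (ENNReal.add_lt_top.2 ⟨h0,
    ENNReal.mul_lt_top (by simp) ?_⟩)
  have h1 : (nu μ (L T) fun x p =>
      ind (∃ t, t < T ∧ c.Add (fun t => L t x) (fun t => P t x) T t p 1)) ≤
      nu μ (L T) fun x p => ∑' t : Fin T, ind (∃ l ∈ L T x, c.Avail (L t x) (l * p) 1) := by
    refine nu_mono fun x p => ind_le ?_
    rintro ⟨t, ht, l, hl, -, h⟩
    exact one_le_cd (P := fun t : Fin T => ∃ l ∈ L T x, c.Avail (L t x) (l * p) 1)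
      (i := ⟨t, ht⟩) ⟨l, hl, h⟩
  rw [nu_tsum (hL T) fun (t : Fin T) p => measurable_ind (Measurable.exists fun l =>
    ((hL T).meas l).and ((good_avail (hL t) c (Z := FreeGroup Γ × Γ) (p := Prod.fst)
      (u := Prod.snd) (by eqv) (by eqv)).meas (l * p, 1))), tsum_fintype] at h1
  refine h1.trans_lt (ENNReal.sum_lt_top.2 fun t _ => ?_)
  refine (nu_sat_le (L := L t) (L' := L T)
    (fun x => c.proc_mono (L := fun t => L t x) (fun t => hstep t x) t.2.le)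
    (Y := fun x p => c.Avail (L t x) p 1) fun x l hl p => ?_).trans_lt ?_
  · exact ⟨fun h => by simpa using h.mul c ((L t x).inv_mem hl), fun h => h.mul c hl⟩
  · exact (avail_le hμ c (hL t)).trans_lt (ENNReal.mul_lt_top (by simp) (ih t t.2))

end Process

include hμ in
lemma EE_cut_le {L : X → Subgroup (FreeGroup Γ)} (hL : GSub L) {S : X → Set Γ} (hS : GSet S) :
    EE μ (fun x => c.cut (L x) (S x)) +
      4 * nu μ L (fun x p => ind (∃ k, c.Rmv (L x) (S x) p 1 k)) ≤ EE μ L := by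
  have h1 : EE μ (fun x => c.cut (L x) (S x)) ≤
      nu μ L fun x g => ind (c.Keep (L x) (S x) g 1) := by
    refine lintegral_mono fun x => sumL_le
      (fun g g' => g' = g ∧ Reach (symE (c.Keep (L x) (S x))) g)
      (fun l hl g => ind_congr (Cfg.keep_mul hl)) ?_ ?_
    · intro g hg
      have := Cfg.hull_cut (ind_ne_zero.1 hg)
      exact ⟨g, ⟨rfl, this.2⟩, ind_mono fun _ => this.1⟩
    · rintro g₁ g₂ _ _ ⟨rfl, h₁⟩ ⟨rfl, h₂⟩ hm
      exact Cfg.mem_cut_of_reach h₁ h₂ hm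
  have h2 : 4 * nu μ L (fun x p => ind (∃ k, c.Rmv (L x) (S x) p 1 k)) ≤
      nu μ L fun x g => ind (c.RE (L x) (S x) g 1) := by
    rw [← nu_const_mul _ (by simp)]
    refine mtp_le hμ hL (T := ℕ) (fun n x p u g a => ∃ k, c.Rmv (L x) (S x) p u k ∧
      4 * k ≤ n ∧ n < 4 * k + 4 ∧ g = c.vx p u n ∧ a = c.σ n u) ?_ ?_ ?_ ?_
    · intro n
      repeat' first | good_step | exact good_rmv hL hS c (by eqv) (by eqv) _
    · rintro n x l hl p u _ _ ⟨k, h1, h2, h3, rfl, rfl⟩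
      exact ⟨k, (Cfg.rmv_mul hl).2 h1, h2, h3, (c.vx_mul _ _ _ _).symm, rfl⟩
    · refine .of_forall fun x p => mul_ind_le ?_
      rintro ⟨k, h⟩
      refine le_cd (d := 4) (fun j => ((c.vx p 1 (4 * k + j), c.σ (4 * k + j) 1), 4 * k + j))
        (fun j => ⟨k, h, by simp, by simp, rfl, rfl⟩) ?_
      intro j j' e
      simp only [Prod.mk.injEq] at e
      exact Fin.ext (by omega)
    · refine .of_forall fun x g => ?_
      rw [← one_mul (ind _)]
      refine le_mul_ind (cd_le_one ?_) fun h => ?_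
      · rintro ⟨⟨p, u⟩, n⟩ ⟨⟨p', u'⟩, n'⟩ ⟨k, h1, h2, h3, e1, e2⟩ ⟨k', h1', h2', h3', e1', e2'⟩
        have := h1'.2.2.1.1
        obtain ⟨rfl, rfl, rfl⟩ := h1.priv h2 h3 h1'.2.1 (n' := n') (by simp only at h3'; omega)
          (e1'.symm.trans e1) (e2'.symm.trans e2)
        rfl
      · obtain ⟨⟨⟨p, u⟩, n⟩, k, h⟩ := cd_ne_zero h
        exact ⟨p, u, k, n, h⟩
  refine (add_le_add h1 h2).trans ?_
  rw [← nu_add hL fun g => measurable_ind ((good_keep hL hS c (Z := FreeGroup Γ × Γ)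
    (g := Prod.fst) (a := Prod.snd) (by eqv) (by eqv)).meas (g, 1))]
  refine nu_mono fun x g => ?_
  rw [ind_split (Hull (L x) g (1, true)) (c.RE (L x) (S x) g 1), add_comm]
  refine add_le_add (ind_mono fun h => ⟨?_, h⟩) le_rfl
  obtain ⟨p, u, k, n, h1, -, -, rfl, e⟩ := h
  rw [e]
  exact c.hull_axis h1.2.1 n

end Crest.Agent.R191
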