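import Crest.Agent.R191.Est1

/-!
Row 191 (S0291): heavy vertices, degrees, and the initial field of subgroups.
-/

set_option autoImplicit false
set_option linter.unusedSectionVars false

namespace Crest.Agent.R191

open MeasureTheory FreeGroup
open scoped ENNReal

variable {Γ : Type*} [Group Γ] [Countable Γ] [DecidableEq Γ] {X : Type*} [MeasurableSpace X]
  [MulAction Γ X] {μ : Measure X} (hμ : ∀ γ : Γ, MeasurePreserving (fun x : X => γ • x) μ μ)
  (c : Cfg Γ Γ) [c.RI]

lemma amgm (m : ℝ≥0∞) : 40 * m ≤ 400 + m * m := by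
  induction m with
  | top => simp
  | coe m =>
    have : 40 * m ≤ 400 + m * m := by
      rw [← NNReal.coe_le_coe]; push_cast; nlinarith [sq_nonneg ((m : ℝ) - 20)]
    exact_mod_cast this

variable (μ) in
/-- The intensity of hull edges with heavy terminal vertex. -/
noncomputable def NN (L : X → Subgroup (FreeGroup Γ)) : ℝ≥0∞ :=
  nu μ L fun x g => ind (Hull (L x) g (1, true) ∧ ¬ Light (L x) (g * of 1))

include hμ in
lemma heavy_le {L : X → Subgroup (FreeGroup Γ)} (hL : GSub L) {S : Set X} {α : ℝ≥0∞}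
    (hSα : μ S ≤ α) {q : ℕ} (hq : c.ℓ = 4 * q)
    (hspec : ∀ S, MeasurableSet S → μ S ≤ α → ∑ n : Fin c.ℓ, ∑ n' : Fin c.ℓ,
      μ ({x | (c.σ n 1)⁻¹ • x ∈ S} ∩ {x | (c.σ n' 1)⁻¹ • x ∈ S}) ≤ 5 * c.ℓ * μ S)
    (Q : X → FreeGroup Γ → Γ → Prop) (hQ : Good Γ fun x (w : FreeGroup Γ × Γ) => Q x w.1 w.2)
    (hQi : ∀ x, ∀ l ∈ L x, ∀ p u, Q x (l * p) u ↔ Q x p u) (hQS : ∀ x p, Q x p 1 → x ∈ S)
    (hQh : ∀ x p u, Q x p u → c.loop p u ∈ L x ∧ ∀ k, 4 * k + 4 ≤ c.ℓ →
      ∃ n, 4 * k ≤ n ∧ n < 4 * k + 4 ∧ ¬ Light (L x) (c.vx p u (n + 1))) :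
    40 * q * nu μ L (fun x p => ind (Q x p 1)) ≤
      400 * NN μ L + 20 * q * nu μ L (fun x p => ind (Q x p 1)) := by
  let A : ℕ → X → FreeGroup Γ → Γ → Prop := fun n x g a =>
    ∃ p u, Q x p u ∧ g = c.vx p u n ∧ a = c.σ n u
  have hQ' : ∀ {Z : Type _} [RA Γ Z] {p : Z → FreeGroup Γ} {u : Z → Γ}, Eqv Γ p → Eqv Γ u →
      Good Γ fun x z => Q x (p z) (u z) := fun {Z} _ {p u} hp hu =>
    hQ.comp (f := fun z => (p z, u z)) fun δ z => by simp [hp δ z, hu δ z]
  have hA : ∀ n, Good Γ fun x (w : FreeGroup Γ × Γ) => A n x w.1 w.2 := by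
    intro n
    simp only [A]
    repeat' first | good_step | exact hQ' (by eqv) (by eqv)
  have ha : q * nu μ L (fun x p => ind (Q x p 1)) ≤ nu μ L fun x g =>
      (cd fun n : Fin c.ℓ => A n x g 1) *
        ind (Hull (L x) g (1, true) ∧ ¬ Light (L x) (g * of 1)) := by
    rw [← nu_const_mul _ (by simp)]
    refine mtp_le hμ hL (T := Fin c.ℓ) (fun n x p u g a => Q x p u ∧ g = c.vx p u n ∧
      a = c.σ n u ∧ Hull (L x) g (a, true) ∧ ¬ Light (L x) (g * of a)) ?_ ?_ ?_ ?_
    · intro n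
      repeat' first | good_step | exact hQ' (by eqv) (by eqv) |
        exact good_hull hL (by eqv) (by eqv) | exact good_light hL (by eqv)
    · rintro n x l hl p u _ _ ⟨h1, rfl, rfl, h2, h3⟩
      exact ⟨(hQi x l hl p u).2 h1, (c.vx_mul _ _ _ _).symm, rfl, h2.mul hl,
        by rwa [mul_assoc, light_mul hl]⟩
    · refine .of_forall fun x p => mul_ind_le fun h => ?_
      obtain ⟨h1, h2⟩ := hQh x p 1 h
      choose n hn using fun k : Fin q => h2 k (by have := k.2; omega)
      refine le_cd (fun k => ((c.vx p 1 (n k), c.σ (n k) 1), ⟨n k, ?_⟩)) (fun k => ?_) ?_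
      · have := k.2; have := hn k; omega
      · exact ⟨h, rfl, rfl, c.hull_axis h1 _, by rw [← c.vx_succ]; exact (hn k).2.2⟩
      · intro k k' e
        simp only [Prod.mk.injEq, Fin.mk.injEq] at e
        have := hn k; have := hn k'
        exact Fin.ext (by omega)
    · refine .of_forall fun x g => le_mul_ind (cd_le_of_inj (fun w => w.2) ?_ ?_) fun h => ?_
      · rintro ⟨⟨p, u⟩, n⟩ ⟨h1, h2, h3, -⟩
        exact ⟨p, u, h1, h2, h3⟩
      · rintro ⟨⟨p, u⟩, n⟩ ⟨⟨p', u'⟩, n'⟩ ⟨-, h1, h2, -⟩ ⟨-, h1', h2', -⟩ rfl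
        obtain ⟨rfl, rfl⟩ := c.cell_unique (h1.symm.trans h1') (h2.symm.trans h2')
        rfl
      · obtain ⟨_, -, -, -, h⟩ := cd_ne_zero h
        exact h
  have hb : 40 * (nu μ L fun x g => (cd fun n : Fin c.ℓ => A n x g 1) *
        ind (Hull (L x) g (1, true) ∧ ¬ Light (L x) (g * of 1))) ≤ 400 * NN μ L +
      ∑' n : Fin c.ℓ, ∑' n' : Fin c.ℓ, nu μ L fun x g => ind (A n x g 1 ∧ A n' x g 1) := by
    have hm : ∀ (n n' : Fin c.ℓ) g, Measurable fun x => ind (A n x g 1 ∧ A n' x g 1) :=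
      fun n n' g => measurable_ind (((hA n).meas (g, 1)).and ((hA n').meas (g, 1)))
    simp only [← nu_tsum hL (hm _)]
    rw [← nu_tsum hL fun n g => Measurable.tsum fun n' => hm n n' g, NN,
      ← nu_const_mul _ (by simp), ← nu_const_mul _ (by simp), ← nu_add hL]
    · refine nu_mono fun x g => ?_
      rw [← mul_assoc]
      refine mul_ind_le fun h => ?_
      rw [ind_of h, mul_one]
      refine (amgm _).trans (le_of_eq ?_)
      simp only [cd, ind_and, ENNReal.tsum_mul_left, ENNReal.tsum_mul_right]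
    · intro g
      refine (measurable_ind ?_).const_mul _
      exact ((good_hull hL (Z := FreeGroup Γ × Γ) (g := Prod.fst) (s := fun z => (z.2, true))
        (by eqv) (by eqv)).meas (g, 1)).and
        ((good_light hL (g := id) (by eqv)).meas (g * of 1)).not
  let m : X → ℝ≥0∞ := fun x => sumL (L x) fun p => ind (Q x p 1)
  have hm : Measurable m := measurable_sumL hL fun p => measurable_ind (hQ.meas (p, 1))
  let St : ℕ → Set X := fun t => {x | (t : ℝ≥0∞) < m x}
  have hSt : ∀ t, MeasurableSet (St t) := fun t => measurableSet_lt measurable_const hm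
  have hA_le : ∀ n x, sumL (L x) (fun g => ind (A n x g 1)) ≤ m ((c.σ n 1)⁻¹ • x) := by
    intro n x
    set δ := (c.σ n 1)⁻¹ with hδ
    have e : m (δ • x) = sumL (L x) fun p => ind (Q x p δ) := by
      rw [← sumL_rho hL δ x fun l hl p => ind_congr (hQi x l hl p δ)]
      simp only [m]
      congr 1; funext p
      exact ind_congr (by simpa using hQ.equi δ x (p, 1))
    rw [e]
    refine sumL_le (fun g p => g = c.vx p δ n) (fun l hl p => ind_congr (hQi x l hl p δ)) ?_ ?_
    · intro g hg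
      obtain ⟨p, u, h1, h2, h3⟩ := ind_ne_zero.1 hg
      rw [c.σ_eq, eq_comm, mul_eq_one_iff_inv_eq] at h3
      rw [← h3] at h1 h2
      exact ⟨p, h2, ind_mono fun _ => h1⟩
    · rintro _ _ p₁ p₂ rfl rfl h
      simpa [Cfg.vx, mul_assoc] using h
  have hc : ∀ n n' : Fin c.ℓ, (nu μ L fun x g => ind (A n x g 1 ∧ A n' x g 1)) ≤
      ∑' t, μ ({x | (c.σ n 1)⁻¹ • x ∈ St t} ∩ {x | (c.σ n' 1)⁻¹ • x ∈ St t}) := by
    intro n n'
    have hmeas : ∀ t, Measurable fun x => (c.σ n 1)⁻¹ • x ∈ St t ∧ (c.σ n' 1)⁻¹ • x ∈ St t :=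
      fun t => (measurableSet_setOfPred.1 ((hμ _).measurable (hSt t))).and
        (measurableSet_setOfPred.1 ((hμ _).measurable (hSt t)))
    calc _ ≤ ∫⁻ x, ∑' t, ind ((c.σ n 1)⁻¹ • x ∈ St t ∧ (c.σ n' 1)⁻¹ • x ∈ St t) ∂μ := by
          refine lintegral_mono fun x => ?_
          have h1 : sumL (L x) (fun g => ind (A n x g 1 ∧ A n' x g 1)) ≤ m ((c.σ n 1)⁻¹ • x) :=
            (sumL_mono fun g => ind_mono And.left).trans (hA_le n x)
          have h2 : sumL (L x) (fun g => ind (A n x g 1 ∧ A n' x g 1)) ≤ m ((c.σ n' 1)⁻¹ • x) :=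
            (sumL_mono fun g => ind_mono And.right).trans (hA_le n' x)
          simp only [sumL_ind] at h1 h2 ⊢
          rw [cd_layer]
          exact ENNReal.tsum_le_tsum fun t => ind_mono fun h => ⟨h.trans_le h1, h.trans_le h2⟩
      _ = _ := by
          rw [lintegral_tsum fun t => (measurable_ind (hmeas t)).aemeasurable]
          exact tsum_congr fun t => lintegral_ind μ (hmeas t)
  have hd : ∑' t, μ (St t) = nu μ L (fun x p => ind (Q x p 1)) := by
    have hmeas : ∀ t : ℕ, Measurable fun x => (t : ℝ≥0∞) < m x :=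
      fun t => measurableSet_setOfPred.1 (hSt t)
    calc _ = ∫⁻ x, ∑' t : ℕ, ind ((t : ℝ≥0∞) < m x) ∂μ := by
          rw [lintegral_tsum fun t => (measurable_ind (hmeas t)).aemeasurable]
          exact tsum_congr fun t => (lintegral_ind μ (hmeas t)).symm
      _ = _ := lintegral_congr fun x => by
          simp only [m, sumL_ind]
          exact (cd_layer _).symm
  have he : ∑' n : Fin c.ℓ, ∑' n' : Fin c.ℓ, (nu μ L fun x g => ind (A n x g 1 ∧ A n' x g 1)) ≤
      20 * q * nu μ L (fun x p => ind (Q x p 1)) := by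
    calc _ ≤ ∑' n : Fin c.ℓ, ∑' n' : Fin c.ℓ,
          ∑' t, μ ({x | (c.σ n 1)⁻¹ • x ∈ St t} ∩ {x | (c.σ n' 1)⁻¹ • x ∈ St t}) :=
          ENNReal.tsum_le_tsum fun n => ENNReal.tsum_le_tsum fun n' => hc n n'
      _ = ∑' t, ∑ n : Fin c.ℓ, ∑ n' : Fin c.ℓ,
          μ ({x | (c.σ n 1)⁻¹ • x ∈ St t} ∩ {x | (c.σ n' 1)⁻¹ • x ∈ St t}) := by
          simp only [← tsum_fintype (L := SummationFilter.unconditional _)]
          rw [ENNReal.tsum_comm (α := ℕ)]
          exact tsum_congr fun n => ENNReal.tsum_comm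
      _ ≤ ∑' t, 5 * c.ℓ * μ (St t) := by
          refine ENNReal.tsum_le_tsum fun t => hspec _ (hSt t) ((measure_mono ?_).trans hSα)
          intro x hx
          have : m x ≠ 0 := (zero_le.trans_lt hx).ne'
          simp only [m, sumL_ind] at this
          obtain ⟨p, -, h⟩ := cd_ne_zero this
          exact hQS x p h
      _ = _ := by
          rw [ENNReal.tsum_mul_left, hd, hq]
          push_cast
          ring
  calc _ = 40 * (q * nu μ L (fun x p => ind (Q x p 1))) := mul_assoc _ _ _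
    _ ≤ _ := (mul_le_mul_right ha _).trans (hb.trans (add_le_add le_rfl he))

lemma nu_false {L : X → Subgroup (FreeGroup Γ)} (V : X → FreeGroup Γ → Prop)
    (hV : ∀ x, ∀ l ∈ L x, ∀ g, V x (l * g) ↔ V x g) :
    nu μ L (fun x g => ind (Hull (L x) g (1, false) ∧ V x g)) =
      nu μ L fun x g => ind (Hull (L x) g (1, true) ∧ V x (g * of 1)) := by
  refine lintegral_congr fun x => ?_
  rw [← sumL_mul_right (fun l hl g => by simp only [hull_mul hl, hV x l hl]) (of 1)]
  simp [hull_false]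

lemma inj_two {Z : Type*} {s s' : Z} (h : s' ≠ s) : Function.Injective ![s, s'] := by
  intro j j' e
  fin_cases j <;> fin_cases j' <;> simp_all

lemma inj_three {Z : Type*} {s₁ s₂ s₃ : Z} (h1 : s₁ ≠ s₂) (h2 : s₁ ≠ s₃) (h3 : s₂ ≠ s₃) :
    Function.Injective ![s₁, s₂, s₃] := by
  intro j j' e
  fin_cases j <;> fin_cases j' <;> simp_all

include hμ in
lemma deg_key {L : X → Subgroup (FreeGroup Γ)} (hL : GSub L)
    (J : X → FreeGroup Γ → Γ × Bool → Prop)
    (hJ : Good Γ fun x (w : FreeGroup Γ × Γ × Bool) => J x w.1 w.2)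
    (hJi : ∀ x, ∀ l ∈ L x, ∀ g s, J x g s → J x (l * g) s)
    (hJu : ∀ᵐ x ∂μ, ∀ g s s', J x g s → J x g s' → s = s')
    (V : X → FreeGroup Γ → Prop) (hV : Good Γ V)
    (hVi : ∀ x, ∀ l ∈ L x, ∀ g, V x g → V x (l * g)) (d : ℕ)
    (hd : ∀ x g s, J x g s → V x g → ∃ f : Fin d → Γ × Bool, Function.Injective f ∧
      ∀ j, Hull (L x) g (f j)) :
    d * nu μ L (fun x g => cd fun b => J x g (1, b) ∧ V x g) ≤
      nu μ L fun x g => cd fun b => Hull (L x) g (1, b) ∧ V x g := by
  rw [← nu_const_mul _ (by simp)]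
  refine mtp_le hμ hL (T := Bool × Bool) (fun b x g a g' a' => J x g (a, b.1) ∧ V x g ∧
    g' = g ∧ Hull (L x) g (a', b.2)) ?_ ?_ ?_ ?_
  · intro b
    exact Good.and (hJ.comp (f := fun w : (FreeGroup Γ × Γ) × (FreeGroup Γ × Γ) =>
      (w.1.1, w.1.2, b.1)) (by eqv)) (Good.and (hV.comp (by eqv))
      (Good.and (Good.eq (by eqv) (by eqv)) (good_hull hL (by eqv) (by eqv))))
  · rintro b x l hl g a _ a' ⟨h1, h2, rfl, h3⟩
    exact ⟨hJi x l hl _ _ h1, hVi x l hl _ h2, rfl, h3.mul hl⟩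
  · filter_upwards [hJu] with x hx g
    have h1 : (cd fun b => J x g (1, b) ∧ V x g) ≤ 1 * ind (∃ b, J x g (1, b) ∧ V x g) :=
      le_mul_ind (cd_le_one fun b b' h h' => by simpa using hx g _ _ h.1 h'.1) cd_ne_zero
    rw [one_mul] at h1
    refine (mul_le_mul_right h1 _).trans (mul_ind_le ?_)
    rintro ⟨b, h2, h3⟩
    obtain ⟨f, hf, hf'⟩ := hd x g _ h2 h3
    refine le_cd (fun j => ((g, (f j).1), (b, (f j).2))) (fun j => ⟨h2, h3, rfl, hf' j⟩) ?_
    intro j j' e
    simp only [Prod.mk.injEq, true_and] at e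
    exact hf (Prod.ext e.1 e.2)
  · filter_upwards [hJu] with x hx g
    refine cd_le_of_inj (fun w => w.2.2) ?_ ?_
    · rintro ⟨⟨g', a⟩, b, b'⟩ ⟨-, h2, rfl, h3⟩
      exact ⟨h3, h2⟩
    · rintro ⟨⟨g₁, a₁⟩, b₁, b₁'⟩ ⟨⟨g₂, a₂⟩, b₂, b₂'⟩ ⟨h1, -, rfl, -⟩ ⟨h2, -, e, -⟩ rfl
      simp only at e h1 h2
      subst e
      obtain ⟨rfl, rfl⟩ := Prod.mk.inj (hx _ _ _ h1 h2)
      rfl

lemma nu_cd_split {L : X → Subgroup (FreeGroup Γ)} (hL : GSub L)
    (Y : X → FreeGroup Γ → Bool → Prop) (hY : ∀ g b, Measurable fun x => Y x g b)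
    (V : X → FreeGroup Γ → Prop) (hV : ∀ g, Measurable fun x => V x g) :
    nu μ L (fun x g => cd fun b => Y x g b) =
      nu μ L (fun x g => cd fun b => Y x g b ∧ V x g) +
      nu μ L (fun x g => cd fun b => Y x g b ∧ ¬ V x g) := by
  unfold cd
  rw [← nu_add hL fun g => Measurable.tsum fun b => measurable_ind ((hY g b).and (hV g))]
  congr 1; funext x g
  simp only [← ENNReal.tsum_add]
  exact tsum_congr fun b => ind_split _ _

lemma meas_hull {L : X → Subgroup (FreeGroup Γ)} (hL : GSub L) (g : FreeGroup Γ) (s : Γ × Bool) :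
    Measurable fun x => Hull (L x) g s :=
  (good_hull hL (Z := FreeGroup Γ × Γ × Bool) (g := Prod.fst) (s := Prod.snd)
    (by eqv) (by eqv)).meas (g, s)

lemma nu_ends {L : X → Subgroup (FreeGroup Γ)} (hL : GSub L) :
    nu μ L (fun x g => cd fun b => Hull (L x) g (1, b)) = 2 * EE μ L := by
  simp only [cd, tsum_fintype, Fintype.sum_bool]
  rw [nu_add hL fun g => measurable_ind (meas_hull hL g _), two_mul]
  congr 1
  simpa [EE] using nu_false (μ := μ) (L := L) (fun _ _ => True) (by simp)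

include hμ in
lemma deg_le {L : X → Subgroup (FreeGroup Γ)} (hL : GSub L)
    (J : X → FreeGroup Γ → Γ × Bool → Prop)
    (hJ : Good Γ fun x (w : FreeGroup Γ × Γ × Bool) => J x w.1 w.2)
    (hJi : ∀ x, ∀ l ∈ L x, ∀ g s, J x g s → J x (l * g) s)
    (hJh : ∀ x g s, J x g s → g ∉ L x ∧ Hull (L x) g s)
    (hJu : ∀ᵐ x ∂μ, ∀ g s s', J x g s → J x g s' → s = s') :
    6 * nu μ L (fun x g => cd fun b => J x g (1, b)) + NN μ L ≤ 6 * EE μ L := by
  have hlt : Good Γ fun x g => Light (L x) g := good_light hL (g := id) (by eqv)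
  have k1 := deg_key hμ hL J hJ hJi hJu (fun x g => Light (L x) g) hlt
    (fun x l hl g h => (light_mul hl).2 h) 2 (by
    intro x g s h _
    obtain ⟨h1, h2⟩ := hJh x g s h
    obtain ⟨s', hne, h3⟩ := h2.other h1
    exact ⟨![s, s'], inj_two hne, fun j => by fin_cases j <;> assumption⟩)
  have k2 := deg_key hμ hL J hJ hJi hJu (fun x g => ¬ Light (L x) g) hlt.not
    (fun x l hl g h => by rwa [light_mul hl]) 3 (by
    intro x g s h hn
    obtain ⟨h1, -⟩ := hJh x g s h
    simp only [Light, h1, not_false_eq_true, true_and, not_forall, not_or] at hn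
    obtain ⟨s₁, s₂, s₃, a1, a2, a3, n1, n2, n3⟩ := hn
    exact ⟨![s₁, s₂, s₃], inj_three n1 n2 n3, fun j => by fin_cases j <;> assumption⟩)
  have e1 := nu_cd_split (μ := μ) hL (fun x g b => J x g (1, b)) (fun g b => hJ.meas (g, 1, b))
    _ hlt.meas
  have e2 := nu_cd_split (μ := μ) hL (fun x g b => Hull (L x) g (1, b))
    (fun g b => meas_hull hL g _) _ hlt.meas
  have e3 := nu_ends (μ := μ) hL
  have e4 : NN μ L ≤ nu μ L (fun x g => cd fun b => Hull (L x) g (1, b) ∧ ¬ Light (L x) g) := by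
    rw [NN, ← nu_false (fun x g => ¬ Light (L x) g) fun x l hl g => by rw [light_mul hl]]
    exact nu_mono fun x g => ENNReal.le_tsum (f := fun b =>
      ind (Hull (L x) g (1, b) ∧ ¬ Light (L x) g)) false
  rw [e2] at e3
  rw [e1]
  push_cast at k1 k2
  generalize (nu μ L fun x g => cd fun b => J x g (1, b) ∧ Light (L x) g) = a at *
  generalize (nu μ L fun x g => cd fun b => J x g (1, b) ∧ ¬ Light (L x) g) = b at *
  generalize (nu μ L fun x g => cd fun b => Hull (L x) g (1, b) ∧ Light (L x) g) = a' at *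
  generalize (nu μ L fun x g => cd fun b => Hull (L x) g (1, b) ∧ ¬ Light (L x) g) = b' at *
  calc _ = 3 * (2 * a) + 2 * (3 * b) + NN μ L := by ring
    _ ≤ 3 * a' + 2 * b' + b' := by gcongr
    _ = 3 * (a' + b') := by ring
    _ = _ := by rw [e3]; ring

/-- The edge `(g, a)` lies on the geodesic from `1` to `h`. -/
def Geo {A : Type*} [DecidableEq A] (h g : FreeGroup A) (a : A) : Prop :=
  ¬ (Sep g (a, true) h ↔ Sep g (a, true) 1)

lemma cd_geo {A : Type*} [DecidableEq A] (h : FreeGroup A) :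
    (cd fun w : FreeGroup A × A => Geo h w.1 w.2) ≤ norm h := by
  have key : ∀ l : List (A × Bool), (cd fun w : FreeGroup A × A => Geo (mk l) w.1 w.2) ≤ l.length := by
    intro l
    induction l using List.reverseRecOn with
    | nil => simp [cd, Geo, ← one_eq_mk, ind]
    | append_singleton l t ih =>
      rw [mk_concat]
      calc _ ≤ (cd fun w : FreeGroup A × A => Geo (mk l) w.1 w.2) + cd fun w : FreeGroup A × A =>
            (mk l = w.1 * el (w.2, true) ∧ t = inv' (w.2, true)) ∨ (mk l = w.1 ∧ t = (w.2, true)) := by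
            simp only [cd, ← ENNReal.tsum_add]
            refine ENNReal.tsum_le_tsum fun w => (ind_mono fun h => ?_).trans ind_or_le
            by_cases h1 : Sep w.1 (w.2, true) (mk l) <;>
              by_cases h2 : Sep w.1 (w.2, true) (mk l * el t)
            · left; unfold Geo at h ⊢; tauto
            · exact .inr (.inl (Sep_cross h1 h2))
            · exact .inr (.inr (Sep_cross' h1 h2))
            · left; unfold Geo at h ⊢; tauto
        _ ≤ l.length + 1 := by
            refine add_le_add ih (cd_le_one ?_)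
            rintro ⟨g, a⟩ ⟨g', a'⟩ (⟨h1, rfl⟩ | ⟨h1, rfl⟩) (⟨h2, h3⟩ | ⟨h2, h3⟩)
            · obtain rfl : a = a' := by simpa using h3
              exact Prod.ext (mul_right_cancel (h1.symm.trans h2)) rfl
            · simp at h3
            · simp at h3
            · obtain rfl : a = a' := by simpa using h3
              exact Prod.ext (h1.symm.trans h2) rfl
        _ = _ := by simp
  have := key h.toWord
  rwa [mk_toWord] at this

/-- The elements of a family, seen from `x`. -/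
def fam (w : ℕ → X → FreeGroup Γ) (x : X) : Set (FreeGroup Γ) :=
  {g | ∃ (γ : Γ) (i : ℕ), g = rho γ (w i (γ • x))}

include hμ in
lemma good_w {w : X → FreeGroup Γ} (hw : ∀ g, MeasurableSet {x | w x = g}) :
    Good Γ fun x (z : Γ × FreeGroup Γ) => z.2 = rho z.1 (w (z.1 • x)) := by
  constructor
  · rintro ⟨γ, g⟩
    have : ∀ x, g = rho γ (w (γ • x)) ↔ γ • x ∈ {x | w x = rho γ⁻¹ g} := by
      intro x
      constructor
      · rintro rfl; simp
      · intro h; rw [show w (γ • x) = _ from h]; simp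
    simp only [this]
    exact measurableSet_setOfPred.1 ((hμ γ).measurable (hw _))
  · rintro δ x ⟨γ, g⟩
    simp only [act_prod, act_grp, act_free, mul_smul]
    rw [← rho_rho, (rho_injective δ).eq_iff]

include hμ in
lemma good_fam {w : ℕ → X → FreeGroup Γ} (hw : ∀ i g, MeasurableSet {x | w i x = g}) :
    Good Γ fun x (g : FreeGroup Γ) => g ∈ fam w x :=
  Good.ex (Good.ex' fun i => (good_w hμ (hw i)).comp
    (f := fun z : FreeGroup Γ × Γ => (z.2, z.1)) (by eqv))

include hμ in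
lemma EE_closure_le {w : ℕ → X → FreeGroup Γ} (hw : ∀ i g, MeasurableSet {x | w i x = g}) :
    EE μ (fun x => Subgroup.closure (fam w x)) ≤ ∑' i, ∫⁻ x, (norm (w i x) : ℝ≥0∞) ∂μ := by
  have h1 : EE μ (fun x => Subgroup.closure (fam w x)) ≤
      nu μ (fun x => Subgroup.closure (fam w x)) fun x g =>
        ind (∃ l ∈ Subgroup.closure (fam w x), ∃ h ∈ fam w x, Geo h (l * g) 1) := by
    refine nu_mono fun x g => ind_mono fun hh => ?_
    let Y : FreeGroup Γ → Γ → Prop := fun g a =>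
      ∃ l ∈ Subgroup.closure (fam w x), ∃ h ∈ fam w x, Geo h (l * g) a
    refine hull_subset (symE_symm Y) (reach_of_closure (symE_symm Y) ?_ ?_) hh
    · intro l hl
      apply symE_mul
      rintro g a ⟨l', hl', h⟩
      exact ⟨l' * l⁻¹, mul_mem hl' (inv_mem hl), by simpa [mul_assoc] using h⟩
    · intro h hh
      refine reach_of_sep ?_
      rintro g ⟨a, _ | _⟩ s1 s2
      · refine ⟨1, one_mem _, h, hh, ?_⟩
        have e := Sep_rev g (a, false)
        simp only [el_false, inv'_false] at e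
        unfold Geo
        rw [one_mul, e, e]; tauto
      · refine ⟨1, one_mem _, h, hh, ?_⟩
        unfold Geo
        rw [one_mul]; tauto
  have h2 := nu_sat_le (μ := μ) (L := fun _ => ⊥) (L' := fun x => Subgroup.closure (fam w x))
    (fun _ => bot_le) (Y := fun x g => ∃ h ∈ fam w x, Geo h g 1) fun x l hl g => by
      rw [Subgroup.mem_bot.1 hl, one_mul]
  have hbot : GSub fun _ : X => (⊥ : Subgroup (FreeGroup Γ)) :=
    Good.pure fun δ g => by
      simp only [Subgroup.mem_bot, act_free]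
      rw [← (rho_injective δ).eq_iff, _root_.map_one]
  have h3 : (nu μ (fun _ => ⊥) fun x g => ind (∃ h ∈ fam w x, Geo h g 1)) ≤
      nu μ (fun _ => (⊥ : Subgroup (FreeGroup Γ))) fun x g =>
        (∑' i, (norm (w i x) : ℝ≥0∞)) * ind (g = 1) := by
    refine mtp_le hμ hbot (T := ℕ) (fun i x g a g' a' => g' = 1 ∧
      ∃ h, h = rho a' (w i (a' • x)) ∧ Geo h g a) ?_ ?_ ?_ ?_
    · intro i
      refine Good.and (Good.eq (by eqv) (by eqv)) (Good.ex (Good.and ((good_w hμ (hw i)).comp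
        (f := fun z : ((FreeGroup Γ × Γ) × (FreeGroup Γ × Γ)) × FreeGroup Γ => (z.1.2.2, z.2))
        (by eqv)) (Good.pure fun δ z => ?_)))
      have e := fun h => sep_rho δ z.1.1.1 h (z.1.1.2, true)
      simp only [Geo, act_prod, act_free, act_grp]
      have e1 := e 1
      rw [_root_.map_one] at e1
      rw [e, e1]
    · intro i x l hl g a g' a' h
      simpa [Subgroup.mem_bot.1 hl] using h
    · refine .of_forall fun x g => ind_le ?_
      rintro ⟨_, ⟨γ, i, rfl⟩, h⟩
      exact one_le_cd (i := ((1, γ), i)) ⟨rfl, _, rfl, h⟩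
    · refine .of_forall fun x g => le_mul_ind ?_ fun h => ?_
      · rw [cd_prod]
        unfold cd
        rw [ENNReal.tsum_comm]
        refine ENNReal.tsum_le_tsum fun i => le_trans ?_ (cd_geo (w i x))
        refine ENNReal.tsum_le_tsum fun z => ind_mono ?_
        rintro ⟨-, _, rfl, h⟩
        simpa using h
      · obtain ⟨_, h, -⟩ := cd_ne_zero h
        exact h
  refine h1.trans (h2.trans (h3.trans (le_of_eq ?_)))
  have hm : ∀ i, Measurable fun x => (norm (w i x) : ℝ≥0∞) := by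
    intro i
    let _ : MeasurableSpace (FreeGroup Γ) := ⊤
    have : Measurable (w i) := measurable_to_countable' (hw i)
    exact (measurable_from_top (f := fun g : FreeGroup Γ => (norm g : ℝ≥0∞))).comp this
  rw [← lintegral_tsum fun i => (hm i).aemeasurable]
  refine lintegral_congr fun x => ?_
  rw [sumL_bot, ENNReal.tsum_mul_left, tsum_eq_single 1 fun g hg => ind_of_not hg, ind_of rfl,
    mul_one]

end Crest.Agent.R191
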