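import Crest.Agent.R191.RankK

/-!
Row 191: fields of operators, their trace, and positivity of the trace of idempotents.
-/

set_option autoImplicit false
set_option linter.unusedSectionVars false

namespace Crest.Agent.R191.Rk

open MeasureTheory Finsupp

variable {Γ K X : Type*} [Group Γ] [MulAction Γ X]

/-- Finitely supported vectors. -/
abbrev W (Γ K : Type*) := (Γ × K) →₀ ℝ

/-- Fields of operators. -/
abbrev Fld (Γ K X : Type*) := X → Module.End ℝ (W Γ K)

/-- Change of viewpoint. -/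
noncomputable def sh (β : Γ) : W Γ K →ₗ[ℝ] W Γ K :=
  Finsupp.lmapDomain ℝ ℝ (fun q : Γ × K => (q.1 * β, q.2))

theorem sh_single (β : Γ) (q : Γ × K) (c : ℝ) :
    sh β (single q c) = single (q.1 * β, q.2) c := by
  simp [sh]

theorem sh_sh (β γ : Γ) (w : W Γ K) : sh β (sh γ w) = sh (γ * β) w := by
  have : (sh β).comp (sh γ) = (sh (γ * β) : W Γ K →ₗ[ℝ] W Γ K) := by
    ext1 p; ext1; simp [sh_single, mul_assoc]
  exact LinearMap.congr_fun this w

theorem sh_one (w : W Γ K) : sh 1 w = w := by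
  have : (sh 1 : W Γ K →ₗ[ℝ] W Γ K) = LinearMap.id := by
    ext1 p; ext1; simp [sh_single]
  exact LinearMap.congr_fun this w

/-- The equivariant field with given columns. -/
noncomputable def fld (F : K → X → W Γ K) : Fld Γ K X := fun x =>
  Finsupp.linearCombination ℝ (fun p : Γ × K => sh p.1 (F p.2 (p.1 • x)))

theorem fld_single (F : K → X → W Γ K) (x : X) (p : Γ × K) (c : ℝ) :
    fld F x (single p c) = c • sh p.1 (F p.2 (p.1 • x)) := by
  simp [fld]

theorem fld_ext {a b : Fld Γ K X} (h : ∀ x p, a x (single p 1) = b x (single p 1)) : a = b := by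
  funext x
  ext1 p; ext1
  exact h x p

theorem fld_sh (F : K → X → W Γ K) (x : X) (β : Γ) (w : W Γ K) :
    fld F x (sh β w) = sh β (fld F (β • x) w) := by
  have : (fld F x).comp (sh β) = (sh β).comp (fld F (β • x)) := by
    ext1 p; ext1
    simp [sh_single, fld_single, sh_sh, mul_smul]
  exact LinearMap.congr_fun this w

theorem fld_mul (F G : K → X → W Γ K) :
    fld F * fld G = fld (fun k y => fld F y (G k y)) := by
  apply fld_ext
  intro x p
  simp [fld_single, fld_sh]

open Classical in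
/-- Elementary fields. -/
noncomputable def elem (γ : Γ) (k k' : K) (A : Set X) : Fld Γ K X :=
  fld (fun l y => if l = k ∧ y ∈ A then single (γ, k') 1 else 0)

open Classical in
theorem elem_single (γ : Γ) (k k' : K) (A : Set X) (x : X) (p : Γ × K) :
    elem γ k k' A x (single p 1) =
      if p.2 = k ∧ p.1 • x ∈ A then single (γ * p.1, k') 1 else 0 := by
  unfold elem
  rw [fld_single, one_smul]
  split_ifs
  · rw [sh_single]
  · rw [map_zero]

open Classical in
theorem elem_mul (γ γ' : Γ) (k k' l l' : K) (A A' : Set X) :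
    elem γ' l l' A' * elem γ k k' A =
      if k' = l then elem (γ' * γ) k l' (A ∩ (fun y => γ • y) ⁻¹' A') else 0 := by
  apply fld_ext
  intro x p
  rw [Pi.mul_apply, Module.End.mul_apply, elem_single]
  by_cases h1 : k' = l
  · rw [if_pos h1, elem_single]
    by_cases h2 : p.2 = k ∧ p.1 • x ∈ A
    · rw [if_pos h2, elem_single]
      simp [h1, h2, mul_smul, mul_assoc]
    · rw [if_neg h2, map_zero, if_neg]
      rintro ⟨h3, h4, -⟩
      exact h2 ⟨h3, h4⟩
  · rw [if_neg h1]
    split_ifs with h2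
    · rw [elem_single, if_neg (fun h => h1 h.1)]; rfl
    · rw [map_zero]; rfl

/-- The scalar product of finitely supported vectors. -/
noncomputable def ip : W Γ K →ₗ[ℝ] W Γ K →ₗ[ℝ] ℝ :=
  Finsupp.linearCombination ℝ (fun p : Γ × K => (Finsupp.lapply p : W Γ K →ₗ[ℝ] ℝ))

theorem ip_single (p : Γ × K) (c : ℝ) (v : W Γ K) : ip (single p c) v = c * v p := by
  simp [ip]

theorem ip_apply (u v : W Γ K) : ip u v = ∑ p ∈ u.support, u p * v p := by
  simp [ip, Finsupp.linearCombination_apply, Finsupp.sum]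

theorem ip_symm (u v : W Γ K) : ip u v = ip v u := by
  classical
  have : (ip : W Γ K →ₗ[ℝ] W Γ K →ₗ[ℝ] ℝ) = ip.flip := by
    ext p q
    simp [ip_single, Finsupp.single_apply, eq_comm]
  exact LinearMap.congr_fun₂ this u v

theorem ip_nonneg (u : W Γ K) : 0 ≤ ip u u := by
  rw [ip_apply]
  exact Finset.sum_nonneg fun p _ => mul_self_nonneg _

theorem ip_elem (γ : Γ) (k k' : K) (A : Set X) (x : X) (u v : W Γ K) :
    ip (elem γ k k' A x u) v = ip u (elem γ⁻¹ k' k ((fun y => γ⁻¹ • y) ⁻¹' A) x v) := by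
  classical
  have : (ip : W Γ K →ₗ[ℝ] W Γ K →ₗ[ℝ] ℝ).comp (elem γ k k' A x) =
      ip.compl₂ (elem γ⁻¹ k' k ((fun y => γ⁻¹ • y) ⁻¹' A) x) := by
    ext p q
    obtain ⟨β, l⟩ := p
    obtain ⟨δ, m⟩ := q
    simp only [LinearMap.comp_apply, Finsupp.lsingle_apply, LinearMap.compl₂_apply, elem_single,
      ip_single, one_mul, Set.mem_preimage]
    by_cases h : δ = γ * β ∧ m = k' ∧ l = k ∧ β • x ∈ A
    · obtain ⟨rfl, rfl, rfl, h⟩ := h
      simp [ip_single, h, mul_smul]
    · split_ifs with h1 h2 h2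
      · rw [ip_single, one_mul, Finsupp.single_apply, Finsupp.single_apply, if_neg, if_neg]
        · intro h3
          simp only [Prod.mk.injEq] at h3
          exact h ⟨by rw [← h3.1]; group, h2.1, h1.1, h1.2⟩
        · intro h3
          simp only [Prod.mk.injEq] at h3
          exact h ⟨h3.1, h2.1, h1.1, h1.2⟩
      · rw [ip_single, one_mul, Finsupp.single_apply, if_neg]
        · rfl
        · intro h3
          simp only [Prod.mk.injEq] at h3
          exact h ⟨h3.1, h3.2, h1.1, h1.2⟩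
      · rw [map_zero, Finsupp.single_apply, if_neg]
        · rfl
        · intro h3
          simp only [Prod.mk.injEq] at h3
          refine h1 ⟨h3.2.symm, ?_⟩
          rw [← h3.1, mul_smul]; exact h2.2
      · simp
  exact LinearMap.congr_fun₂ this u v

open Classical in
theorem elem_one_apply (k : K) (A : Set X) (x : X) (u : W Γ K) (p : Γ × K) :
    elem (1 : Γ) k k A x u p = if p.2 = k ∧ p.1 • x ∈ A then u p else 0 := by
  induction u using Finsupp.induction_linear with
  | zero => simp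
  | add f g hf hg =>
    rw [map_add, Finsupp.add_apply, hf, hg, Finsupp.add_apply]
    split_ifs <;> simp
  | single q c =>
    rw [← Finsupp.smul_single_one, map_smul, elem_single]
    by_cases h : q = p
    · subst h
      split_ifs with h1
      · rw [one_mul, ← h1.1]
      · simp
    · split_ifs with h1 h2 h2
      · rw [one_mul, ← h1.1]
      · rw [one_mul, ← h1.1]; simp [h]
      · simp [h]
      · simp

theorem ip_elem_le (γ : Γ) (k k' : K) (A : Set X) (x : X) (u : W Γ K) :
    ip (elem γ k k' A x u) (elem γ k k' A x u) ≤ ip u u := by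
  classical
  rw [ip_elem, ← Module.End.mul_apply, ← Pi.mul_apply, elem_mul, if_pos rfl, inv_mul_cancel,
    ip_apply, ip_apply]
  refine Finset.sum_le_sum fun p _ => ?_
  rw [elem_one_apply]
  split_ifs
  · exact le_rfl
  · rw [mul_zero]; exact mul_self_nonneg _

variable [MeasurableSpace X]

/-- The elementary fields over a finite index set. -/
def Gen (Γ : Type*) [Group Γ] [MulAction Γ X] (K₀ : Finset K) : Set (Fld Γ K X) :=
  {a | ∃ (γ : Γ) (k k' : K) (A : Set X), k ∈ K₀ ∧ k' ∈ K₀ ∧ MeasurableSet A ∧ a = elem γ k k' A}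

/-- The span of the elementary fields. -/
noncomputable def Alg (Γ X : Type*) [Group Γ] [MulAction Γ X] [MeasurableSpace X] (K₀ : Finset K) :
    Submodule ℝ (Fld Γ K X) := Submodule.span ℝ (Gen Γ K₀)

variable {K₀ : Finset K}

theorem elem_mem (γ : Γ) {k k' : K} {A : Set X} (hk : k ∈ K₀) (hk' : k' ∈ K₀)
    (hA : MeasurableSet A) : elem γ k k' A ∈ Alg Γ X K₀ :=
  Submodule.subset_span ⟨γ, k, k', A, hk, hk', hA, rfl⟩

theorem mul_mem (hm : ∀ γ : Γ, Measurable fun x : X => γ • x) {a b : Fld Γ K X}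
    (ha : a ∈ Alg Γ X K₀) (hb : b ∈ Alg Γ X K₀) : a * b ∈ Alg Γ X K₀ := by
  classical
  refine Submodule.span_induction₂ (p := fun a b _ _ => a * b ∈ Alg Γ X K₀) ?_ ?_ ?_ ?_ ?_ ?_ ?_
    ha hb
  · rintro _ _ ⟨γ', l, l', A', hl, hl', hA', rfl⟩ ⟨γ, k, k', A, hk, hk', hA, rfl⟩
    rw [elem_mul]
    split_ifs
    · exact elem_mem _ hk hl' (hA.inter (hm γ hA'))
    · exact zero_mem _
  · intro y _; rw [zero_mul]; exact zero_mem _
  · intro y _; rw [mul_zero]; exact zero_mem _
  · intro x y z _ _ _ h1 h2; rw [add_mul]; exact add_mem h1 h2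
  · intro x y z _ _ _ h1 h2; rw [mul_add]; exact add_mem h1 h2
  · intro r x y _ _ h; rw [smul_mul_assoc]; exact Submodule.smul_mem _ _ h
  · intro r x y _ _ h; rw [mul_smul_comm]; exact Submodule.smul_mem _ _ h

theorem exists_adj (hm : ∀ γ : Γ, Measurable fun x : X => γ • x) {a : Fld Γ K X}
    (ha : a ∈ Alg Γ X K₀) :
    ∃ a' ∈ Alg Γ X K₀, ∀ x u v, ip (a x u) v = ip u (a' x v) := by
  induction ha using Submodule.span_induction with
  | mem a ha =>
    obtain ⟨γ, k, k', A, hk, hk', hA, rfl⟩ := ha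
    exact ⟨_, elem_mem _ hk' hk (hm γ⁻¹ hA), ip_elem γ k k' A⟩
  | zero => exact ⟨0, zero_mem _, fun x u v => by simp⟩
  | add a b _ _ ha hb =>
    obtain ⟨a', ha', h1⟩ := ha
    obtain ⟨b', hb', h2⟩ := hb
    exact ⟨a' + b', add_mem ha' hb', fun x u v => by simp [h1, h2]⟩
  | smul c a _ ha =>
    obtain ⟨a', ha', h1⟩ := ha
    exact ⟨c • a', Submodule.smul_mem _ _ ha', fun x u v => by simp [h1]⟩

theorem exists_bound {a : Fld Γ K X} (ha : a ∈ Alg Γ X K₀) :
    ∃ C : ℝ, ∀ x u, ip (a x u) (a x u) ≤ C * ip u u := by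
  induction ha using Submodule.span_induction with
  | mem a ha =>
    obtain ⟨γ, k, k', A, hk, hk', hA, rfl⟩ := ha
    exact ⟨1, fun x u => by rw [one_mul]; exact ip_elem_le γ k k' A x u⟩
  | zero => exact ⟨0, fun x u => by simp⟩
  | add a b _ _ ha hb =>
    obtain ⟨C, h1⟩ := ha
    obtain ⟨C', h2⟩ := hb
    refine ⟨2 * C + 2 * C', fun x u => ?_⟩
    have h3 := ip_nonneg (a x u - b x u)
    have h4 := h1 x u
    have h5 := h2 x u
    simp only [Pi.add_apply, LinearMap.add_apply, map_add, map_sub, LinearMap.sub_apply] at h3 ⊢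
    linarith
  | smul c a _ ha =>
    obtain ⟨C, h1⟩ := ha
    refine ⟨c ^ 2 * C, fun x u => ?_⟩
    have := mul_le_mul_of_nonneg_left (h1 x u) (sq_nonneg c)
    simp only [Pi.smul_apply, LinearMap.smul_apply, map_smul, smul_eq_mul]
    linarith

variable {μ : Measure X} [IsFiniteMeasure μ]

theorem integrable_coef (hm : ∀ γ : Γ, Measurable fun x : X => γ • x) {a : Fld Γ K X}
    (ha : a ∈ Alg Γ X K₀) (p q : Γ × K) : Integrable (fun x => a x (single p 1) q) μ := by
  classical
  induction ha using Submodule.span_induction with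
  | mem a ha =>
    obtain ⟨γ, k, k', A, hk, hk', hA, rfl⟩ := ha
    have : (fun x => elem γ k k' A x (single p 1) q) =
        ((fun y => p.1 • y) ⁻¹' A).indicator
          (fun _ => if p.2 = k then (single (γ * p.1, k') (1 : ℝ) : W Γ K) q else 0) := by
      funext x
      rw [elem_single, Set.indicator_apply]
      by_cases h1 : p.2 = k <;> by_cases h2 : p.1 • x ∈ A <;> simp [h1, h2]
    rw [this]
    exact (integrable_const _).indicator (hm _ hA)
  | zero => simp
  | add a b _ _ ha hb => exact ha.add hb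
  | smul c a _ ha => exact ha.const_mul c

theorem integrable_ip (hm : ∀ γ : Γ, Measurable fun x : X => γ • x) {a b : Fld Γ K X}
    (ha : a ∈ Alg Γ X K₀) (hb : b ∈ Alg Γ X K₀) (p q : Γ × K) :
    Integrable (fun x => ip (a x (single p 1)) (b x (single q 1))) μ := by
  obtain ⟨a', ha', h⟩ := exists_adj hm ha
  simp only [h, ip_single, one_mul]
  exact integrable_coef hm (mul_mem hm ha' hb) q p

/-- The trace. -/
noncomputable def tr (μ : Measure X) (K₀ : Finset K) (a : Fld Γ K X) : ℝ :=
  ∑ k ∈ K₀, ∫ x, a x (single (1, k) 1) (1, k) ∂μ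

theorem tr_zero : tr μ K₀ (0 : Fld Γ K X) = 0 := by simp [tr]

theorem tr_add (hm : ∀ γ : Γ, Measurable fun x : X => γ • x) {a b : Fld Γ K X}
    (ha : a ∈ Alg Γ X K₀) (hb : b ∈ Alg Γ X K₀) : tr μ K₀ (a + b) = tr μ K₀ a + tr μ K₀ b := by
  unfold tr
  rw [← Finset.sum_add_distrib]
  refine Finset.sum_congr rfl fun k _ => ?_
  rw [← integral_add (integrable_coef hm ha _ _) (integrable_coef hm hb _ _)]
  rfl

theorem tr_smul (c : ℝ) (a : Fld Γ K X) : tr μ K₀ (c • a) = c * tr μ K₀ a := by
  unfold tr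
  rw [Finset.mul_sum]
  refine Finset.sum_congr rfl fun k _ => ?_
  rw [← integral_const_mul]
  rfl

open Classical in
theorem tr_elem (γ : Γ) {k : K} (k' : K) {A : Set X} (hk : k ∈ K₀) (hA : MeasurableSet A) :
    tr μ K₀ (elem γ k k' A) = if γ = 1 ∧ k = k' then μ.real A else 0 := by
  unfold tr
  rw [Finset.sum_eq_single k]
  · have : (fun x => elem γ k k' A x (single (1, k) 1) (1, k)) =
        A.indicator (fun _ => if γ = 1 ∧ k = k' then (1 : ℝ) else 0) := by
      funext x
      rw [elem_single, Set.indicator_apply]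
      by_cases h2 : x ∈ A
      · simp [h2, Finsupp.single_apply, eq_comm]
      · simp [h2]
    rw [this, integral_indicator_const _ hA]
    split_ifs <;> simp
  · intro l _ hl
    simp [elem_single, hl]
  · intro h; exact absurd hk h

theorem tr_comm (hμ : ∀ γ : Γ, MeasurePreserving (fun x : X => γ • x) μ μ) {a b : Fld Γ K X}
    (ha : a ∈ Alg Γ X K₀) (hb : b ∈ Alg Γ X K₀) : tr μ K₀ (a * b) = tr μ K₀ (b * a) := by
  classical
  have hm : ∀ γ : Γ, Measurable fun x : X => γ • x := fun γ => (hμ γ).measurable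
  refine Submodule.span_induction₂ (p := fun a b _ _ => tr μ K₀ (a * b) = tr μ K₀ (b * a))
    ?_ ?_ ?_ ?_ ?_ ?_ ?_ ha hb
  · rintro _ _ ⟨γ', l, l', A', hl, hl', hA', rfl⟩ ⟨γ, k, k', A, hk, hk', hA, rfl⟩
    rw [elem_mul, elem_mul]
    by_cases h : k' = l ∧ l' = k ∧ γ' * γ = 1
    · obtain ⟨rfl, rfl, h⟩ := h
      have h' : γ * γ' = 1 := mul_eq_one_comm.1 h
      rw [if_pos rfl, if_pos rfl, tr_elem _ _ hk (hA.inter (hm γ hA')),
        tr_elem _ _ hl (hA'.inter (hm γ' hA)), if_pos ⟨h, rfl⟩, if_pos ⟨h', rfl⟩,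
        ← (hμ γ).measureReal_preimage (hA'.inter (hm γ' hA)).nullMeasurableSet]
      congr 1
      ext y
      simp only [Set.mem_inter_iff, Set.mem_preimage, ← mul_smul, h, one_smul]
      exact and_comm
    · have e1 : tr μ K₀ (if k' = l then elem (γ' * γ) k l' (A ∩ (fun y => γ • y) ⁻¹' A') else 0)
          = 0 := by
        split_ifs with h1
        · rw [tr_elem _ _ hk (hA.inter (hm γ hA')), if_neg]
          rintro ⟨h2, h3⟩
          exact h ⟨h1, h3.symm, h2⟩
        · exact tr_zero
      have e2 : tr μ K₀ (if l' = k then elem (γ * γ') l k' (A' ∩ (fun y => γ' • y) ⁻¹' A) else 0)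
          = 0 := by
        split_ifs with h1
        · rw [tr_elem _ _ hl (hA'.inter (hm γ' hA)), if_neg]
          rintro ⟨h2, h3⟩
          exact h ⟨h3.symm, h1, mul_eq_one_comm.1 h2⟩
        · exact tr_zero
      rw [e1, e2]
  · intro y _; rw [zero_mul, mul_zero]
  · intro y _; rw [zero_mul, mul_zero]
  · intro x y z hx hy hz h1 h2
    rw [add_mul, mul_add, tr_add hm (mul_mem hm hx hz) (mul_mem hm hy hz),
      tr_add hm (mul_mem hm hz hx) (mul_mem hm hz hy), h1, h2]
  · intro x y z hx hy hz h1 h2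
    rw [add_mul, mul_add, tr_add hm (mul_mem hm hx hy) (mul_mem hm hx hz),
      tr_add hm (mul_mem hm hy hx) (mul_mem hm hz hx), h1, h2]
  · intro r x y _ _ h; rw [smul_mul_assoc, mul_smul_comm, tr_smul, tr_smul, h]
  · intro r x y _ _ h; rw [smul_mul_assoc, mul_smul_comm, tr_smul, tr_smul, h]

/-- The unit over a finite index set. -/
noncomputable def unitF (Γ X : Type*) [Group Γ] [MulAction Γ X] (K₀ : Finset K) : Fld Γ K X :=
  ∑ k ∈ K₀, elem (1 : Γ) k k Set.univ

theorem unitF_mem : unitF Γ X K₀ ∈ Alg Γ X K₀ :=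
  Submodule.sum_mem _ fun _ hk => elem_mem _ hk hk MeasurableSet.univ

theorem unitF_single (x : X) (p : Γ × K) (hp : p.2 ∈ K₀) :
    unitF Γ X K₀ x (single p 1) = single p 1 := by
  classical
  unfold unitF
  rw [Finset.sum_apply, LinearMap.sum_apply, Finset.sum_eq_single p.2]
  · simp [elem_single]
  · intro l _ hl
    simp [elem_single, hl.symm]
  · intro h; exact absurd hp h

theorem mul_unitF {a : Fld Γ K X} (ha : a ∈ Alg Γ X K₀) : a * unitF Γ X K₀ = a := by
  classical
  induction ha using Submodule.span_induction with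
  | mem a ha =>
    obtain ⟨γ, k, k', A, hk, hk', hA, rfl⟩ := ha
    unfold unitF
    rw [Finset.mul_sum, Finset.sum_eq_single k]
    · rw [elem_mul]; simp
    · intro l _ hl
      rw [elem_mul, if_neg hl]
    · intro h; exact absurd hk h
  | zero => simp
  | add a b _ _ ha hb => rw [add_mul, ha, hb]
  | smul c a _ ha => rw [smul_mul_assoc, ha]

theorem tr_nonneg (hμ : ∀ γ : Γ, MeasurePreserving (fun x : X => γ • x) μ μ) {e : Fld Γ K X}
    (he : e ∈ Alg Γ X K₀) (hee : e * e = e) : 0 ≤ tr μ K₀ e := by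
  have hm : ∀ γ : Γ, Measurable fun x : X => γ • x := fun γ => (hμ γ).measurable
  let B : Fld Γ K X → Fld Γ K X → ℝ := fun a b =>
    ∑ k ∈ K₀, ∫ x, ip (a x (single (1, k) 1)) (b x (single (1, k) 1)) ∂μ
  have hB : ∀ a b, B a b =
      ∑ k ∈ K₀, ∫ x, ip (a x (single (1, k) 1)) (b x (single (1, k) 1)) ∂μ := fun _ _ => rfl
  have hBu : ∀ a, B a (unitF Γ X K₀) = tr μ K₀ a := fun a => by
    rw [hB]
    refine Finset.sum_congr rfl fun k hk => ?_
    congr 1
    funext x
    rw [ip_symm, unitF_single x (1, k) hk, ip_single, one_mul]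
  obtain ⟨e', he', hadj⟩ := exists_adj hm he
  obtain ⟨C, hC⟩ := exists_bound he'
  have := lemmaK' (A := Fld Γ K X) (Alg Γ X K₀) (fun _ _ ha hb => mul_mem hm ha hb) B
    (fun a ha b hb c hc => by
      rw [hB, hB, hB, ← Finset.sum_add_distrib]
      refine Finset.sum_congr rfl fun k _ => ?_
      rw [← integral_add (integrable_ip hm ha hc _ _) (integrable_ip hm hb hc _ _)]
      simp)
    (fun r a _ b _ => by
      rw [hB, hB, Finset.mul_sum]
      refine Finset.sum_congr rfl fun k _ => ?_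
      rw [← integral_const_mul]
      simp)
    (fun a b => by simp only [hB, ip_symm (a _ _)])
    (fun a => Finset.sum_nonneg fun k _ => integral_nonneg fun x => ip_nonneg _)
    (unitF Γ X K₀) e e' unitF_mem he he' C hee (mul_unitF he)
    (fun f hf => by rw [hBu, hBu]; exact tr_comm hμ hf he)
    (fun a b => by
      rw [hB, hB]
      refine Finset.sum_congr rfl fun k _ => ?_
      congr 1
      funext x
      exact hadj x _ _)
    (fun g hg => by
      rw [hB, hB, Finset.mul_sum]
      refine Finset.sum_le_sum fun k _ => ?_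
      rw [← integral_const_mul]
      exact integral_mono (integrable_ip hm (mul_mem hm he' hg) (mul_mem hm he' hg) _ _)
        ((integrable_ip hm hg hg _ _).const_mul C) (fun x => hC x _))
  rwa [hBu] at this

theorem fld_mem (F : K → X → W Γ K) (h0 : ∀ k ∉ K₀, ∀ y, F k y = 0)
    (hfin : ∀ k, (Set.range (F k)).Finite) (hmeas : ∀ k w, MeasurableSet {y | F k y = w})
    (hsupp : ∀ k y, ∀ p ∈ (F k y).support, p.2 ∈ K₀) : fld F ∈ Alg Γ X K₀ := by
  classical
  have : fld F = ∑ k ∈ K₀, ∑ w ∈ (hfin k).toFinset, ∑ p ∈ w.support,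
      w p • elem p.1 k p.2 {y | F k y = w} := by
    apply fld_ext
    intro x q
    simp only [Finset.sum_apply, LinearMap.sum_apply, Pi.smul_apply, LinearMap.smul_apply,
      elem_single, fld_single, one_smul, Set.mem_ofPred_eq]
    by_cases hq : q.2 ∈ K₀
    · rw [Finset.sum_eq_single q.2, Finset.sum_eq_single (F q.2 (q.1 • x))]
      · conv_lhs => rw [← Finsupp.sum_single (F q.2 (q.1 • x)), Finsupp.sum, map_sum]
        refine Finset.sum_congr rfl fun p _ => ?_
        simp [sh_single]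
      · intro w _ hw
        simp [hw.symm]
      · intro h
        simp at h
      · intro l _ hl
        simp [hl.symm]
      · intro h; exact absurd hq h
    · rw [h0 _ hq, map_zero, Finset.sum_eq_zero]
      intro l hl
      have : q.2 ≠ l := fun h => hq (h ▸ hl)
      simp [this]
  rw [this]
  refine Submodule.sum_mem _ fun k hk => Submodule.sum_mem _ fun w hw =>
    Submodule.sum_mem _ fun p hp => Submodule.smul_mem _ _ (elem_mem _ hk ?_ (hmeas k w))
  obtain ⟨y, rfl⟩ := (hfin k).mem_toFinset.1 hw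
  exact hsupp k y p hp

end Crest.Agent.R191.Rk
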