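import Mathlib
import Crest.Agent.R191.RankM

/-!
Row 191 (S0291): a measured rank inequality (spanning families have at least the measure of a basis).
-/

set_option autoImplicit false

namespace Crest.Agent.R191

open MeasureTheory
open scoped ENNReal

/-- Change of viewpoint for chains: the basis element `(β, i)` seen from `γ • x` is the basis
element `(β * γ, i)` seen from `x`. -/
noncomputable def shiftCh {Γ I : Type*} [Group Γ] (γ : Γ) (v : (Γ × I) →₀ ℤ) : (Γ × I) →₀ ℤ :=
  Finsupp.mapDomain (fun p => (p.1 * γ, p.2)) v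

namespace Rk

open Finsupp

section Diag

variable {Γ K X : Type*} [Group Γ] [MulAction Γ X]

/-- Diagonal fields. -/
noncomputable def diag (Γ : Type*) [Group Γ] [MulAction Γ X] (s : Finset K) (A : K → Set X) :
    Fld Γ K X := ∑ k ∈ s, elem (1 : Γ) k k (A k)

open Classical in
theorem diag_single (s : Finset K) (A : K → Set X) (x : X) (p : Γ × K) :
    diag Γ s A x (single p 1) = if p.2 ∈ s ∧ p.1 • x ∈ A p.2 then single p 1 else 0 := by
  unfold diag
  rw [Finset.sum_apply, LinearMap.sum_apply]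
  by_cases hp : p.2 ∈ s
  · rw [Finset.sum_eq_single p.2]
    · simp [elem_single, hp]
    · intro l _ hl
      simp [elem_single, hl.symm]
    · intro h; exact absurd hp h
  · rw [if_neg (fun h => hp h.1), Finset.sum_eq_zero]
    intro l hl
    have : p.2 ≠ l := fun h => hp (h ▸ hl)
    simp [elem_single, this]

theorem diag_mul_diag (s : Finset K) (A : K → Set X) : diag Γ s A * diag Γ s A = diag Γ s A := by
  classical
  apply fld_ext
  intro x p
  rw [Pi.mul_apply, Module.End.mul_apply, diag_single]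
  split_ifs with h
  · rw [diag_single, if_pos h]
  · rw [map_zero]

theorem fld_mul_diag (F : K → X → W Γ K) (s : Finset K) (A : K → Set X)
    (h : ∀ k y, ¬ (k ∈ s ∧ y ∈ A k) → F k y = 0) : fld F * diag Γ s A = fld F := by
  classical
  apply fld_ext
  intro x p
  rw [Pi.mul_apply, Module.End.mul_apply, diag_single]
  split_ifs with h1
  · rfl
  · rw [map_zero, fld_single, h _ _ h1, map_zero, smul_zero]

variable [MeasurableSpace X] {K₀ : Finset K}

theorem diag_mem {s : Finset K} {A : K → Set X} (hs : s ⊆ K₀) (hA : ∀ k, MeasurableSet (A k)) :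
    diag Γ s A ∈ Alg Γ X K₀ :=
  Submodule.sum_mem _ fun k hk => elem_mem _ (hs hk) (hs hk) (hA k)

theorem tr_diag {μ : Measure X} [IsFiniteMeasure μ]
    (hm : ∀ γ : Γ, Measurable fun x : X => γ • x) {s : Finset K} {A : K → Set X} (hs : s ⊆ K₀)
    (hA : ∀ k, MeasurableSet (A k)) : tr μ K₀ (diag Γ s A) = ∑ k ∈ s, μ.real (A k) := by
  classical
  induction s using Finset.induction_on with
  | empty => simp [diag, tr_zero]
  | insert k s hk ih =>
    have hs' : s ⊆ K₀ := (Finset.subset_insert _ _).trans hs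
    have hk' : k ∈ K₀ := hs (Finset.mem_insert_self _ _)
    have : diag Γ (insert k s) A = elem (1 : Γ) k k (A k) + diag Γ s A := Finset.sum_insert hk
    rw [this, tr_add hm (elem_mem _ hk' hk' (hA k)) (diag_mem hs' hA), ih hs',
      tr_elem _ _ hk' (hA k), Finset.sum_insert hk, if_pos ⟨rfl, rfl⟩]

theorem simple_ite {M V : Type*} [Zero V] (A : Set X) (hA : MeasurableSet A) (h : X → M)
    (hh : ∀ m, MeasurableSet {y | h y = m}) (Φ : Finset M) (hΦ : ∀ y ∈ A, h y ∈ Φ) (g : M → V)
    (f : X → V) (hf1 : ∀ y ∈ A, f y = g (h y)) (hf2 : ∀ y ∉ A, f y = 0) :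
    (Set.range f).Finite ∧ ∀ w, MeasurableSet {y | f y = w} := by
  constructor
  · refine ((Φ.finite_toSet.image g).insert 0).subset ?_
    rintro _ ⟨y, rfl⟩
    by_cases hy : y ∈ A
    · exact Or.inr ⟨h y, hΦ y hy, (hf1 y hy).symm⟩
    · exact Or.inl (hf2 y hy)
  · intro w
    have : {y | f y = w} = (⋃ m ∈ Φ, A ∩ {y | h y = m} ∩ {_y | g m = w}) ∪
        (Aᶜ ∩ {_y | (0 : V) = w}) := by
      ext y
      simp only [Set.mem_ofPred_eq, Set.mem_union, Set.mem_iUnion, Set.mem_inter_iff,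
        Set.mem_compl_iff]
      by_cases hy : y ∈ A
      · rw [hf1 y hy]
        constructor
        · intro e; exact Or.inl ⟨h y, hΦ y hy, ⟨hy, rfl⟩, e⟩
        · rintro (⟨m, -, ⟨-, rfl⟩, e⟩ | ⟨h1, -⟩)
          · exact e
          · exact absurd hy h1
      · rw [hf2 y hy]
        constructor
        · intro e; exact Or.inr ⟨hy, e⟩
        · rintro (⟨m, -, ⟨h1, -⟩, -⟩ | ⟨-, e⟩)
          · exact absurd h1 hy
          · exact e
    rw [this]
    exact (Finset.measurableSet_biUnion _ fun m _ =>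
      (hA.inter (hh m)).inter (MeasurableSet.const _)).union
      (hA.compl.inter (MeasurableSet.const _))

end Diag

section Emb

variable {Γ K L : Type*} [Group Γ]

/-- Integral chains as real vectors. -/
noncomputable def emb (ι : L → K) : ((Γ × L) →₀ ℤ) →ₗ[ℤ] W Γ K :=
  Finsupp.linearCombination ℤ (fun p : Γ × L => (single (p.1, ι p.2) (1 : ℝ) : W Γ K))

omit [Group Γ] in
theorem emb_single (ι : L → K) (p : Γ × L) (c : ℤ) :
    emb ι (single p c) = c • (single (p.1, ι p.2) (1 : ℝ) : W Γ K) := by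
  simp only [emb, Finsupp.linearCombination_single]

omit [Group Γ] in
theorem emb_apply (ι : L → K) (v : (Γ × L) →₀ ℤ) :
    emb ι v = ∑ p ∈ v.support, v p • (single (p.1, ι p.2) (1 : ℝ) : W Γ K) := by
  simp only [emb, Finsupp.linearCombination_apply, Finsupp.sum]

theorem emb_shift (ι : L → K) (γ : Γ) (v : (Γ × L) →₀ ℤ) :
    emb ι (shiftCh γ v) = sh γ (emb ι v) := by
  induction v using Finsupp.induction_linear with
  | zero => simp [shiftCh]
  | add f g hf hg =>
    unfold shiftCh at hf hg ⊢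
    rw [Finsupp.mapDomain_add, map_add, map_add, map_add, hf, hg]
  | single q c =>
    unfold shiftCh
    rw [Finsupp.mapDomain_single, emb_single, emb_single, map_zsmul, sh_single]

omit [Group Γ] in
theorem emb_support (ι : L → K) (v : (Γ × L) →₀ ℤ) (p : Γ × K) (hp : p ∈ (emb ι v).support) :
    ∃ q ∈ v.support, p.2 = ι q.2 := by
  classical
  rw [emb_apply] at hp
  obtain ⟨q, hq, h⟩ := Finset.mem_biUnion.1 (Finsupp.support_finsetSum hp)
  have := Finsupp.support_single_subset (Finsupp.support_smul h)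
  rw [Finset.mem_singleton] at this
  exact ⟨q, hq, by rw [this]⟩

end Emb

theorem idem_sub {A : Type*} [Ring A] [Algebra ℝ A] (q s t p : A) (h1 : t * s = p) (h2 : s * p = s)
    (h3 : t * q = t) (h4 : q * s = s) (h5 : q * q = q) :
    (q + (-1 : ℝ) • (s * t)) * (q + (-1 : ℝ) • (s * t)) = q + (-1 : ℝ) • (s * t) := by
  have e1 : s * t * (s * t) = s * t := by
    rw [mul_assoc, ← mul_assoc t, h1, ← mul_assoc, h2]
  rw [neg_one_smul, ← sub_eq_add_neg, sub_mul, mul_sub, mul_sub, h5, e1, ← mul_assoc, h4,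
    mul_assoc, h3, sub_self, sub_zero]

theorem rank_fin {Γ X I J : Type*} [Group Γ] [MeasurableSpace X] [MulAction Γ X] [DecidableEq J]
    (μ : Measure X) [IsFiniteMeasure μ]
    (hμ : ∀ γ : Γ, MeasurePreserving (fun x : X => γ • x) μ μ)
    (E : I → Set X) (hE : ∀ i, MeasurableSet (E i))
    (D' : J → Set X) (hD' : ∀ j, MeasurableSet (D' j))
    (t : J → X → (Γ × I) →₀ ℤ) (ht : ∀ j v, MeasurableSet {x | t j x = v})
    (σ : I → X → (Γ × J) →₀ ℤ) (hσ : ∀ i s, MeasurableSet {x | σ i x = s})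
    (I₀ : Finset I) (F : Finset ((Γ × J) →₀ ℤ)) (G : Finset (J × ((Γ × I) →₀ ℤ)))
    (h1 : ∀ i ∈ I₀, ∀ x ∈ E i, σ i x ∈ F)
    (h2 : ∀ i ∈ I₀, ∀ x ∈ E i, ∀ p ∈ (σ i x).support,
      p.1 • x ∈ D' p.2 ∧ (p.2, t p.2 (p.1 • x)) ∈ G)
    (h3 : ∀ i ∈ I₀, ∀ x ∈ E i, ∑ p ∈ (σ i x).support, σ i x p • shiftCh p.1 (t p.2 (p.1 • x)) =
      single (1, i) 1) :
    ∑ i ∈ I₀, μ.real (E i) ≤ ∑ j ∈ G.image Prod.fst, μ.real (D' j) := by
  classical
  have hm : ∀ γ : Γ, Measurable fun x : X => γ • x := fun γ => (hμ γ).measurable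
  let J₀ : Finset J := G.image Prod.fst
  let I₁ : Finset I := I₀ ∪ G.biUnion (fun g => g.2.support.image Prod.snd)
  let K₀ : Finset (I ⊕ J) := I₁.disjSum J₀
  let A : I ⊕ J → Set X := Sum.elim E D'
  have hA : ∀ k, MeasurableSet (A k) := by rintro (i | j); exacts [hE i, hD' j]
  let FS : I ⊕ J → X → W Γ (I ⊕ J) := Sum.elim
    (fun i y => if i ∈ I₀ ∧ y ∈ E i then emb Sum.inr (σ i y) else 0) (fun _ _ => 0)
  let FT : I ⊕ J → X → W Γ (I ⊕ J) := Sum.elim (fun _ _ => 0)
    (fun j y => if y ∈ D' j ∧ (j, t j y) ∈ G then emb Sum.inl (t j y) else 0)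
  have sS : ∀ k, (Set.range (FS k)).Finite ∧ ∀ w, MeasurableSet {y | FS k y = w} := by
    rintro (i | j)
    · exact simple_ite {y | i ∈ I₀ ∧ y ∈ E i} ((MeasurableSet.const _).inter (hE i)) (σ i) (hσ i) F
        (fun y hy => h1 i hy.1 y hy.2) (emb Sum.inr) _ (fun y hy => if_pos hy)
        (fun y hy => if_neg hy)
    · exact simple_ite ∅ MeasurableSet.empty (fun _ => ()) (fun _ => MeasurableSet.const _) ∅
        (fun y hy => hy.elim) (fun _ => 0) _ (fun y hy => rfl) (fun y hy => rfl)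
  have sT : ∀ k, (Set.range (FT k)).Finite ∧ ∀ w, MeasurableSet {y | FT k y = w} := by
    rintro (i | j)
    · exact simple_ite ∅ MeasurableSet.empty (fun _ => ()) (fun _ => MeasurableSet.const _) ∅
        (fun y hy => hy.elim) (fun _ => 0) _ (fun y hy => rfl) (fun y hy => rfl)
    · refine simple_ite {y | y ∈ D' j ∧ (j, t j y) ∈ G} ((hD' j).inter ?_) (t j) (ht j)
        (G.image Prod.snd) (fun y hy => Finset.mem_image.2 ⟨_, hy.2, rfl⟩) (emb Sum.inl) _
        (fun y hy => if_pos hy) (fun y hy => if_neg hy)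
      have : {y | (j, t j y) ∈ G} = ⋃ g ∈ G, {_y | j = g.1} ∩ {y | t j y = g.2} := by
        ext y
        simp only [Set.mem_ofPred_eq, Set.mem_iUnion, Set.mem_inter_iff]
        constructor
        · intro h; exact ⟨_, h, rfl, rfl⟩
        · rintro ⟨g, hg, e1, e2⟩
          rw [e2, e1]; exact hg
      change MeasurableSet {y | (j, t j y) ∈ G}
      rw [this]
      exact Finset.measurableSet_biUnion _ fun g _ => (MeasurableSet.const _).inter (ht j _)
  have hS : fld FS ∈ Alg Γ X K₀ := by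
    refine fld_mem FS ?_ (fun k => (sS k).1) (fun k => (sS k).2) ?_
    · rintro (i | j) hk y
      · refine if_neg fun h => hk ?_
        exact Finset.inl_mem_disjSum.2 (Finset.mem_union_left _ h.1)
      · rfl
    · rintro (i | j) y p hp
      · change p ∈ (if i ∈ I₀ ∧ y ∈ E i then emb Sum.inr (σ i y) else 0).support at hp
        split_ifs at hp with h
        · obtain ⟨q, hq, e⟩ := emb_support _ _ _ hp
          rw [e]
          exact Finset.inr_mem_disjSum.2 (Finset.mem_image.2 ⟨_, (h2 i h.1 y h.2 q hq).2, rfl⟩)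
        · simp at hp
      · exact absurd hp (Finset.notMem_empty _)
  have hT : fld FT ∈ Alg Γ X K₀ := by
    refine fld_mem FT ?_ (fun k => (sT k).1) (fun k => (sT k).2) ?_
    · rintro (i | j) hk y
      · rfl
      · refine if_neg fun h => hk ?_
        exact Finset.inr_mem_disjSum.2 (Finset.mem_image.2 ⟨_, h.2, rfl⟩)
    · rintro (i | j) y p hp
      · exact absurd hp (Finset.notMem_empty _)
      · change p ∈ (if y ∈ D' j ∧ (j, t j y) ∈ G then emb Sum.inl (t j y) else 0).support at hp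
        split_ifs at hp with h
        · obtain ⟨q, hq, e⟩ := emb_support _ _ _ hp
          rw [e]
          exact Finset.inl_mem_disjSum.2 (Finset.mem_union_right _
            (Finset.mem_biUnion.2 ⟨_, h.2, Finset.mem_image.2 ⟨q, hq, rfl⟩⟩))
        · simp at hp
  let sI : Finset (I ⊕ J) := I₀.disjSum ∅
  let sJ : Finset (I ⊕ J) := (∅ : Finset I).disjSum J₀
  have hsI : sI ⊆ K₀ := Finset.disjSum_mono Finset.subset_union_left (Finset.empty_subset _)
  have hsJ : sJ ⊆ K₀ := Finset.disjSum_mono (Finset.empty_subset _) (Finset.Subset.refl _)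
  have hP := diag_mem (Γ := Γ) hsI hA
  have hQ := diag_mem (Γ := Γ) hsJ hA
  have hTS : fld FT * fld FS = diag Γ sI A := by
    apply fld_ext
    rintro x ⟨β, i | j⟩
    · rw [Pi.mul_apply, Module.End.mul_apply, diag_single, fld_single, one_smul, fld_sh]
      change sh β (fld FT (β • x)
        (if i ∈ I₀ ∧ β • x ∈ E i then emb Sum.inr (σ i (β • x)) else 0)) = _
      by_cases h : i ∈ I₀ ∧ β • x ∈ E i
      · rw [if_pos h, if_pos ⟨Finset.inl_mem_disjSum.2 h.1, h.2⟩]
        have e1 : fld FT (β • x) (emb Sum.inr (σ i (β • x))) = single (1, Sum.inl i) 1 := by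
          have e2 := congrArg (emb (Sum.inl : I → I ⊕ J)) (h3 i h.1 _ h.2)
          rw [emb_single, one_smul, map_sum] at e2
          rw [emb_apply, map_sum, ← e2]
          refine Finset.sum_congr rfl fun p hp => ?_
          rw [map_zsmul, map_zsmul, fld_single, one_smul, emb_shift]
          congr 2
          exact if_pos (h2 i h.1 _ h.2 p hp)
        rw [e1, sh_single, one_mul]
      · rw [if_neg h, map_zero, map_zero, if_neg]
        rintro ⟨h4, h5⟩
        exact h ⟨Finset.inl_mem_disjSum.1 h4, h5⟩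
    · rw [Pi.mul_apply, Module.End.mul_apply, diag_single, fld_single, one_smul, if_neg]
      · change fld FT x (sh β 0) = 0
        rw [map_zero, map_zero]
      · rintro ⟨h4, -⟩
        exact absurd (Finset.inr_mem_disjSum.1 h4) (Finset.notMem_empty _)
  have hSP : fld FS * diag Γ sI A = fld FS := by
    apply fld_mul_diag
    rintro (i | j) y h
    · exact if_neg fun h' => h ⟨Finset.inl_mem_disjSum.2 h'.1, h'.2⟩
    · rfl
  have hTQ : fld FT * diag Γ sJ A = fld FT := by
    apply fld_mul_diag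
    rintro (i | j) y h
    · rfl
    · exact if_neg fun h' =>
        h ⟨Finset.inr_mem_disjSum.2 (Finset.mem_image.2 ⟨_, h'.2, rfl⟩), h'.1⟩
  have hQS : diag Γ sJ A * fld FS = fld FS := by
    apply fld_ext
    rintro x ⟨β, i | j⟩
    · rw [Pi.mul_apply, Module.End.mul_apply, fld_single, one_smul]
      change diag Γ sJ A x (sh β (if i ∈ I₀ ∧ β • x ∈ E i then emb Sum.inr (σ i (β • x)) else 0)) =
        sh β (if i ∈ I₀ ∧ β • x ∈ E i then emb Sum.inr (σ i (β • x)) else 0)
      split_ifs with h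
      · rw [emb_apply, map_sum, map_sum]
        refine Finset.sum_congr rfl fun p hp => ?_
        rw [map_zsmul, map_zsmul, sh_single, diag_single, if_pos]
        refine ⟨Finset.inr_mem_disjSum.2
          (Finset.mem_image.2 ⟨_, (h2 i h.1 _ h.2 p hp).2, rfl⟩), ?_⟩
        change (p.1 * β) • x ∈ D' p.2
        rw [mul_smul]
        exact (h2 i h.1 _ h.2 p hp).1
      · rw [map_zero, map_zero]
    · rw [Pi.mul_apply, Module.End.mul_apply, fld_single, one_smul]
      change diag Γ sJ A x (sh β 0) = sh β 0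
      rw [map_zero, map_zero]
  have hQQ := diag_mul_diag (Γ := Γ) sJ A
  have he := mul_mem hm hS hT
  have hd : diag Γ sJ A + (-1 : ℝ) • (fld FS * fld FT) ∈ Alg Γ X K₀ :=
    add_mem hQ (Submodule.smul_mem _ _ he)
  have hpos := tr_nonneg hμ hd (idem_sub (A := Fld Γ (I ⊕ J) X) _ _ _ _ hTS hSP hTQ hQS hQQ)
  rw [tr_add hm hQ (Submodule.smul_mem _ _ he), tr_smul, tr_comm hμ hS hT, hTS, tr_diag hm hsI hA,
    tr_diag hm hsJ hA, Finset.sum_disjSum, Finset.sum_disjSum, Finset.sum_empty,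
    Finset.sum_empty] at hpos
  have e2 : ∑ i ∈ I₀, μ.real (A (Sum.inl i)) ≤ ∑ j ∈ J₀, μ.real (A (Sum.inr j)) := by linarith
  exact e2

end Rk

theorem rank_le {Γ X I J : Type*} [Group Γ] [Countable Γ] [Countable I] [Countable J]
    [MeasurableSpace X] [MulAction Γ X] (μ : Measure X) [IsFiniteMeasure μ]
    (hμ : ∀ γ : Γ, MeasurePreserving (fun x : X => γ • x) μ μ)
    (D : I → Set X) (hD : ∀ i, MeasurableSet (D i))
    (D' : J → Set X) (hD' : ∀ j, MeasurableSet (D' j))
    (t : J → X → (Γ × I) →₀ ℤ) (ht : ∀ j v, MeasurableSet {x | t j x = v})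
    (hspan : ∀ i, ∀ x ∈ D i, Finsupp.single ((1 : Γ), i) (1 : ℤ) ∈
      Submodule.span ℤ {v | ∃ (γ : Γ) (j : J), γ • x ∈ D' j ∧ v = shiftCh γ (t j (γ • x))}) :
    ∑' i, μ (D i) ≤ ∑' j, μ (D' j) := by
  classical
  have hm : ∀ γ : Γ, Measurable fun x : X => γ • x := fun γ => (hμ γ).measurable
  let _ : MeasurableSpace ((Γ × I) →₀ ℤ) := ⊤
  let _ : MeasurableSpace ((Γ × J) →₀ ℤ) := ⊤
  have _ : DiscreteMeasurableSpace ((Γ × I) →₀ ℤ) := ⟨fun _ => trivial⟩
  have _ : DiscreteMeasurableSpace ((Γ × J) →₀ ℤ) := ⟨fun _ => trivial⟩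
  have ht' : ∀ j, Measurable (t j) := fun j => measurable_to_countable' (ht j)
  let Cond : I → ((Γ × J) →₀ ℤ) → X → Prop := fun i s x =>
    (∀ p ∈ s.support, p.1 • x ∈ D' p.2) ∧
      ∑ p ∈ s.support, s p • shiftCh p.1 (t p.2 (p.1 • x)) = Finsupp.single (1, i) 1
  have hCond : ∀ i s, MeasurableSet {x | Cond i s x} := by
    intro i s
    refine MeasurableSet.inter (s₁ := {x | ∀ p ∈ s.support, p.1 • x ∈ D' p.2}) ?_ ?_
    · have : {x | ∀ p ∈ s.support, p.1 • x ∈ D' p.2} =
          ⋂ p ∈ s.support, (fun x => p.1 • x) ⁻¹' D' p.2 := by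
        ext x; simp only [Set.mem_ofPred_eq, Set.mem_iInter, Set.mem_preimage]
      rw [this]
      exact Finset.measurableSet_biInter _ fun p _ => hm _ (hD' _)
    · have : Measurable fun x => ∑ p ∈ s.support, s p • shiftCh p.1 (t p.2 (p.1 • x)) :=
        Finset.measurable_fun_sum _ fun p _ =>
          (Measurable.of_discrete (f := fun v => s p • shiftCh p.1 v)).comp ((ht' _).comp (hm _))
      exact this (MeasurableSet.singleton _)
  have hex : ∀ i, ∀ x ∈ D i, ∃ s, Cond i s x := by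
    intro i x hx
    have h := hspan i x hx
    have : {v | ∃ (γ : Γ) (j : J), γ • x ∈ D' j ∧ v = shiftCh γ (t j (γ • x))} =
        (fun p : Γ × J => shiftCh p.1 (t p.2 (p.1 • x))) '' {p | p.1 • x ∈ D' p.2} := by
      ext v
      constructor
      · rintro ⟨γ, j, h1, rfl⟩; exact ⟨(γ, j), h1, rfl⟩
      · rintro ⟨p, h1, rfl⟩; exact ⟨p.1, p.2, h1, rfl⟩
    rw [this, Finsupp.mem_span_image_iff_linearCombination] at h
    obtain ⟨s, hs1, hs2⟩ := h
    exact ⟨s, fun p hp => (Finsupp.mem_supported ℤ s).1 hs1 hp, hs2⟩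
  obtain ⟨en, hen⟩ := exists_surjective_nat ((Γ × J) →₀ ℤ)
  have hex' : ∀ i x, ∃ n, x ∈ D i → Cond i (en n) x := by
    intro i x
    by_cases hx : x ∈ D i
    · obtain ⟨s, hs⟩ := hex i x hx
      obtain ⟨n, rfl⟩ := hen s
      exact ⟨n, fun _ => hs⟩
    · exact ⟨0, fun h => absurd h hx⟩
  let σ : I → X → (Γ × J) →₀ ℤ := fun i x => en (Nat.find (hex' i x))
  have hσ : ∀ i, Measurable (σ i) := fun i =>
    Measurable.find (f := fun n _ => en n) (p := fun n x => x ∈ D i → Cond i (en n) x)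
      (fun _ => measurable_const) (fun n => (hD i).imp (hCond i (en n))) (hex' i)
  have hσc : ∀ i, ∀ x ∈ D i, Cond i (σ i x) x := fun i x hx => Nat.find_spec (hex' i x) hx
  obtain ⟨enc, henc⟩ := Countable.exists_injective_nat ((Γ × J) →₀ ℤ)
  obtain ⟨enc', henc'⟩ := Countable.exists_injective_nat (J × ((Γ × I) →₀ ℤ))
  let E : ℕ → I → Set X := fun N i => {x | x ∈ D i ∧ enc (σ i x) < N ∧
    ∀ p ∈ (σ i x).support, enc' (p.2, t p.2 (p.1 • x)) < N}
  have hE : ∀ N i, MeasurableSet (E N i) := by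
    intro N i
    refine (hD i).inter (MeasurableSet.inter (s₁ := {x | enc (σ i x) < N}) ?_ ?_)
    · exact hσ i (MeasurableSet.of_discrete (s := {s | enc s < N}))
    · have : {x | ∀ p ∈ (σ i x).support, enc' (p.2, t p.2 (p.1 • x)) < N} =
          ⋂ p : Γ × J, {x | p ∈ (σ i x).support → enc' (p.2, t p.2 (p.1 • x)) < N} := by
        ext x; simp only [Set.mem_ofPred_eq, Set.mem_iInter]
      change MeasurableSet {x | ∀ p ∈ (σ i x).support, enc' (p.2, t p.2 (p.1 • x)) < N}
      rw [this]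
      refine MeasurableSet.iInter fun p => MeasurableSet.imp ?_ ?_
      · exact hσ i (MeasurableSet.of_discrete (s := {s | p ∈ s.support}))
      · exact ((ht' _).comp (hm _)) (MeasurableSet.of_discrete (s := {v | enc' (p.2, v) < N}))
  have hmono : ∀ i, Monotone fun N => E N i := fun i N N' h x hx =>
    ⟨hx.1, hx.2.1.trans_le h, fun p hp => (hx.2.2 p hp).trans_le h⟩
  have hU : ∀ i, ⋃ N, E N i = D i := by
    intro i
    refine Set.Subset.antisymm (Set.iUnion_subset fun N x hx => hx.1) fun x hx => ?_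
    refine Set.mem_iUnion.2 ⟨max (enc (σ i x))
      ((σ i x).support.sup fun p => enc' (p.2, t p.2 (p.1 • x))) + 1, hx,
      Nat.lt_succ_of_le (le_max_left _ _), fun p hp => Nat.lt_succ_of_le ?_⟩
    exact (Finset.le_sup (f := fun p => enc' (p.2, t p.2 (p.1 • x))) hp).trans (le_max_right _ _)
  rw [ENNReal.tsum_eq_iSup_sum]
  refine iSup_le fun I₀ => ?_
  have hlim : Filter.Tendsto (fun N => ∑ i ∈ I₀, μ (E N i)) Filter.atTop
      (nhds (∑ i ∈ I₀, μ (D i))) := by
    refine tendsto_finsetSum _ fun i _ => ?_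
    rw [← hU i]
    exact tendsto_measure_iUnion_atTop (hmono i)
  refine le_of_tendsto' hlim fun N => ?_
  have hF : {s | enc s < N}.Finite := (Set.finite_lt_nat N).preimage henc.injOn
  have hG : {s | enc' s < N}.Finite := (Set.finite_lt_nat N).preimage henc'.injOn
  have key := Rk.rank_fin μ hμ (E N) (hE N) D' hD' t ht σ
    (fun i s => hσ i (MeasurableSet.singleton s)) I₀ hF.toFinset hG.toFinset
    (fun i _ x hx => hF.mem_toFinset.2 hx.2.1)
    (fun i _ x hx p hp => ⟨(hσc i x hx.1).1 p hp, hG.mem_toFinset.2 (hx.2.2 p hp)⟩)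
    (fun i _ x hx => (hσc i x hx.1).2)
  refine le_trans ?_ (ENNReal.sum_le_tsum (hG.toFinset.image Prod.fst))
  rw [← ENNReal.toReal_le_toReal (ENNReal.sum_ne_top.2 fun _ _ => measure_ne_top _ _)
    (ENNReal.sum_ne_top.2 fun _ _ => measure_ne_top _ _),
    ENNReal.toReal_sum (fun _ _ => measure_ne_top _ _),
    ENNReal.toReal_sum (fun _ _ => measure_ne_top _ _)]
  exact key

end Crest.Agent.R191
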