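import Crest.Agent.R191.Est2
import Crest.Agent.R191.Rank

/-!
Row 191 (S0291): the Euler characteristic estimate.
-/

set_option autoImplicit false
set_option linter.unusedSectionVars false

namespace Crest.Agent.R191

open MeasureTheory FreeGroup
open scoped ENNReal

variable {Γ : Type*} [Group Γ] [Countable Γ] [DecidableEq Γ] {X : Type*} [MeasurableSpace X]
  [MulAction Γ X] {μ : Measure X} (hμ : ∀ γ : Γ, MeasurePreserving (fun x : X => γ • x) μ μ)
  (c : Cfg Γ Γ) [c.RI]

/-- The basis vector of an edge. -/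
noncomputable def ev (L : X → Subgroup (FreeGroup Γ)) (x : X) (g : FreeGroup Γ) (β : Γ) :
    (Γ × FreeGroup Γ) →₀ ℤ :=
  Finsupp.single (β, nm (L (β • x)) (rho β⁻¹ g)) 1

/-- The chain of the path from `1` to `h`. -/
noncomputable def ch (L : X → Subgroup (FreeGroup Γ)) (x : X) (h : FreeGroup Γ) :
    (Γ × FreeGroup Γ) →₀ ℤ :=
  Multiplicative.toAdd (pint (fun g a => Multiplicative.ofAdd (ev L x g a)) h)

section Chains

variable {L : X → Subgroup (FreeGroup Γ)}

@[simp] lemma ch_one (x : X) : ch L x 1 = 0 := by simp [ch]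

lemma ch_mul_of (x : X) (h : FreeGroup Γ) (a : Γ) : ch L x (h * of a) = ch L x h + ev L x h a := by
  simp [ch, pint_mul_of]

lemma ev_mul (hL : GSub L) {x : X} {l : FreeGroup Γ} (hl : l ∈ L x) (g : FreeGroup Γ) (β : Γ) :
    ev L x (l * g) β = ev L x g β := by
  unfold ev
  rw [_root_.map_mul, nm_mul]
  rw [hL.equi]; simpa using hl

lemma ch_mul (hL : GSub L) {x : X} {l : FreeGroup Γ} (hl : l ∈ L x) (h : FreeGroup Γ) :
    ch L x (l * h) = ch L x l + ch L x h := by
  unfold ch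
  rw [pint_mul fun g a => by rw [ev_mul hL hl]]
  rfl

lemma ch_inv (hL : GSub L) {x : X} {l : FreeGroup Γ} (hl : l ∈ L x) :
    ch L x l⁻¹ = - ch L x l := by
  rw [eq_neg_iff_add_eq_zero, ← ch_mul hL ((L x).inv_mem hl)]; simp

lemma shift_ev (γ : Γ) (x : X) (g : FreeGroup Γ) (β : Γ) :
    shiftCh γ (ev L (γ • x) g β) = ev L x (rho γ g) (β * γ) := by
  simp [shiftCh, ev, Finsupp.mapDomain_single, rho_rho, mul_smul]

lemma shift_ch (γ : Γ) (x : X) (h : FreeGroup Γ) :
    shiftCh γ (ch L (γ • x) h) = ch L x (rho γ h) := by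
  induction h using ind_right with
  | h1 => simp [shiftCh]
  | hs h a =>
    rw [_root_.map_mul, rho_of, ch_mul_of, ch_mul_of, ← shift_ev]
    unfold shiftCh
    rw [Finsupp.mapDomain_add, add_left_inj]

include hμ in
lemma meas_ev (hL : GSub L) (g : FreeGroup Γ) (β : Γ) (v : (Γ × FreeGroup Γ) →₀ ℤ) :
    Measurable fun x => ev L x g β = v := by
  have : ∀ x, ev L x g β = v ↔ ∃ h, (IsName (L (β • x)) h ∧ h * (rho β⁻¹ g)⁻¹ ∈ L (β • x)) ∧
      Finsupp.single (β, h) 1 = v := by
    intro x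
    simp only [← nm_eq_iff, exists_eq_left', ev]
  simp only [this]
  exact Measurable.exists fun h => (((measurable_isName hL h).comp (hμ β).measurable).and
    ((hL.meas _).comp (hμ β).measurable)).and measurable_const

include hμ in
lemma meas_ch (hL : GSub L) (h : FreeGroup Γ) (v : (Γ × FreeGroup Γ) →₀ ℤ) :
    Measurable fun x => ch L x h = v := by
  induction h using ind_right generalizing v with
  | h1 => simp
  | hs g a =>
    simp only [ch_mul_of]
    constructor
    · intro H v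
      have : ∀ x, ch L x g + ev L x g a = v ↔ ∃ y, ev L x g a = y ∧ ch L x g = v - y := by
        intro x; simp [eq_sub_iff_add_eq]
      simp only [this]
      exact Measurable.exists fun y => (meas_ev hμ hL g a y).and (H _)
    · intro H v
      have : ∀ x, ch L x g = v ↔ ∃ y, ev L x g a = y ∧ ch L x g + ev L x g a = v + y := by
        intro x; simp
      simp only [this]
      exact Measurable.exists fun y => (meas_ev hμ hL g a y).and (H _)

end Chains

lemma nu_cd_bool {L : X → Subgroup (FreeGroup Γ)} (hL : GSub L)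
    (Y : X → FreeGroup Γ → Bool → Prop) (hY : ∀ g b, Measurable fun x => Y x g b) :
    nu μ L (fun x g => cd fun b => Y x g b) =
      ∑' z : FreeGroup Γ × Bool, μ {x | IsName (L x) z.1 ∧ Y x z.1 z.2} := by
  unfold cd
  rw [nu_tsum hL fun b g => measurable_ind (hY g b), ENNReal.tsum_prod', ENNReal.tsum_comm]
  exact tsum_congr fun b => nu_ind hL fun g => hY g b

include hμ in
lemma rank_app [IsFiniteMeasure μ] {L : X → Subgroup (FreeGroup Γ)} (hL : GSub L) {S : Set X}
    (hS : MeasurableSet S) {w : ℕ → X → FreeGroup Γ} (hw : ∀ i g, MeasurableSet {x | w i x = g})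
    (hwL : ∀ i x, w i x ∈ L x)
    (gen : ∀ x, L x ≤ Subgroup.closure (fam w x ∪ Cfg.loops c (L x) (Sx S x)))
    (J : X → FreeGroup Γ → Γ × Bool → Prop)
    (hJ : Good Γ fun x (w : FreeGroup Γ × Γ × Bool) => J x w.1 w.2)
    (hJi : ∀ x, ∀ l ∈ L x, ∀ g s, J x g s → J x (l * g) s)
    (hJe : ∀ x g s, Hull (L x) g s → g ∉ L x → ∃ s', J x g s') :
    EE μ L ≤ ∑' i, μ {x | w i x ≠ 1} +
      (nu μ L (fun x p => ind (c.loop p 1 ∈ L x ∧ x ∈ S)) +
        nu μ L (fun x g => cd fun b => J x g (1, b))) := by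
  have hm1 : ∀ p, Measurable fun x => c.loop p 1 ∈ L x ∧ x ∈ S :=
    fun p => (hL.meas _).and (measurableSet_setOfPred.1 hS)
  have hm2 : ∀ g b, Measurable fun x => J x g (1, b) := fun g b => hJ.meas (g, 1, b)
  rw [EE, nu_ind hL fun g => meas_hull hL g _, nu_ind hL hm1, nu_cd_bool hL _ hm2]
  let D' : ℕ ⊕ FreeGroup Γ ⊕ FreeGroup Γ × Bool → Set X := Sum.elim (fun i => {x | w i x ≠ 1})
    (Sum.elim (fun p => {x | IsName (L x) p ∧ c.loop p 1 ∈ L x ∧ x ∈ S})
      fun z => {x | IsName (L x) z.1 ∧ J x z.1 (1, z.2)})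
  let t : ℕ ⊕ FreeGroup Γ ⊕ FreeGroup Γ × Bool → X → (Γ × FreeGroup Γ) →₀ ℤ :=
    Sum.elim (fun i x => ch L x (w i x))
      (Sum.elim (fun p x => ch L x (c.loop p 1)) fun z x => ch L x z.1)
  have key := rank_le μ hμ (fun g => {x | IsName (L x) g ∧ Hull (L x) g (1, true)})
    (fun g => measurableSet_setOfPred.2 ((measurable_isName hL g).and (meas_hull hL g _))) D'
    ?_ t ?_ ?_
  · rwa [Summable.tsum_sum ENNReal.summable ENNReal.summable,
      Summable.tsum_sum ENNReal.summable ENNReal.summable] at key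
  · rintro (i | p | z)
    · exact (hw i 1).compl
    · exact measurableSet_setOfPred.2 ((measurable_isName hL p).and (hm1 p))
    · exact measurableSet_setOfPred.2 ((measurable_isName hL z.1).and (hm2 _ _))
  · rintro (i | p | z) v
    · have : {x | ch L x (w i x) = v} = ⋃ g, {x | w i x = g} ∩ {x | ch L x g = v} := by
        ext x; simp
      change MeasurableSet {x | ch L x (w i x) = v}
      rw [this]
      exact MeasurableSet.iUnion fun g => (hw i g).inter
        (measurableSet_setOfPred.2 (meas_ch hμ hL g v))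
    · exact measurableSet_setOfPred.2 (meas_ch hμ hL _ v)
    · exact measurableSet_setOfPred.2 (meas_ch hμ hL _ v)
  rintro i x ⟨hi, hh⟩
  set V := Submodule.span ℤ {v | ∃ (γ : Γ) (j : ℕ ⊕ FreeGroup Γ ⊕ FreeGroup Γ × Bool),
    γ • x ∈ D' j ∧ v = shiftCh γ (t j (γ • x))}
  have hLV : ∀ l ∈ L x, ch L x l ∈ V := by
    have : ∀ l ∈ Subgroup.closure (fam w x ∪ Cfg.loops c (L x) (Sx S x)),
        l ∈ L x ∧ ch L x l ∈ V := by
      intro l hl
      induction hl using Subgroup.closure_induction with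
      | mem g hg =>
        rcases hg with ⟨γ, i, rfl⟩ | ⟨hg, p, u, hu, rfl⟩
        · refine ⟨(hL.equi γ x _).1 (hwL i _), ?_⟩
          by_cases h1 : w i (γ • x) = 1
          · simp [h1]
          · exact Submodule.subset_span ⟨γ, .inl i, h1, (shift_ch _ _ _).symm⟩
        · refine ⟨hg, ?_⟩
          have h1 : c.loop (rho u⁻¹ p) 1 ∈ L (u • x) := by rw [hL.equi]; simpa using hg
          have h2 := nm_mem (L (u • x)) (rho u⁻¹ p)
          set l := nm (L (u • x)) (rho u⁻¹ p) * (rho u⁻¹ p)⁻¹ with hl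
          have e : nm (L (u • x)) (rho u⁻¹ p) = l * rho u⁻¹ p := by simp [hl]
          refine Submodule.subset_span ⟨u, .inr (.inl (nm (L (u • x)) (rho u⁻¹ p))),
            ⟨isName_nm _ _, ?_, hu⟩, ?_⟩
          · rwa [e, c.loop_mul_mem h2]
          · change _ = shiftCh u (ch L (u • x) (c.loop _ 1))
            rw [e, c.loop_mul, ch_mul hL (mul_mem h2 h1), ch_mul hL h2, ch_inv hL h2,
              add_neg_cancel_comm, shift_ch]
            simp
      | one => simp
      | mul a b _ _ ha hb => exact ⟨mul_mem ha.1 hb.1, by rw [ch_mul hL ha.1]; exact add_mem ha.2 hb.2⟩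
      | inv a _ ha => exact ⟨inv_mem ha.1, by rw [ch_inv hL ha.1]; exact neg_mem ha.2⟩
    exact fun l hl => (this l (gen x hl)).2
  have hV : ∀ g s, Hull (L x) g s → ch L x g ∈ V := by
    intro g s hs
    by_cases hg : g ∈ L x
    · exact hLV g hg
    obtain ⟨⟨a, b⟩, h⟩ := hJe x g s hs hg
    have h1 : J (a • x) (rho a⁻¹ g) (1, b) := (hJ.equi a x (rho a⁻¹ g, 1, b)).2 (by simpa using h)
    have h2 := nm_mem (L (a • x)) (rho a⁻¹ g)
    set l := nm (L (a • x)) (rho a⁻¹ g) * (rho a⁻¹ g)⁻¹ with hl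
    have e : nm (L (a • x)) (rho a⁻¹ g) = l * rho a⁻¹ g := by simp [hl]
    have h3 : shiftCh a (ch L (a • x) (nm (L (a • x)) (rho a⁻¹ g))) ∈ V :=
      Submodule.subset_span ⟨a, .inr (.inr (nm (L (a • x)) (rho a⁻¹ g), b)),
        ⟨isName_nm _ _, by rw [e]; exact hJi _ _ h2 _ _ h1⟩, rfl⟩
    have h4 : rho a l ∈ L x := (hL.equi a x l).1 h2
    rw [e, shift_ch, _root_.map_mul, rho_rho_inv, ch_mul hL h4] at h3
    exact (add_mem_cancel_left (hLV _ h4)).1 h3
  have h1 := hV _ _ hh
  have h2 := hV _ _ (hull_symm _ _ _ hh)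
  rw [el_true, ch_mul_of, add_mem_cancel_left h1] at h2
  simpa [ev, hi.nm] using h2

lemma tsum_measure_iInter {I : Type*} [Countable I] [IsFiniteMeasure μ] (D : ℕ → I → Set X)
    (hD : ∀ n i, MeasurableSet (D n i)) (hanti : ∀ i, Antitone fun n => D n i)
    (hfin : ∑' i, μ (D 0 i) ≠ ⊤) : ∑' i, μ (⋂ n, D n i) = ⨅ n, ∑' i, μ (D n i) := by
  let _ : MeasurableSpace I := ⊤
  simp only [← lintegral_count' measurable_from_top]
  rw [← lintegral_iInf (fun _ => measurable_from_top)
    (fun n m h i => measure_mono (hanti i h)) (by rwa [lintegral_count' measurable_from_top])]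
  exact lintegral_congr fun i => (hanti i).measure_iInter (fun n => (hD n i).nullMeasurableSet)
    ⟨0, measure_ne_top _ _⟩

include hμ in
lemma NN_le [IsFiniteMeasure μ] [StandardBorelSpace X]
    (hfree : ∀ g : Γ, g ≠ 1 → μ {x : X | g • x = x} = 0)
    {L : X → Subgroup (FreeGroup Γ)} (hL : GSub L) (hfin : EE μ L < ⊤) {S : Set X}
    (hS : MeasurableSet S) {w : ℕ → X → FreeGroup Γ} (hw : ∀ i g, MeasurableSet {x | w i x = g})
    (hwL : ∀ i x, w i x ∈ L x)
    (gen : ∀ x, L x ≤ Subgroup.closure (fam w x ∪ Cfg.loops c (L x) (Sx S x))) :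
    NN μ L ≤ 6 * (∑' i, μ {x | w i x ≠ 1} + nu μ L (fun x p => ind (c.loop p 1 ∈ L x ∧ x ∈ S))) := by
  let κ : X × Bool → ℝ := fun z => Real.exp (embeddingReal (X × Bool) z)
  have hκm : Measurable κ := (measurable_embeddingReal _).exp
  have hκi : Function.Injective κ :=
    Real.exp_injective.comp (measurableEmbedding_embeddingReal _).injective
  let J : ℝ → X → FreeGroup Γ → Γ × Bool → Prop := fun r x g s => g ∉ L x ∧ Hull (L x) g s ∧
    ∀ s', Hull (L x) g s' → κ (s.1 • x, s.2) ≤ κ (s'.1 • x, s'.2) + r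
  have hκ : ∀ r, Good Γ fun x (w : (Γ × Bool) × Γ × Bool) =>
      κ (w.1.1 • x, w.1.2) ≤ κ (w.2.1 • x, w.2.2) + r := fun r =>
    ⟨fun w => measurableSet_setOfPred.1 (measurableSet_le
      (hκm.comp ((hμ _).measurable.prodMk measurable_const))
      ((hκm.comp ((hμ _).measurable.prodMk measurable_const)).add_const _)),
      fun δ x w => by simp [mul_smul]⟩
  have hJ : ∀ r, Good Γ fun x (w : FreeGroup Γ × Γ × Bool) => J r x w.1 w.2 := fun r =>
    Good.and (hL.mem (by eqv)).not (Good.and (good_hull hL (by eqv) (by eqv))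
      (Good.all (Good.imp (good_hull hL (by eqv) (by eqv)) ((hκ r).comp
        (f := fun z : (FreeGroup Γ × Γ × Bool) × Γ × Bool => (z.1.2, z.2)) (by eqv)))))
  have hJi : ∀ r x, ∀ l ∈ L x, ∀ g s, J r x g s → J r x (l * g) s := by
    intro r x l hl g s h
    simpa only [J, hull_mul hl, (L x).mul_mem_cancel_left hl] using h
  have hJe : ∀ r, 0 < r → ∀ x g s, Hull (L x) g s → g ∉ L x → ∃ s', J r x g s' := by
    intro r hr x g s hs hg
    let T : Set ℝ := {y | ∃ s', Hull (L x) g s' ∧ y = κ (s'.1 • x, s'.2)}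
    have hb : BddBelow T := ⟨0, by rintro _ ⟨s', -, rfl⟩; exact (Real.exp_pos _).le⟩
    obtain ⟨_, ⟨s', h1, rfl⟩, h2⟩ := Real.lt_sInf_add_pos (s := T) ⟨_, s, hs, rfl⟩ hr
    exact ⟨s', hg, h1, fun s'' h3 => h2.le.trans (add_le_add_left (csInf_le hb ⟨s'', h3, rfl⟩) _)⟩
  have hJu : ∀ᵐ x ∂μ, ∀ g s s', J 0 x g s → J 0 x g s' → s = s' := by
    have : ∀ᵐ x ∂μ, ∀ γ : Γ, γ • x = x → γ = 1 := by
      rw [ae_all_iff]
      intro γ
      by_cases h : γ = 1
      · simp [h]
      · exact (measure_eq_zero_iff_ae_notMem.1 (hfree γ h)).mono fun x hx h' => (hx h').elim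
    filter_upwards [this] with x hx g s s' h h'
    have e := hκi (le_antisymm (by simpa using h.2.2 s' h'.2.1) (by simpa using h'.2.2 s h.2.1) :
      κ (s.1 • x, s.2) = κ (s'.1 • x, s'.2))
    simp only [Prod.mk.injEq] at e
    refine Prod.ext ?_ e.2
    have := hx (s'.1⁻¹ * s.1) (by rw [mul_smul, e.1, inv_smul_smul])
    exact (inv_mul_eq_one.1 this).symm
  have h1 := deg_le hμ hL (J 0) (hJ 0) (hJi 0) (fun x g s h => ⟨h.1, h.2.1⟩) hJu
  have h2 : nu μ L (fun x g => cd fun b => J 0 x g (1, b)) =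
      ⨅ n : ℕ, nu μ L (fun x g => cd fun b => J (1 / ((n : ℝ) + 1)) x g (1, b)) := by
    simp only [nu_cd_bool hL _ fun g b => (hJ _).meas (g, 1, b)]
    rw [← tsum_measure_iInter]
    · refine tsum_congr fun z => congrArg μ ?_
      ext x
      simp only [Set.mem_ofPred_eq, Set.mem_iInter]
      constructor
      · rintro ⟨a1, a2, a3, a4⟩ n
        exact ⟨a1, a2, a3, fun s' hs' => (a4 s' hs').trans (by gcongr; positivity)⟩
      · intro h
        refine ⟨(h 0).1, (h 0).2.1, (h 0).2.2.1, fun s' hs' => ?_⟩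
        rw [add_zero]
        refine le_of_forall_pos_le_add fun ε hε => ?_
        obtain ⟨n, hn⟩ := exists_nat_one_div_lt hε
        exact ((h n).2.2.2 s' hs').trans (by gcongr)
    · intro n z
      exact measurableSet_setOfPred.2 ((measurable_isName hL _).and ((hJ _).meas (z.1, 1, z.2)))
    · rintro z n m hnm x ⟨a1, a2, a3, a4⟩
      exact ⟨a1, a2, a3, fun s' hs' => (a4 s' hs').trans (by gcongr)⟩
    · rw [← nu_cd_bool hL _ fun g b => (hJ _).meas (g, 1, b)]
      refine ne_top_of_le_ne_top (b := 2 * EE μ L) (ENNReal.mul_ne_top (by simp) hfin.ne) ?_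
      rw [← nu_ends hL]
      exact nu_mono fun x g => cd_mono fun b h => h.2.1
  have h3 : EE μ L ≤ ∑' i, μ {x | w i x ≠ 1} +
      (nu μ L (fun x p => ind (c.loop p 1 ∈ L x ∧ x ∈ S)) +
        nu μ L (fun x g => cd fun b => J 0 x g (1, b))) := by
    rw [h2, ENNReal.add_iInf, ENNReal.add_iInf]
    exact le_iInf fun n => rank_app hμ c hL hS hw hwL gen _ (hJ _) (hJi _)
      (hJe _ Nat.one_div_pos_of_nat)
  generalize nu μ L (fun x g => cd fun b => J 0 x g (1, b)) = j at *
  have hj : 6 * j ≠ ⊤ :=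
    ne_top_of_le_ne_top (ENNReal.mul_ne_top (by simp) hfin.ne) (le_self_add.trans h1)
  rw [← ENNReal.add_le_add_iff_left hj]
  refine h1.trans ((mul_le_mul_right h3 _).trans (le_of_eq ?_))
  ring

end Crest.Agent.R191
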