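import Crest.Agent.R191.Defs

/-!
Row 191 (S0291): a subgroup whose hull is closed under completing cells and that surjects onto the
small cancellation group is everything (free completion of a folded graph to a covering space).
-/

set_option autoImplicit false
set_option linter.unusedSectionVars false

namespace Crest.Agent.R191

open FreeGroup

universe u v w

/-- Vertices of the completion. -/
inductive Vt (V : Type u) (A : Type v) (U : Type w) : Type (max u v w)
  | base (v : V) : Vt V A U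
  | tip (t : ℕ) (x : Vt V A U) (a : A) (d : Bool) : Vt V A U
  | arc (t : ℕ) (x : Vt V A U) (u : U) (j k : ℕ) : Vt V A U

variable {V : Type u} {A : Type v} {U : Type w}

/-- The stage at which a vertex is created. -/
def Vt.tag : Vt V A U → ℕ
  | .base _ => 0
  | .tip t _ _ _ => t + 1
  | .arc t _ _ _ _ => t + 1

/-- A labelled graph. -/
structure PG (V : Type u) (A : Type v) (U : Type w) where
  W : Vt V A U → Prop
  e : Vt V A U → A → Vt V A U → Prop

namespace PG

variable (c : Cfg A U) (G : PG V A U)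

/-- The corner of the relator `u` at position `n` and vertex `v` lies on a closed cell. -/
def Closed (v : Vt V A U) (u : U) (n : ℕ) : Prop :=
  ∃ f : ℕ → Vt V A U, f n = v ∧ (∀ k, f (k + c.ℓ) = f k) ∧ ∀ k, G.e (f k) (c.σ k u) (f (k + 1))

/-- There is a path of length `r` from `v` reading the relator `u` from position `n`. -/
def HasPath (u : U) : ℕ → Vt V A U → ℕ → Prop
  | 0, _, _ => True
  | r + 1, v, n => ∃ v', G.e v (c.σ n u) v' ∧ HasPath u r v' (n + 1)

/-- Folded graphs in which long relator paths close up. -/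
structure Good (t : ℕ) : Prop where
  src : ∀ {v a v'}, G.e v a v' → G.W v
  tgt : ∀ {v a v'}, G.e v a v' → G.W v'
  fwd : ∀ {v a v₁ v₂}, G.e v a v₁ → G.e v a v₂ → v₁ = v₂
  bwd : ∀ {v a v₁ v₂}, G.e v₁ a v → G.e v₂ a v → v₁ = v₂
  tag : ∀ {v}, G.W v → v.tag ≤ t
  clo : ∀ {u v n}, G.HasPath c u (c.ℓ - 2) v n → G.Closed c v u n

variable {c G}

lemma per_mod {Y : Type*} {f : ℕ → Y} {ℓ : ℕ} (hf : ∀ k, f (k + ℓ) = f k) (n : ℕ) :
    f (n % ℓ) = f n := by
  have : ∀ m k, f (k + m * ℓ) = f k := by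
    intro m k
    induction m with
    | zero => simp
    | succ m ih => rw [Nat.succ_mul, ← add_assoc, hf, ih]
  conv_rhs => rw [← Nat.mod_add_div' n ℓ, this]

lemma Closed.congr {v : Vt V A U} {u : U} {n n' : ℕ} (h : G.Closed c v u n)
    (hn : n % c.ℓ = n' % c.ℓ) : G.Closed c v u n' := by
  obtain ⟨f, h1, h2, h3⟩ := h
  exact ⟨f, by rw [← per_mod h2, ← hn, per_mod h2, h1], h2, h3⟩

lemma Closed.mono {G' : PG V A U} (hG : ∀ {v a v'}, G.e v a v' → G'.e v a v') {v : Vt V A U}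
    {u : U} {n : ℕ} (h : G.Closed c v u n) : G'.Closed c v u n := by
  obtain ⟨f, h1, h2, h3⟩ := h
  exact ⟨f, h1, h2, fun k => hG (h3 k)⟩

lemma Closed.next (fwd : ∀ {v a v₁ v₂}, G.e v a v₁ → G.e v a v₂ → v₁ = v₂) {v v' : Vt V A U}
    {u : U} {n : ℕ} (h : G.Closed c v u n) (he : G.e v (c.σ n u) v') :
    G.Closed c v' u (n + 1) := by
  obtain ⟨f, h1, h2, h3⟩ := h
  exact ⟨f, fwd (h1 ▸ h3 n) he, h2, h3⟩

lemma Closed.prev (bwd : ∀ {v a v₁ v₂}, G.e v₁ a v → G.e v₂ a v → v₁ = v₂) {v v' : Vt V A U}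
    {u : U} {n : ℕ} (h : G.Closed c v' u (n + 1)) (he : G.e v (c.σ n u) v') :
    G.Closed c v u n := by
  obtain ⟨f, h1, h2, h3⟩ := h
  exact ⟨f, bwd (h1 ▸ h3 n) he, h2, h3⟩

lemma HasPath.congr {u : U} {r : ℕ} : ∀ {v : Vt V A U} {n n' : ℕ}, G.HasPath c u r v n →
    n % c.ℓ = n' % c.ℓ → G.HasPath c u r v n' := by
  induction r with
  | zero => intros; trivial
  | succ r ih =>
    rintro v n n' ⟨v', h1, h2⟩ hn
    exact ⟨v', c.σ_congr hn u ▸ h1, ih h2 (by rw [Nat.add_mod, hn, ← Nat.add_mod])⟩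

variable (c G)

/-- A maximal relator path starts at `x`, at position `j + 1`. -/
def Start (x : Vt V A U) (u : U) (j : ℕ) : Prop :=
  j < c.ℓ ∧ G.W x ∧ ¬ ∃ y, G.e y (c.σ j u) x

open Classical in
/-- Following the relator `u` from `x` at position `n`. -/
noncomputable def fw (x : Vt V A U) (u : U) (n : ℕ) : ℕ → Vt V A U
  | 0 => x
  | k + 1 => if h : ∃ v', G.e (fw x u n k) (c.σ (n + k) u) v' then h.choose else x

open Classical in
/-- The length of the maximal path. -/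
noncomputable def len (x : Vt V A U) (u : U) (j : ℕ) : ℕ :=
  if h : ∃ k, ¬ ∃ v', G.e (G.fw c x u (j + 1) k) (c.σ (j + 1 + k) u) v' then Nat.find h else 0

/-- The vertices of the new cell. -/
noncomputable def cell (t : ℕ) (x : Vt V A U) (u : U) (j k : ℕ) : Vt V A U :=
  if k ≤ G.len c x u j then G.fw c x u (j + 1) k
  else if k = G.len c x u j + 1 then
    .tip t (G.fw c x u (j + 1) (G.len c x u j)) (c.σ (j + 1 + G.len c x u j) u) true
  else if k + 1 = c.ℓ then .tip t x (c.σ j u) false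
  else .arc t x u j k

/-- The next stage. -/
noncomputable def plus (t : ℕ) : PG V A U where
  W v := G.W v ∨ ∃ x u j k, G.Start c x u j ∧ v = G.cell c t x u j k
  e v a v' := G.e v a v' ∨ ∃ x u j k, G.Start c x u j ∧ G.len c x u j ≤ k ∧ k < c.ℓ ∧
    v = G.cell c t x u j k ∧ a = c.σ (j + 1 + k) u ∧ v' = G.cell c t x u j ((k + 1) % c.ℓ)

variable {c G}

lemma fw_edge {x : Vt V A U} {u : U} {n k : ℕ}
    (h : ∃ v', G.e (G.fw c x u n k) (c.σ (n + k) u) v') :
    G.e (G.fw c x u n k) (c.σ (n + k) u) (G.fw c x u n (k + 1)) := by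
  have : G.fw c x u n (k + 1) = h.choose := by rw [fw, dif_pos h]
  rw [this]
  exact h.choose_spec

lemma hasPath_of_fw {x : Vt V A U} {u : U} {n : ℕ} (r : ℕ) : ∀ k,
    (∀ i, k ≤ i → i < k + r → ∃ v', G.e (G.fw c x u n i) (c.σ (n + i) u) v') →
    G.HasPath c u r (G.fw c x u n k) (n + k) := by
  induction r with
  | zero => intros; trivial
  | succ r ih =>
    intro k h
    exact ⟨_, fw_edge (h k le_rfl (by omega)), ih (k + 1) fun i h1 h2 => h i (by omega) (by omega)⟩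

variable {t : ℕ} (hG : G.Good c t)
include hG

lemma Start.ex {x : Vt V A U} {u : U} {j : ℕ} (h : G.Start c x u j) :
    ∃ k, k + 3 ≤ c.ℓ ∧ ¬ ∃ v', G.e (G.fw c x u (j + 1) k) (c.σ (j + 1 + k) u) v' := by
  by_contra hc
  push Not at hc
  have h4 := c.four_le
  have := hasPath_of_fw (c := c) (G := G) (x := x) (u := u) (n := j + 1) (c.ℓ - 2) 0
    fun i _ h2 => hc i (by omega)
  obtain ⟨f, h1, -, h3⟩ := hG.clo this
  have h5 : f (j + 1) = x := h1
  exact h.2.2 ⟨f j, h5 ▸ h3 j⟩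

lemma Start.len_spec {x : Vt V A U} {u : U} {j : ℕ} (h : G.Start c x u j) :
    G.len c x u j + 3 ≤ c.ℓ ∧
    (¬ ∃ v', G.e (G.fw c x u (j + 1) (G.len c x u j)) (c.σ (j + 1 + G.len c x u j) u) v') ∧
    ∀ k, k < G.len c x u j →
      G.e (G.fw c x u (j + 1) k) (c.σ (j + 1 + k) u) (G.fw c x u (j + 1) (k + 1)) := by
  classical
  obtain ⟨k, hk, hk'⟩ := h.ex hG
  have hex : ∃ k, ¬ ∃ v', G.e (G.fw c x u (j + 1) k) (c.σ (j + 1 + k) u) v' := ⟨k, hk'⟩
  have e : G.len c x u j = Nat.find hex := by rw [len, dif_pos hex]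
  rw [e]
  refine ⟨le_trans (by have := Nat.find_min' hex hk'; omega) hk, Nat.find_spec hex, fun i hi => ?_⟩
  exact fw_edge (not_not.1 (Nat.find_min hex hi))

lemma Start.W_fw {x : Vt V A U} {u : U} {j : ℕ} (h : G.Start c x u j) {k : ℕ}
    (hk : k ≤ G.len c x u j) : G.W (G.fw c x u (j + 1) k) := by
  cases k with
  | zero => exact h.2.1
  | succ k => exact hG.tgt ((h.len_spec hG).2.2 k (by omega))

omit hG in
lemma cell_le {x : Vt V A U} {u : U} {j k : ℕ} (hk : k ≤ G.len c x u j) :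
    G.cell c t x u j k = G.fw c x u (j + 1) k := by rw [cell, if_pos hk]

omit hG in
lemma cell_zero {x : Vt V A U} {u : U} {j : ℕ} : G.cell c t x u j 0 = x := by
  rw [cell_le (Nat.zero_le _)]; rfl

omit hG in
lemma cell_cases {x : Vt V A U} {u : U} {j k : ℕ} (hk : G.len c x u j < k) :
    (k = G.len c x u j + 1 ∧ G.cell c t x u j k =
      .tip t (G.fw c x u (j + 1) (G.len c x u j)) (c.σ (j + 1 + G.len c x u j) u) true) ∨
    (k + 1 = c.ℓ ∧ G.cell c t x u j k = .tip t x (c.σ j u) false) ∨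
    (k ≠ G.len c x u j + 1 ∧ k + 1 ≠ c.ℓ ∧ G.cell c t x u j k = .arc t x u j k) := by
  rw [cell, if_neg (by omega)]
  split_ifs with h1 h2
  · exact .inl ⟨h1, rfl⟩
  · exact .inr (.inl ⟨h2, rfl⟩)
  · exact .inr (.inr ⟨h1, h2, rfl⟩)

omit hG in
lemma cell_tag {x : Vt V A U} {u : U} {j k : ℕ} (hk : G.len c x u j < k) :
    (G.cell c t x u j k).tag = t + 1 := by
  rcases cell_cases (t := t) hk with ⟨-, e⟩ | ⟨-, e⟩ | ⟨-, -, e⟩ <;> rw [e] <;> rfl

lemma le_len_of_W {x : Vt V A U} {u : U} {j k : ℕ} (h : G.W (G.cell c t x u j k)) :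
    k ≤ G.len c x u j := by
  by_contra hk
  have := hG.tag h
  rw [cell_tag (by omega)] at this
  omega

lemma Start.unique_aux {x x' : Vt V A U} {u : U} {j j' : ℕ} (h : G.Start c x u j)
    (h' : G.Start c x' u j') (hm : G.len c x u j ≤ G.len c x' u j')
    (he : G.fw c x u (j + 1) (G.len c x u j) = G.fw c x' u (j' + 1) (G.len c x' u j'))
    (hp : (j + 1 + G.len c x u j) % c.ℓ = (j' + 1 + G.len c x' u j') % c.ℓ) :
    x = x' ∧ j = j' := by
  set m := G.len c x u j with hm1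
  set m' := G.len c x' u j' with hm2
  obtain ⟨d, hd⟩ := Nat.exists_eq_add_of_le hm
  have hmod : ∀ i, (j + i) % c.ℓ = (j' + d + i) % c.ℓ := by
    intro i
    have h1 : j + 1 + m ≡ j' + d + 1 + m [MOD c.ℓ] := by
      unfold Nat.ModEq; rw [hp, hd]; congr 1; ring
    have h2 : j ≡ j' + d [MOD c.ℓ] := by
      have := Nat.ModEq.add_right_cancel' m h1
      exact Nat.ModEq.add_right_cancel' 1 this
    exact h2.add_right i
  have key : ∀ r k, k + r = m → G.fw c x u (j + 1) k = G.fw c x' u (j' + 1) (k + d) := by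
    intro r
    induction r with
    | zero => intro k hk; rw [add_zero] at hk; rw [hk, he, hd]
    | succ r ih =>
      intro k hk
      have e1 := (h.len_spec hG).2.2 k (by omega)
      have e2 := (h'.len_spec hG).2.2 (k + d) (by omega)
      rw [ih (k + 1) (by omega), c.σ_congr (m := j' + 1 + (k + d))
        (by have := hmod (1 + k); rw [← add_assoc] at this; rw [this]; congr 1; ring)] at e1
      rw [add_right_comm k 1 d] at e1
      exact hG.bwd e1 e2
  have k0 := key m 0 (by simp)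
  cases d with
  | zero =>
    refine ⟨k0, ?_⟩
    have := hmod 0
    simp only [add_zero] at this
    rwa [Nat.mod_eq_of_lt h.1, Nat.mod_eq_of_lt h'.1] at this
  | succ d =>
    exfalso
    apply h.2.2
    have e2 := (h'.len_spec hG).2.2 d (by omega)
    rw [zero_add] at k0
    rw [← k0, c.σ_congr (m := j) (by
      have := hmod 0; rw [add_zero] at this; rw [this]; congr 1; ring)] at e2
    exact ⟨_, e2⟩

lemma Start.unique {x x' : Vt V A U} {u : U} {j j' : ℕ} (h : G.Start c x u j)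
    (h' : G.Start c x' u j')
    (he : G.fw c x u (j + 1) (G.len c x u j) = G.fw c x' u (j' + 1) (G.len c x' u j'))
    (hp : (j + 1 + G.len c x u j) % c.ℓ = (j' + 1 + G.len c x' u j') % c.ℓ) :
    x = x' ∧ j = j' := by
  rcases le_total (G.len c x u j) (G.len c x' u j') with hm | hm
  · exact h.unique_aux hG h' hm he hp
  · obtain ⟨e1, e2⟩ := h'.unique_aux hG h hm he.symm hp.symm
    exact ⟨e1.symm, e2.symm⟩

lemma plus_fwd {v : Vt V A U} {a : A} {v₁ v₂ : Vt V A U} (h₁ : (G.plus c t).e v a v₁)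
    (h₂ : (G.plus c t).e v a v₂) : v₁ = v₂ := by
  have mixed : ∀ {v₁ v₂}, G.e v a v₁ → (∃ x u j k, G.Start c x u j ∧ G.len c x u j ≤ k ∧ k < c.ℓ ∧
      v = G.cell c t x u j k ∧ a = c.σ (j + 1 + k) u ∧
      v₂ = G.cell c t x u j ((k + 1) % c.ℓ)) → False := by
    rintro v₁ v₂ h₁ ⟨x, u, j, k, hs, hk, -, rfl, rfl, -⟩
    have hk' := le_antisymm (le_len_of_W hG (hG.src h₁)) hk
    subst hk'
    rw [cell_le le_rfl] at h₁
    exact (hs.len_spec hG).2.1 ⟨_, h₁⟩
  rcases h₁ with h₁ | h₁ <;> rcases h₂ with h₂ | h₂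
  · exact hG.fwd h₁ h₂
  · exact (mixed h₁ h₂).elim
  · exact (mixed h₂ h₁).elim
  obtain ⟨x, u, j, k, hs, hk, hkl, rfl, rfl, rfl⟩ := h₁
  obtain ⟨x', u', j', k', hs', hk', hkl', e, ea, rfl⟩ := h₂
  have hl := (hs.len_spec hG).1
  have hl' := (hs'.len_spec hG).1
  rcases hk.eq_or_lt with hk | hk
  · have hW : G.W (G.cell c t x u j k) := by
      rw [cell_le hk.ge]; exact hs.W_fw hG hk.ge
    have hk2 := le_antisymm (le_len_of_W hG (e ▸ hW)) hk'
    subst hk hk2
    rw [cell_le le_rfl, cell_le le_rfl] at e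
    rw [Nat.mod_eq_of_lt (by omega), Nat.mod_eq_of_lt (by omega), cell, cell, if_neg (by omega),
      if_pos rfl, if_neg (by omega), if_pos rfl, e, ea]
  rcases hk'.eq_or_lt with hk' | hk'
  · have hW : G.W (G.cell c t x' u' j' k') := by
      rw [cell_le hk'.ge]; exact hs'.W_fw hG hk'.ge
    have := le_len_of_W hG (e ▸ hW)
    omega
  rcases cell_cases (t := t) hk with ⟨h1, e1⟩ | ⟨h1, e1⟩ | ⟨-, -, e1⟩ <;>
    rcases cell_cases (t := t) hk' with ⟨h2, e2⟩ | ⟨h2, e2⟩ | ⟨-, -, e2⟩ <;>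
    rw [e1, e2] at e <;> simp only [Vt.tip.injEq, Vt.arc.injEq, reduceCtorEq, true_and, and_true,
      and_false, Bool.true_eq_false, Bool.false_eq_true] at e
  · subst h1 h2
    obtain ⟨rfl, hp⟩ := c.sc _ _ _ _ e.2 ea
    obtain ⟨rfl, rfl⟩ := hs.unique hG hs' e.1 hp
    rfl
  · rw [h1, h2, Nat.mod_self, cell_zero, cell_zero, e.1]
  · obtain ⟨rfl, rfl, rfl, rfl⟩ := e
    rfl

lemma plus_bwd {v : Vt V A U} {a : A} {v₁ v₂ : Vt V A U} (h₁ : (G.plus c t).e v₁ a v)
    (h₂ : (G.plus c t).e v₂ a v) : v₁ = v₂ := by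
  have last : ∀ {x u j k}, G.Start c x u j → G.len c x u j ≤ k → k < c.ℓ →
      G.W (G.cell c t x u j ((k + 1) % c.ℓ)) → k + 1 = c.ℓ := by
    intro x u j k hs hk hkl hW
    by_contra hne
    rw [Nat.mod_eq_of_lt (by omega)] at hW
    have := le_len_of_W hG hW
    omega
  have σlast : ∀ {u j k}, k + 1 = c.ℓ → c.σ (j + 1 + k) u = c.σ j u := by
    intro u j k hk
    rw [← c.per j u, ← hk]; congr 1; ring
  have mixed : ∀ {v₁ v₂}, G.e v₁ a v → (∃ x u j k, G.Start c x u j ∧ G.len c x u j ≤ k ∧ k < c.ℓ ∧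
      v₂ = G.cell c t x u j k ∧ a = c.σ (j + 1 + k) u ∧
      v = G.cell c t x u j ((k + 1) % c.ℓ)) → False := by
    rintro v₁ v₂ h₁ ⟨x, u, j, k, hs, hk, hkl, -, rfl, rfl⟩
    have hk' := last hs hk hkl (hG.tgt h₁)
    rw [hk', Nat.mod_self, cell_zero, σlast hk'] at h₁
    exact hs.2.2 ⟨_, h₁⟩
  rcases h₁ with h₁ | h₁ <;> rcases h₂ with h₂ | h₂
  · exact hG.bwd h₁ h₂
  · exact (mixed h₁ h₂).elim
  · exact (mixed h₂ h₁).elim
  obtain ⟨x, u, j, k, hs, hk, hkl, rfl, rfl, rfl⟩ := h₁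
  obtain ⟨x', u', j', k', hs', hk', hkl', rfl, ea, e⟩ := h₂
  have hl := (hs.len_spec hG).1
  have hl' := (hs'.len_spec hG).1
  by_cases h1 : k + 1 = c.ℓ
  · have h2 : k' + 1 = c.ℓ := by
      apply last hs' hk' hkl'
      rw [← e, h1, Nat.mod_self, cell_zero]; exact hs.2.1
    rw [h1, h2, Nat.mod_self, cell_zero, cell_zero] at e
    rw [σlast h1, σlast h2] at ea
    rw [cell, cell, if_neg (by omega), if_neg (by omega), if_pos h1, if_neg (by omega),
      if_neg (by omega), if_pos h2, e, ea]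
  have h2 : k' + 1 ≠ c.ℓ := by
    intro h2
    apply h1
    apply last hs hk hkl
    rw [e, h2, Nat.mod_self, cell_zero]; exact hs'.2.1
  rw [Nat.mod_eq_of_lt (by omega), Nat.mod_eq_of_lt (by omega)] at e
  rcases cell_cases (t := t) (Nat.lt_succ_of_le hk) with ⟨h3, e1⟩ | ⟨h3, e1⟩ | ⟨-, -, e1⟩ <;>
    rcases cell_cases (t := t) (Nat.lt_succ_of_le hk') with ⟨h4, e2⟩ | ⟨h4, e2⟩ | ⟨-, -, e2⟩ <;>
    simp only [Nat.succ_eq_add_one] at e1 e2 <;>
    rw [e1, e2] at e <;> simp only [Vt.tip.injEq, Vt.arc.injEq, reduceCtorEq, true_and, and_true,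
      and_false, Bool.true_eq_false, Bool.false_eq_true] at e
  · rw [cell_le (by omega), cell_le (by omega), show k = G.len c x u j by omega,
      show k' = G.len c x' u' j' by omega, e.1]
  · obtain ⟨rfl, e3⟩ := e
    have e4 : c.σ (j + 1 + k + 1) u = c.σ (j' + 1 + k' + 1) u' := by
      rw [add_assoc (j + 1), add_assoc (j' + 1), σlast h3, σlast h4, e3]
    obtain ⟨rfl, hp⟩ := c.sc _ _ _ _ ea e4
    have hkk : k = k' := by omega
    subst hkk
    have h5 : j ≡ j' [MOD c.ℓ] :=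
      Nat.ModEq.add_right_cancel' 1 (Nat.ModEq.add_right_cancel' k hp)
    have : j = j' := by
      unfold Nat.ModEq at h5
      rwa [Nat.mod_eq_of_lt hs.1, Nat.mod_eq_of_lt hs'.1] at h5
    subst this
    rfl
  · obtain ⟨rfl, rfl, rfl, e3⟩ := e
    rw [show k = k' by omega]

/-- The periodic parametrisation of a new cell. -/
lemma Start.cell_closed {x : Vt V A U} {u : U} {j : ℕ} (hs : G.Start c x u j) {k : ℕ}
    (hk : k < c.ℓ) : (G.plus c t).Closed c (G.cell c t x u j k) u (j + 1 + k) := by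
  have hj := hs.1
  have hl := (hs.len_spec hG).1
  refine ⟨fun n => G.cell c t x u j ((n + (c.ℓ - (j + 1))) % c.ℓ), ?_, ?_, ?_⟩
  · simp only
    rw [show j + 1 + k + (c.ℓ - (j + 1)) = k + c.ℓ by omega, Nat.add_mod_right,
      Nat.mod_eq_of_lt hk]
  · intro n
    simp only
    rw [add_right_comm, Nat.add_mod_right]
  · intro n
    simp only
    set i := (n + (c.ℓ - (j + 1))) % c.ℓ with hi
    have hil : i < c.ℓ := Nat.mod_lt _ c.ℓ_pos
    have e1 : (n + 1 + (c.ℓ - (j + 1))) % c.ℓ = (i + 1) % c.ℓ := by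
      rw [hi, Nat.mod_add_mod]; congr 1; ring
    have e2 : c.σ n u = c.σ (j + 1 + i) u := by
      apply c.σ_congr
      rw [hi, Nat.add_mod_mod, show j + 1 + (n + (c.ℓ - (j + 1))) = n + c.ℓ by omega,
        Nat.add_mod_right]
    rw [e1, e2]
    rcases lt_or_ge i (G.len c x u j) with h | h
    · left
      rw [Nat.mod_eq_of_lt (by omega), cell_le h.le, cell_le h]
      exact (hs.len_spec hG).2.2 i h
    · right
      exact ⟨x, u, j, i, hs, h, hil, rfl, rfl, rfl⟩

lemma plus_closed {v : Vt V A U} (hv : G.W v) (u : U) (n : ℕ) : (G.plus c t).Closed c v u n := by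
  have key : ∀ s r, r + s = c.ℓ - 2 → ∀ v n, G.W v → G.HasPath c u r v n →
      (G.plus c t).Closed c v u n := by
    intro s
    induction s with
    | zero =>
      intro r hr v n _ hp
      rw [add_zero] at hr
      subst hr
      exact (hG.clo hp).mono (G' := G.plus c t) Or.inl
    | succ s ih =>
      intro r hr v n hv hp
      have hℓ := c.ℓ_pos
      set j := (n + (c.ℓ - 1)) % c.ℓ with hj
      have hjn : (j + 1) % c.ℓ = n % c.ℓ := by
        rw [hj, Nat.mod_add_mod, show n + (c.ℓ - 1) + 1 = n + c.ℓ by omega, Nat.add_mod_right]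
      by_cases hy : ∃ y, G.e y (c.σ j u) v
      · obtain ⟨y, hy⟩ := hy
        have := ih (r + 1) (by omega) y j (hG.src hy) ⟨v, hy, hp.congr hjn.symm⟩
        exact (this.next (plus_fwd hG) (.inl hy)).congr hjn
      · have hs : G.Start c v u j := ⟨Nat.mod_lt _ hℓ, hv, hy⟩
        have := hs.cell_closed hG (k := 0) hℓ
        rw [cell_zero] at this
        exact this.congr hjn
  exact key (c.ℓ - 2) 0 (by simp) v n hv trivial

lemma plus_good : (G.plus c t).Good c (t + 1) where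
  src := by
    rintro v a v' (h | ⟨x, u, j, k, hs, -, -, rfl, -, -⟩)
    · exact .inl (hG.src h)
    · exact .inr ⟨x, u, j, k, hs, rfl⟩
  tgt := by
    rintro v a v' (h | ⟨x, u, j, k, hs, -, -, -, -, rfl⟩)
    · exact .inl (hG.tgt h)
    · exact .inr ⟨x, u, j, _, hs, rfl⟩
  fwd := plus_fwd hG
  bwd := plus_bwd hG
  tag := by
    rintro v (h | ⟨x, u, j, k, hs, rfl⟩)
    · exact (hG.tag h).trans (Nat.le_succ t)
    · rcases le_or_gt k (G.len c x u j) with h | h
      · rw [cell_le h]; exact (hG.tag (hs.W_fw hG h)).trans (Nat.le_succ t)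
      · rw [cell_tag h]
  clo := by
    intro u v n hp
    obtain ⟨r, hr⟩ : ∃ r, c.ℓ - 2 = r + 1 + 1 := ⟨c.ℓ - 4, by have := c.four_le; omega⟩
    rw [hr] at hp
    obtain ⟨v₁, e₁, v₂, e₂, -⟩ := hp
    by_cases hv : G.W v
    · exact plus_closed hG hv u n
    by_cases hv₁ : G.W v₁
    · exact (plus_closed hG hv₁ u (n + 1)).prev (plus_bwd hG) e₁
    by_cases hv₂ : G.W v₂
    · exact ((plus_closed hG hv₂ u (n + 1 + 1)).prev (plus_bwd hG) e₂).prev (plus_bwd hG) e₁
    rcases e₁ with e₁ | ⟨x, u₁, j, k, hs, hk, hkl, rfl, ea, rfl⟩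
    · exact (hv (hG.src e₁)).elim
    rcases e₂ with e₂ | ⟨x', u₂, j', k', hs', hk', hkl', e, ea', rfl⟩
    · exact (hv₁ (hG.src e₂)).elim
    have hk1 : k ≠ G.len c x u₁ j := by
      rintro rfl
      apply hv
      rw [cell_le le_rfl]; exact hs.W_fw hG le_rfl
    have hk2 : k + 1 ≠ c.ℓ := by
      intro h
      apply hv₁
      rw [h, Nat.mod_self, cell_zero]; exact hs.2.1
    have hk3 : k' ≠ G.len c x' u₂ j' := by
      rintro rfl
      apply hv₁
      rw [e, cell_le le_rfl]; exact hs'.W_fw hG le_rfl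
    have hk4 : k' + 1 ≠ c.ℓ := by
      intro h
      apply hv₂
      rw [h, Nat.mod_self, cell_zero]; exact hs'.2.1
    rw [Nat.mod_eq_of_lt (by omega)] at e
    rcases cell_cases (t := t) (Nat.lt_succ_of_le hk) with ⟨h3, e1⟩ | ⟨h3, e1⟩ | ⟨-, -, e1⟩
    · omega
    all_goals
      rcases cell_cases (t := t) (lt_of_le_of_ne hk' (Ne.symm hk3)) with
        ⟨h4, e2⟩ | ⟨h4, e2⟩ | ⟨-, -, e2⟩ <;>
      simp only [Nat.succ_eq_add_one] at e1 <;>
      rw [e1, e2] at e <;> simp only [Vt.tip.injEq, Vt.arc.injEq, reduceCtorEq, true_and, and_true,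
        and_false, Bool.false_eq_true] at e
    · exact (hk4 h4).elim
    · obtain ⟨rfl, rfl, rfl, rfl⟩ := e
      obtain ⟨rfl, hp⟩ := c.sc _ _ _ _ ea ea'
      exact (hs.cell_closed hG hkl).congr hp.symm

omit hG

variable (c G) in
/-- The stages of the completion. -/
noncomputable def stage : ℕ → PG V A U
  | 0 => G
  | t + 1 => (stage t).plus c t

lemma stage_good (h0 : G.Good c 0) : ∀ t, (G.stage c t).Good c t
  | 0 => h0
  | t + 1 => plus_good (stage_good h0 t)

lemma stage_mono {s t : ℕ} (hst : s ≤ t) {v : Vt V A U} {a : A} {v' : Vt V A U}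
    (h : (G.stage c s).e v a v') : (G.stage c t).e v a v' := by
  induction hst with
  | refl => exact h
  | step _ ih => exact .inl ih

variable (c G) in
/-- The completion. -/
def lim : PG V A U where
  W v := ∃ t, (G.stage c t).W v
  e v a v' := ∃ t, (G.stage c t).e v a v'

variable (h0 : G.Good c 0)
include h0

lemma lim_fwd {v : Vt V A U} {a : A} {v₁ v₂ : Vt V A U} (h₁ : (G.lim c).e v a v₁)
    (h₂ : (G.lim c).e v a v₂) : v₁ = v₂ := by
  obtain ⟨s, h₁⟩ := h₁
  obtain ⟨t, h₂⟩ := h₂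
  exact (stage_good h0 (max s t)).fwd (stage_mono (le_max_left _ _) h₁)
    (stage_mono (le_max_right _ _) h₂)

lemma lim_bwd {v : Vt V A U} {a : A} {v₁ v₂ : Vt V A U} (h₁ : (G.lim c).e v₁ a v)
    (h₂ : (G.lim c).e v₂ a v) : v₁ = v₂ := by
  obtain ⟨s, h₁⟩ := h₁
  obtain ⟨t, h₂⟩ := h₂
  exact (stage_good h0 (max s t)).bwd (stage_mono (le_max_left _ _) h₁)
    (stage_mono (le_max_right _ _) h₂)

lemma lim_closed {v : Vt V A U} (hv : (G.lim c).W v) (u : U) (n : ℕ) :
    (G.lim c).Closed c v u n := by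
  obtain ⟨t, hv⟩ := hv
  exact (plus_closed (stage_good h0 t) hv u n).mono (G' := G.lim c) fun h => ⟨t + 1, h⟩

lemma lim_out (a : A) (v : {v // (G.lim c).W v}) :
    ∃ v' : {v // (G.lim c).W v}, (G.lim c).e v a v' := by
  obtain ⟨u, rfl⟩ := c.surj a
  obtain ⟨f, h1, -, h3⟩ := lim_closed h0 v.2 u 0
  obtain ⟨t, ht⟩ := h3 0
  exact ⟨⟨f 1, t, (stage_good h0 t).tgt ht⟩, t, h1 ▸ ht⟩

lemma lim_in (a : A) (v : {v // (G.lim c).W v}) :
    ∃ v' : {v // (G.lim c).W v}, (G.lim c).e v' a v := by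
  obtain ⟨u, rfl⟩ := c.surj a
  obtain ⟨f, h1, -, h3⟩ := lim_closed h0 v.2 u 1
  obtain ⟨t, ht⟩ := h3 0
  exact ⟨⟨f 0, t, (stage_good h0 t).src ht⟩, t, h1 ▸ ht⟩

/-- The permutation of the completion given by a letter. -/
noncomputable def limPerm (a : A) : Equiv.Perm {v // (G.lim c).W v} where
  toFun v := (lim_out h0 a v).choose
  invFun v := (lim_in h0 a v).choose
  left_inv v := Subtype.ext (lim_bwd h0 (lim_in h0 a _).choose_spec (lim_out h0 a v).choose_spec)
  right_inv v := Subtype.ext (lim_fwd h0 (lim_out h0 a _).choose_spec (lim_in h0 a v).choose_spec)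

lemma limPerm_spec (a : A) (v : {v // (G.lim c).W v}) : (G.lim c).e v a (limPerm h0 a v) :=
  (lim_out h0 a v).choose_spec

lemma limPerm_eq {a : A} {v v' : {v // (G.lim c).W v}} (h : (G.lim c).e v a v') :
    limPerm h0 a v = v' := Subtype.ext (lim_fwd h0 (limPerm_spec h0 a v) h)

/-- The action of the free group on the completion. -/
noncomputable def limHom : FreeGroup A →* Equiv.Perm {v // (G.lim c).W v} :=
  FreeGroup.lift fun a => (limPerm h0 a)⁻¹

lemma limHom_mul_of (h : FreeGroup A) (a : A) (v : {v // (G.lim c).W v}) :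
    limHom h0 (h * of a)⁻¹ v = limPerm h0 a (limHom h0 h⁻¹ v) := by
  rw [mul_inv_rev, _root_.map_mul, _root_.map_inv _ (of a), limHom, lift_apply_of, inv_inv]
  rfl

lemma N_le_ker : c.N ≤ (limHom h0).ker := by
  apply Subgroup.normalClosure_le_normal
  rintro _ ⟨u, rfl⟩
  rw [SetLike.mem_coe, ← inv_mem_iff, MonoidHom.mem_ker]
  ext v
  obtain ⟨f, h1, h2, h3⟩ := lim_closed h0 v.2 u 0
  have key : ∀ k, (limHom h0 (c.wd u 0 k)⁻¹ v).1 = f k := by
    intro k
    induction k with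
    | zero => simp [h1]
    | succ k ih =>
      rw [Cfg.wd_succ, limHom_mul_of, zero_add]
      exact lim_fwd h0 (limPerm_spec h0 _ _) (ih ▸ h3 k)
  have := h2 0
  rw [zero_add] at this
  rw [Cfg.rel, key, this, h1]; rfl

end PG

section Main

variable [DecidableEq A] (c : Cfg A U) (L : Subgroup (FreeGroup A))

/-- The vertex of a coset. -/
def cosV (g : FreeGroup A) : Vt (Quotient (QuotientGroup.rightRel L)) A U :=
  .base (Quotient.mk _ g)

lemma cosV_eq {g g' : FreeGroup A} : (cosV L g : Vt _ A U) = cosV L g' ↔ g' * g⁻¹ ∈ L := by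
  rw [cosV, cosV, Vt.base.injEq, Quotient.eq, QuotientGroup.rightRel_apply]

/-- The quotient of the hull by the subgroup. -/
def hullG : PG (Quotient (QuotientGroup.rightRel L)) A U where
  W v := ∃ g, v = cosV L g
  e v a v' := ∃ g, Hull L g (a, true) ∧ v = cosV L g ∧ v' = cosV L (g * of a)

variable {c L}

lemma hull_of_hasPath {p : FreeGroup A} {u : U} (r : ℕ) : ∀ i,
    (hullG L).HasPath c u r (cosV L (c.vx p u i)) i →
    ∀ n, i ≤ n → n < i + r → Hull L (c.vx p u n) (c.σ n u, true) := by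
  induction r with
  | zero => intro i _ n h1 h2; omega
  | succ r ih =>
    rintro i ⟨v', ⟨g, hg, e1, rfl⟩, hp⟩ n h1 h2
    rw [cosV_eq] at e1
    rcases h1.eq_or_lt with rfl | h1
    · have := hg.mul (L.inv_mem e1)
      simpa using this
    · apply ih (i + 1) _ n h1 (by omega)
      have : (cosV L (c.vx p u (i + 1)) : Vt _ A U) = cosV L (g * of (c.σ i u)) := by
        rw [cosV_eq, Cfg.vx_succ]; simpa [mul_assoc] using e1
      rwa [this]

lemma hullG_good (hcl : ∀ p u, c.Avail L p u → c.loop p u ∈ L) :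
    (hullG L : PG _ A U).Good c 0 where
  src := by rintro v a v' ⟨g, -, rfl, -⟩; exact ⟨g, rfl⟩
  tgt := by rintro v a v' ⟨g, -, -, rfl⟩; exact ⟨_, rfl⟩
  fwd := by
    rintro v a v₁ v₂ ⟨g, -, rfl, rfl⟩ ⟨g', -, e, rfl⟩
    rw [cosV_eq] at e ⊢
    simpa [mul_assoc] using e
  bwd := by
    rintro v a v₁ v₂ ⟨g, -, rfl, rfl⟩ ⟨g', -, rfl, e⟩
    rw [cosV_eq] at e ⊢
    simpa [mul_assoc] using e
  tag := by rintro v ⟨g, rfl⟩; exact le_rfl
  clo := by
    intro u v n hp
    have h4 := c.four_le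
    obtain ⟨g, rfl⟩ : ∃ g, v = cosV L g := by
      obtain ⟨r, hr⟩ : ∃ r, c.ℓ - 2 = r + 1 := ⟨c.ℓ - 3, by omega⟩
      rw [hr] at hp
      obtain ⟨_, ⟨g, -, rfl, -⟩, -⟩ := hp
      exact ⟨g, rfl⟩
    set i := n % c.ℓ with hi
    have hin : i % c.ℓ = n % c.ℓ := Nat.mod_mod _ _
    set p := g * (c.wd u 0 i)⁻¹ with hpdef
    have hg : c.vx p u i = g := by simp [hpdef, Cfg.vx]
    have hp' := hp.congr hin.symm
    rw [← hg] at hp'
    have hl := hcl p u ⟨i, Nat.mod_lt _ c.ℓ_pos, fun m h1 h2 =>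
      hull_of_hasPath _ _ hp' m h1 (by omega)⟩
    refine PG.Closed.congr (n := i) ⟨fun k => cosV L (c.vx p u k), by simp only [hg], ?_, ?_⟩ hin
    · intro k
      simp only
      rw [cosV_eq, Cfg.vx_add_ℓ]
      simpa using hl
    · intro k
      exact ⟨_, c.hull_axis hl k, rfl, by simp only [Cfg.vx_succ]⟩

theorem Cfg.eq_top_of_closed (hcl : ∀ p u, c.Avail L p u → c.loop p u ∈ L)
    (hsurj : L ⊔ c.N = ⊤) : L = ⊤ := by
  have h0 := hullG_good hcl
  let b : FreeGroup A → {v // ((hullG L : PG _ A U).lim c).W v} := fun g => ⟨cosV L g, 0, g, rfl⟩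
  have hb : ∀ g a, Hull L g (a, true) → PG.limPerm h0 a (b g) = b (g * of a) :=
    fun g a h => PG.limPerm_eq h0 ⟨0, g, h, rfl, rfl⟩
  have hreach : ∀ g, Reach (Hull L) g → PG.limHom h0 g⁻¹ (b 1) = b g := by
    intro g hg
    induction hg with
    | one => simp
    | @step g s _ h2 ih =>
      rcases s with ⟨a, _ | _⟩
      · have h3 := hb _ _ (hull_symm L _ _ h2)
        have h4 := PG.limHom_mul_of h0 (g * el (a, false)) a (b 1)
        simp only [el_false, inv_mul_cancel_right] at h3 h4 ⊢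
        rw [ih, ← h3] at h4
        exact ((PG.limPerm h0 a).injective h4).symm
      · rw [el_true, PG.limHom_mul_of, ih, hb _ _ h2]
  let St : Subgroup (FreeGroup A) :=
    (MulAction.stabilizer (Equiv.Perm _) (b 1)).comap (PG.limHom h0)
  have h1 : L ≤ St := by
    intro g hg
    have := hreach _ (reach_hull_of_mem (L.inv_mem hg))
    rw [inv_inv] at this
    change PG.limHom h0 g (b 1) = b 1
    rw [this]
    apply Subtype.ext
    change cosV L _ = cosV L _
    rw [cosV_eq]; simpa using hg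
  have h2 : c.N ≤ St := by
    intro g hg
    change PG.limHom h0 g (b 1) = b 1
    rw [PG.N_le_ker h0 hg]; rfl
  have h3 : ∀ g, PG.limHom h0 g (b 1) = b 1 := fun g =>
    (sup_le h1 h2) (hsurj ▸ Subgroup.mem_top g)
  rw [eq_top_iff, ← FreeGroup.closure_range_of, Subgroup.closure_le]
  rintro _ ⟨a, rfl⟩
  have h4 := PG.limHom_mul_of h0 1 a (b 1)
  rw [h3, h3] at h4
  have h5 := PG.limPerm_spec h0 a (b 1)
  rw [← h4] at h5
  obtain ⟨u, rfl⟩ := c.surj a
  obtain ⟨f, f1, -, f3⟩ := PG.plus_closed h0 (v := cosV L 1) ⟨1, rfl⟩ u 0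
  have h6 := f3 0
  rw [f1] at h6
  have h7 : f (0 + 1) = cosV L 1 := PG.lim_fwd h0 ⟨1, h6⟩ h5
  rw [h7] at h6
  rcases h6 with ⟨g, -, e1, e2⟩ | ⟨x, u', j, k, hs, hk, hkl, e1, -, e2⟩
  · rw [cosV_eq] at e1 e2
    simp only [inv_one, mul_one] at e1 e2
    exact (L.mul_mem_cancel_left e1).1 e2
  · exfalso
    have hl := (hs.len_spec h0).1
    have hW : (hullG L : PG _ A U).W (cosV L 1) := ⟨1, rfl⟩
    have hk1 := PG.le_len_of_W h0 (e1 ▸ hW)
    have hk2 := PG.le_len_of_W h0 (e2 ▸ hW)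
    rw [Nat.mod_eq_of_lt (by omega)] at hk2
    omega

end Main

end Crest.Agent.R191
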