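import Crest.Agent.R191.Defs

/-!
Row 191 (S0291): the group `Gam ℓ = F *_K (K × ℤ)`, its small-cancellation data and the cocycle.
-/

set_option autoImplicit false
set_option linter.unusedSectionVars false

namespace Crest.Agent.R191

variable (ℓ : ℕ)

/-- The word `T (j+1) (T j)⁻¹ (T 0)⁻¹` in the free group; `none` is the generator `z`. -/
def kWord (j : ZMod ℓ) : FreeGroup (Option (ZMod ℓ)) :=
  FreeGroup.of (some (j + 1)) * (FreeGroup.of (some j))⁻¹ * (FreeGroup.of (some 0))⁻¹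

/-- The relators: `z` commutes with every `kWord j`. -/
def gamRels : Set (FreeGroup (Option (ZMod ℓ))) :=
  Set.range fun j : ZMod ℓ => FreeGroup.of none * kWord ℓ j * (FreeGroup.of none)⁻¹ * (kWord ℓ j)⁻¹

/-- The group. -/
def Gam : Type := PresentedGroup (gamRels ℓ)

noncomputable instance : Group (Gam ℓ) := inferInstanceAs (Group (PresentedGroup (gamRels ℓ)))

noncomputable instance : DecidableEq (Gam ℓ) := Classical.decEq _

instance countableZMod : Countable (ZMod ℓ) := by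
  cases ℓ with
  | zero => exact inferInstanceAs (Countable ℤ)
  | succ n => exact inferInstanceAs (Countable (Fin (n + 1)))

instance countableFreeGroup (A : Type*) [Countable A] : Countable (FreeGroup A) :=
  inferInstanceAs (Countable (Quot _))

instance : Countable (Gam ℓ) :=
  (PresentedGroup.mk_surjective (gamRels ℓ)).countable

namespace Gam

variable {ℓ}

/-- The generators `T j`; `T 0` is the letter `a`. -/
def T (j : ZMod ℓ) : Gam ℓ := PresentedGroup.of (rels := gamRels ℓ) (some j)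

/-- The generator `z`. -/
def z : Gam ℓ := PresentedGroup.of (rels := gamRels ℓ) none

/-- The generators of `K`. -/
noncomputable def kk (j : ZMod ℓ) : Gam ℓ := T (j + 1) * (T j)⁻¹ * (T 0)⁻¹

lemma T_succ (j : ZMod ℓ) : T (j + 1) = kk j * T 0 * T j := by simp [kk]

lemma z_comm (j : ZMod ℓ) : (z : Gam ℓ) * kk j = kk j * z := by
  have h : PresentedGroup.mk (gamRels ℓ) (FreeGroup.of none * kWord ℓ j * (FreeGroup.of none)⁻¹ *
      (kWord ℓ j)⁻¹) = 1 := PresentedGroup.one_of_mem ⟨j, rfl⟩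
  have h2 : (z : Gam ℓ) * kk j * z⁻¹ * (kk j)⁻¹ = 1 := by
    simp only [map_mul, map_inv, kWord] at h
    exact h
  calc (z : Gam ℓ) * kk j = (z * kk j * z⁻¹ * (kk j)⁻¹) * (kk j * z) := by group
    _ = _ := by rw [h2, one_mul]

/-- Homomorphisms out of `Gam ℓ`. -/
noncomputable def lift {H : Type*} [Group H] (t : ZMod ℓ → H) (y : H)
    (h : ∀ j, y * (t (j + 1) * (t j)⁻¹ * (t 0)⁻¹) = (t (j + 1) * (t j)⁻¹ * (t 0)⁻¹) * y) :
    Gam ℓ →* H :=
  PresentedGroup.toGroup (rels := gamRels ℓ) (f := fun o => o.elim y t) (by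
    rintro r ⟨j, rfl⟩
    simp only [kWord, map_mul, map_inv, FreeGroup.lift_apply_of, Option.elim]
    rw [h j]; group)

@[simp] lemma lift_T {H : Type*} [Group H] (t : ZMod ℓ → H) (y : H) (h) (j : ZMod ℓ) :
    lift t y h (T j) = t j := PresentedGroup.toGroup.of _

@[simp] lemma lift_z {H : Type*} [Group H] (t : ZMod ℓ → H) (y : H) (h) :
    lift t y h z = y := PresentedGroup.toGroup.of _

lemma mem_of_gen (H : Subgroup (Gam ℓ)) (hT : ∀ j, T j ∈ H) (hz : z ∈ H) (g : Gam ℓ) : g ∈ H :=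
  PresentedGroup.generated_by (gamRels ℓ) H (fun o => by
    cases o with
    | none => exact hz
    | some j => exact hT j) g

lemma fg [NeZero ℓ] : Group.FG (Gam ℓ) := by
  classical
  refine ⟨⟨insert z (Finset.univ.image T), ?_⟩⟩
  rw [eq_top_iff]
  intro g _
  apply mem_of_gen
  · intro j; exact Subgroup.subset_closure (by simp)
  · exact Subgroup.subset_closure (by simp)

/-- The retraction onto the free group on the `T j`. -/
noncomputable def retr : Gam ℓ →* FreeGroup (ZMod ℓ) := lift FreeGroup.of 1 (by simp)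

lemma lift_T_injective : Function.Injective (FreeGroup.lift (T (ℓ := ℓ))) := by
  have : (retr (ℓ := ℓ)).comp (FreeGroup.lift T) = MonoidHom.id _ := by
    ext j; simp [retr]
  apply Function.LeftInverse.injective (g := retr)
  intro x
  exact DFunLike.congr_fun this x

lemma T_corner (hℓ : 4 ≤ ℓ) {i j : ZMod ℓ} (h : T (i + 1) * (T i)⁻¹ = T (j + 1) * (T j)⁻¹) :
    i = j := by
  classical
  by_contra hne
  let φ : Gam ℓ →* Multiplicative ℤ :=
    lift (fun m => Multiplicative.ofAdd (if m = i then 1 else 0)) 1 (by simp)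
  have h1 := congrArg φ h
  have : Fact (1 < ℓ) := ⟨by omega⟩
  have hi : i + 1 ≠ i := by simp
  simp only [φ, map_mul, map_inv, lift_T, if_neg hi, if_true, if_neg (Ne.symm hne)] at h1
  rw [← ofAdd_neg, ← ofAdd_neg, ← ofAdd_add, ← ofAdd_add] at h1
  have h2 := Multiplicative.ofAdd.injective h1
  split_ifs at h2 <;> omega

/-- The small cancellation data of the group. -/
noncomputable def cfg (hℓ : 4 ≤ ℓ) : Cfg (Gam ℓ) (Gam ℓ) where
  ℓ := ℓ
  σ n u := T (n : ZMod ℓ) * u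
  four_le := hℓ
  per n u := by simp
  sc i j u u' h1 h2 := by
    have h3 : T ((i : ZMod ℓ) + 1) * (T (i : ZMod ℓ))⁻¹ = T ((j : ZMod ℓ) + 1) * (T (j : ZMod ℓ))⁻¹ := by
      push_cast at h2
      calc T ((i : ZMod ℓ) + 1) * (T (i : ZMod ℓ))⁻¹
          = (T ((i : ZMod ℓ) + 1) * u) * (T (i : ZMod ℓ) * u)⁻¹ := by group
        _ = _ := by rw [h1, h2]; group
    have h4 := T_corner hℓ h3
    refine ⟨?_, (ZMod.natCast_eq_natCast_iff' i j ℓ).1 h4⟩
    rw [h4] at h1
    exact mul_left_cancel h1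
  surj a := ⟨(T ((0 : ℕ) : ZMod ℓ))⁻¹ * a, by simp⟩

/-- Five of the `kk j` are free. -/
lemma lift_kk_injective (hℓ : 6 ≤ ℓ) :
    Function.Injective (FreeGroup.lift fun i : Fin 5 => kk (ℓ := ℓ) ((i : ℕ) : ZMod ℓ)) := by
  let y : ℕ → FreeGroup (Fin 5) := fun n => if h : n < 5 then FreeGroup.of ⟨n, h⟩ else 1
  let t : ℕ → FreeGroup (Fin 5) := fun n => Nat.rec 1 (fun m r => y m * r) n
  let φ : Gam ℓ →* FreeGroup (Fin 5) := lift (fun j => t j.val) 1 (by simp)
  have : NeZero ℓ := ⟨by omega⟩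
  have : φ.comp (FreeGroup.lift fun i : Fin 5 => kk (ℓ := ℓ) ((i : ℕ) : ZMod ℓ)) =
      MonoidHom.id _ := by
    ext i
    have hi := i.2
    have e1 : (((i : ℕ) : ZMod ℓ) + 1).val = i + 1 := by
      rw [← Nat.cast_succ, ZMod.val_natCast_of_lt (by omega)]
    have e2 : ((i : ℕ) : ZMod ℓ).val = i := ZMod.val_natCast_of_lt (by omega)
    simp only [MonoidHom.comp_apply, FreeGroup.lift_apply_of, kk, map_mul, map_inv, φ, lift_T, e1, e2,
      ZMod.val_zero, MonoidHom.id_apply]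
    simp [t, y]
  apply Function.LeftInverse.injective (g := φ)
  intro x
  exact DFunLike.congr_fun this x

end Gam

section Shift

variable {Γ : Type*} [Group Γ]

/-- Change of viewpoint: the letter `η` seen from `δ • x` is the letter `η * δ` seen from `x`. -/
def rho (δ : Γ) : FreeGroup Γ →* FreeGroup Γ := FreeGroup.map (· * δ)

@[simp] lemma rho_of (δ η : Γ) : rho δ (FreeGroup.of η) = FreeGroup.of (η * δ) := by simp [rho]

lemma rho_rho (δ δ' : Γ) (g : FreeGroup Γ) : rho δ (rho δ' g) = rho (δ' * δ) g := by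
  have : (rho δ).comp (rho δ') = rho (δ' * δ) := by ext; simp [mul_assoc]
  exact DFunLike.congr_fun this g

@[simp] lemma rho_one (g : FreeGroup Γ) : rho (1 : Γ) g = g := by
  have : rho (1 : Γ) = MonoidHom.id _ := by ext; simp
  rw [this]; rfl

@[simp] lemma rho_rho_inv (δ : Γ) (g : FreeGroup Γ) : rho δ (rho δ⁻¹ g) = g := by
  simp [rho_rho]

@[simp] lemma rho_inv_rho (δ : Γ) (g : FreeGroup Γ) : rho δ⁻¹ (rho δ g) = g := by
  simp [rho_rho]

lemma rho_injective (δ : Γ) : Function.Injective (rho δ) :=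
  Function.LeftInverse.injective (rho_inv_rho δ)

lemma rho_surjective (δ : Γ) : Function.Surjective (rho δ) :=
  Function.RightInverse.surjective (rho_rho_inv δ)

lemma rho_wd (c : Cfg Γ Γ) (hc : ∀ n u δ, c.σ n (u * δ) = c.σ n u * δ) (δ u : Γ) (i k : ℕ) :
    rho δ (c.wd u i k) = c.wd (u * δ) i k := by
  induction k with
  | zero => simp
  | succ k ih => rw [Cfg.wd_succ, Cfg.wd_succ, map_mul, ih, rho_of, hc]

lemma rho_mem_N (c : Cfg Γ Γ) (hc : ∀ n u δ, c.σ n (u * δ) = c.σ n u * δ) (δ : Γ)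
    {g : FreeGroup Γ} (hg : g ∈ c.N) : rho δ g ∈ c.N := by
  have : c.N ≤ c.N.comap (rho δ) := by
    apply Subgroup.normalClosure_le_normal
    rintro _ ⟨u, rfl⟩
    simp only [SetLike.mem_coe, Subgroup.mem_comap, Cfg.rel, rho_wd c hc]
    exact Subgroup.subset_normalClosure ⟨u * δ, rfl⟩
  exact this hg

end Shift

namespace Gam

variable {ℓ} (hℓ : 4 ≤ ℓ)

lemma cfg_σ_mul (n : ℕ) (u δ : Gam ℓ) : (cfg hℓ).σ n (u * δ) = (cfg hℓ).σ n u * δ := by
  simp [cfg, mul_assoc]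

/-- The small cancellation group. -/
abbrev GG : Type := FreeGroup (Gam ℓ) ⧸ (cfg hℓ).N

/-- Change of viewpoint on the small cancellation group. -/
noncomputable def rhoG (δ : Gam ℓ) : GG hℓ →* GG hℓ :=
  QuotientGroup.map _ _ (rho δ) fun _ hg => rho_mem_N _ (cfg_σ_mul hℓ) δ hg

@[simp] lemma rhoG_mk (δ : Gam ℓ) (g : FreeGroup (Gam ℓ)) :
    rhoG hℓ δ (QuotientGroup.mk g) = QuotientGroup.mk (rho δ g) := rfl

lemma rhoG_rhoG (δ δ' : Gam ℓ) (g : GG hℓ) : rhoG hℓ δ (rhoG hℓ δ' g) = rhoG hℓ (δ' * δ) g := by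
  induction g using QuotientGroup.induction_on with
  | H g => simp [rho_rho]

@[simp] lemma rhoG_one (g : GG hℓ) : rhoG hℓ 1 g = g := by
  induction g using QuotientGroup.induction_on with
  | H g => simp

/-- The permutation of `GG × Gam` given by a group element `s` and a cocycle value `b`. -/
noncomputable def cocPerm (s : Gam ℓ) (b : GG hℓ) : Equiv.Perm (GG hℓ × Gam ℓ) where
  toFun p := (p.1 * rhoG hℓ p.2 b, s * p.2)
  invFun p := (p.1 * (rhoG hℓ (s⁻¹ * p.2) b)⁻¹, s⁻¹ * p.2)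
  left_inv p := by simp
  right_inv p := by simp

lemma cocPerm_mul (s s' : Gam ℓ) (b b' : GG hℓ) :
    cocPerm hℓ s b * cocPerm hℓ s' b' = cocPerm hℓ (s * s') (b' * rhoG hℓ s' b) := by
  ext p <;> simp [cocPerm, rhoG_rhoG, mul_assoc]

lemma cocPerm_one : cocPerm hℓ 1 1 = 1 := by
  ext p <;> simp [cocPerm]

lemma cocPerm_inv (s : Gam ℓ) (b : GG hℓ) :
    (cocPerm hℓ s b)⁻¹ = cocPerm hℓ s⁻¹ (rhoG hℓ s⁻¹ b)⁻¹ := by
  rw [inv_eq_iff_mul_eq_one, cocPerm_mul]
  simp [cocPerm_one]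

/-- The cocycle value of `T j`. -/
noncomputable def bT (j : ZMod ℓ) : GG hℓ :=
  QuotientGroup.mk (FreeGroup.of 1 * (cfg hℓ).wd 1 0 j.val)

lemma bT_succ (j : ZMod ℓ) : bT hℓ (j + 1) = bT hℓ j * rhoG hℓ (T j) (bT hℓ 0) := by
  have : NeZero ℓ := ⟨by omega⟩
  have hj := j.val_lt
  have e0 : rhoG hℓ (T j) (bT hℓ 0) = QuotientGroup.mk (FreeGroup.of (T j)) := by
    simp [bT]
  have e1 : bT hℓ j * rhoG hℓ (T j) (bT hℓ 0) =
      QuotientGroup.mk (FreeGroup.of 1 * (cfg hℓ).wd 1 0 (j.val + 1)) := by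
    rw [e0, bT, ← QuotientGroup.mk_mul, Cfg.wd_succ, mul_assoc]
    simp [cfg]
  rw [e1]
  have : Fact (1 < ℓ) := ⟨by omega⟩
  rcases Nat.lt_or_ge (j.val + 1) ℓ with h | h
  · have : (j + 1).val = j.val + 1 := by
      rw [ZMod.val_add_of_lt] <;> rw [ZMod.val_one]
      exact h
    rw [bT, this]
  · have h' : j.val + 1 = ℓ := by omega
    have : (j + 1).val = 0 := by
      rw [ZMod.val_add, ZMod.val_one, h', Nat.mod_self]
    rw [bT, this, h', QuotientGroup.mk_mul, QuotientGroup.mk_mul]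
    congr 1
    rw [eq_comm, Cfg.wd_zero, QuotientGroup.mk_one, QuotientGroup.eq_one_iff]
    exact Subgroup.subset_normalClosure ⟨1, rfl⟩

lemma cocPerm_kk (j : ZMod ℓ) :
    cocPerm hℓ (T (j + 1)) (bT hℓ (j + 1)) * (cocPerm hℓ (T j) (bT hℓ j))⁻¹ *
      (cocPerm hℓ (T 0) (bT hℓ 0))⁻¹ = cocPerm hℓ (kk j) 1 := by
  rw [mul_inv_eq_iff_eq_mul, mul_inv_eq_iff_eq_mul, cocPerm_mul, cocPerm_mul, ← T_succ, bT_succ]
  simp

/-- The action of the group on `GG × Gam` that defines the cocycle. -/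
noncomputable def cocHom : Gam ℓ →* Equiv.Perm (GG hℓ × Gam ℓ) :=
  lift (fun j => cocPerm hℓ (T j) (bT hℓ j)) (cocPerm hℓ z 1) (by
    intro j
    rw [cocPerm_kk, cocPerm_mul, cocPerm_mul, z_comm]; simp)

/-- The cocycle. -/
noncomputable def beta (γ : Gam ℓ) : GG hℓ := (cocHom hℓ γ (1, 1)).1

lemma cocHom_eq (γ : Gam ℓ) : cocHom hℓ γ = cocPerm hℓ γ (beta hℓ γ) := by
  have : ∃ b, cocHom hℓ γ = cocPerm hℓ γ b := by
    let H : Subgroup (Gam ℓ) :=
      { carrier := {γ | ∃ b, cocHom hℓ γ = cocPerm hℓ γ b}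
        one_mem' := ⟨1, by rw [map_one, cocPerm_one]⟩
        mul_mem' := by
          rintro a b ⟨x, hx⟩ ⟨y, hy⟩
          exact ⟨_, by rw [map_mul, hx, hy, cocPerm_mul]⟩
        inv_mem' := by
          rintro a ⟨x, hx⟩
          exact ⟨_, by rw [map_inv, hx, cocPerm_inv]⟩ }
    exact mem_of_gen H (fun j => ⟨_, lift_T _ _ _ j⟩) ⟨_, lift_z _ _ _⟩ γ
  obtain ⟨b, hb⟩ := this
  rw [beta, hb]
  simp [cocPerm]

lemma beta_of_eq {γ : Gam ℓ} {b : GG hℓ} (h : cocHom hℓ γ = cocPerm hℓ γ b) : beta hℓ γ = b := by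
  rw [beta, h]; simp [cocPerm]

lemma beta_mul (γ δ : Gam ℓ) : beta hℓ (γ * δ) = beta hℓ δ * rhoG hℓ δ (beta hℓ γ) :=
  beta_of_eq hℓ (by rw [map_mul, cocHom_eq, cocHom_eq, cocPerm_mul])

lemma beta_one : beta hℓ 1 = 1 := beta_of_eq hℓ (by rw [map_one, cocPerm_one])

lemma beta_T_zero : beta hℓ (T 0) = QuotientGroup.mk (FreeGroup.of 1) := by
  rw [beta_of_eq hℓ (b := bT hℓ 0) (lift_T _ _ _ _)]; simp [bT]

lemma beta_kk (j : ZMod ℓ) : beta hℓ (kk j) = 1 :=
  beta_of_eq hℓ (by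
    rw [← cocPerm_kk]
    simp only [kk, map_mul, map_inv, cocHom, lift_T])

end Gam

end Crest.Agent.R191
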