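import Crest.Agent.R191.Cut
import Crest.Agent.R191.Grp

/-!
Row 191 (S0291): measurable equivariant predicates.
-/

set_option autoImplicit false
set_option linter.unusedSectionVars false

namespace Crest.Agent.R191

open FreeGroup

/-- Change of viewpoint on a parameter type. -/
class RA (Γ : Type*) (Z : Type*) where
  act : Γ → Z → Z
  surj : ∀ δ, Function.Surjective (act δ)
  inj : ∀ δ, Function.Injective (act δ)

variable {Γ : Type*} [Group Γ]

instance : RA Γ Γ := ⟨fun δ η => η * δ, fun δ => mul_right_surjective δ, fun δ => mul_left_injective δ⟩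
instance : RA Γ (FreeGroup Γ) := ⟨fun δ => rho δ, rho_surjective, rho_injective⟩
instance : RA Γ Bool := ⟨fun _ b => b, fun _ => Function.surjective_id, fun _ => Function.injective_id⟩
instance {Z Z' : Type*} [RA Γ Z] [RA Γ Z'] : RA Γ (Z × Z') :=
  ⟨fun δ w => (RA.act δ w.1, RA.act δ w.2), fun δ => (RA.surj δ).prodMap (RA.surj δ),
    fun δ => (RA.inj δ).prodMap (RA.inj δ)⟩
instance {Z : Type*} [RA Γ Z] : RA Γ (List Z) :=
  ⟨fun δ => List.map (RA.act δ), fun δ => (RA.surj δ).list_map, fun δ => (RA.inj δ).list_map⟩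

@[simp] lemma act_grp (δ η : Γ) : RA.act δ η = η * δ := rfl
@[simp] lemma act_free (δ : Γ) (g : FreeGroup Γ) : RA.act δ g = rho δ g := rfl
@[simp] lemma act_bool (δ : Γ) (b : Bool) : RA.act δ b = b := rfl
@[simp] lemma act_prod {Z Z' : Type*} [RA Γ Z] [RA Γ Z'] (δ : Γ) (w : Z × Z') :
    RA.act δ w = (RA.act δ w.1, RA.act δ w.2) := rfl
@[simp] lemma act_list {Z : Type*} [RA Γ Z] (δ : Γ) (l : List Z) :
    RA.act δ l = l.map (RA.act δ) := rfl

/-- Small cancellation data compatible with the change of viewpoint. -/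
class Cfg.RI (c : Cfg Γ Γ) : Prop where
  σ_mul : ∀ n u δ, c.σ n (u * δ) = c.σ n u * δ

section

variable (c : Cfg Γ Γ) [hc : c.RI]

@[simp] lemma Cfg.σ_mul' (n : ℕ) (u δ : Γ) : c.σ n (u * δ) = c.σ n u * δ := hc.σ_mul n u δ

@[simp] lemma Cfg.rho_wd' (δ u : Γ) (i k : ℕ) : rho δ (c.wd u i k) = c.wd (u * δ) i k :=
  rho_wd c hc.σ_mul δ u i k

@[simp] lemma Cfg.rho_vx (δ : Γ) (p : FreeGroup Γ) (u : Γ) (n : ℕ) :
    rho δ (c.vx p u n) = c.vx (rho δ p) (u * δ) n := by simp [Cfg.vx]

@[simp] lemma Cfg.rho_loop (δ : Γ) (p : FreeGroup Γ) (u : Γ) :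
    rho δ (c.loop p u) = c.loop (rho δ p) (u * δ) := by simp [Cfg.loop, Cfg.rel]

@[simp] lemma Cfg.rho_byp [DecidableEq Γ] (δ u : Γ) (k : ℕ) :
    rho δ (c.byp u k) = c.byp (u * δ) k := by
  simp [Cfg.byp]

end

@[simp] lemma rho_el (δ : Γ) (s : Γ × Bool) : rho δ (el s) = el (s.1 * δ, s.2) := by
  rcases s with ⟨a, _ | _⟩ <;> simp

lemma toWord_rho [DecidableEq Γ] (δ : Γ) (g : FreeGroup Γ) :
    (rho δ g).toWord = g.toWord.map fun s => (s.1 * δ, s.2) := by
  conv_lhs => rw [← mk_toWord (x := g)]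
  rw [rho, FreeGroup.map.mk, toWord_mk]
  apply IsReduced.reduce_eq
  have : FreeGroup.IsReduced g.toWord := isReduced_toWord
  unfold FreeGroup.IsReduced at this ⊢
  rw [List.isChain_map]
  exact this.imp fun a b h h' => h (mul_right_cancel h')

lemma norm_rho [DecidableEq Γ] (δ : Γ) (g : FreeGroup Γ) : norm (rho δ g) = norm g := by
  simp [FreeGroup.norm, toWord_rho]

lemma sep_rho [DecidableEq Γ] (δ : Γ) (g h : FreeGroup Γ) (s : Γ × Bool) :
    Sep (rho δ g) (s.1 * δ, s.2) (rho δ h) ↔ Sep g s h := by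
  unfold Sep St
  rw [← _root_.map_inv, ← _root_.map_mul, toWord_rho, List.head?_map]
  cases (g⁻¹ * h).toWord.head? with
  | none => simp
  | some t =>
    simp only [Option.map_some, Option.some.injEq, Prod.mk.injEq, mul_left_inj]
    exact ⟨fun h => Prod.ext h.1 h.2, fun h => h ▸ ⟨rfl, rfl⟩⟩

variable (Γ) in
/-- Equivariant maps of parameter types. -/
def Eqv {Z Z' : Type*} [RA Γ Z] [RA Γ Z'] (f : Z → Z') : Prop :=
  ∀ (δ : Γ) z, f (RA.act δ z) = RA.act δ (f z)

/-- Proves `Eqv` goals. -/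
macro "eqv" : tactic => `(tactic| (intro δ z; first | rfl | simp [mul_assoc]))

variable {X : Type*} [MeasurableSpace X] [MulAction Γ X]

variable (Γ) in
/-- Measurable equivariant predicates. -/
structure Good {Z : Type*} [RA Γ Z] (Q : X → Z → Prop) : Prop where
  meas : ∀ z, Measurable fun x => Q x z
  equi : ∀ (δ : Γ) x z, Q (δ • x) z ↔ Q x (RA.act δ z)

namespace Good

variable {Z Z' : Type*} [RA Γ Z] [RA Γ Z'] {P Q : X → Z → Prop}

lemma and (hP : Good Γ P) (hQ : Good Γ Q) : Good Γ fun x z => P x z ∧ Q x z :=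
  ⟨fun z => (hP.meas z).and (hQ.meas z), fun δ x z => by rw [hP.equi, hQ.equi]⟩

lemma or (hP : Good Γ P) (hQ : Good Γ Q) : Good Γ fun x z => P x z ∨ Q x z :=
  ⟨fun z => (hP.meas z).or (hQ.meas z), fun δ x z => by rw [hP.equi, hQ.equi]⟩

lemma imp (hP : Good Γ P) (hQ : Good Γ Q) : Good Γ fun x z => P x z → Q x z :=
  ⟨fun z => (hP.meas z).imp (hQ.meas z), fun δ x z => by rw [hP.equi, hQ.equi]⟩

lemma not (hP : Good Γ P) : Good Γ fun x z => ¬ P x z :=
  ⟨fun z => (hP.meas z).not, fun δ x z => by rw [hP.equi]⟩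

lemma ex [Countable Z'] {R : X → Z → Z' → Prop}
    (h : Good Γ fun x (w : Z × Z') => R x w.1 w.2) : Good Γ fun x z => ∃ z', R x z z' :=
  ⟨fun z => Measurable.exists fun z' => h.meas (z, z'), fun δ x z => by
    rw [(RA.surj (Z := Z') δ).exists (p := fun z' => R x (RA.act δ z) z')]
    exact exists_congr fun z' => h.equi δ x (z, z')⟩

lemma all [Countable Z'] {R : X → Z → Z' → Prop}
    (h : Good Γ fun x (w : Z × Z') => R x w.1 w.2) : Good Γ fun x z => ∀ z', R x z z' :=
  ⟨fun z => Measurable.forall fun z' => h.meas (z, z'), fun δ x z => by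
    rw [(RA.surj (Z := Z') δ).forall (p := fun z' => R x (RA.act δ z) z')]
    exact forall_congr' fun z' => h.equi δ x (z, z')⟩

lemma ex' {T : Type*} [Countable T] {R : X → Z → T → Prop}
    (h : ∀ t, Good Γ fun x z => R x z t) : Good Γ fun x z => ∃ t, R x z t :=
  ⟨fun z => Measurable.exists fun t => (h t).meas z,
    fun δ x z => exists_congr fun t => (h t).equi δ x z⟩

lemma all' {T : Type*} [Countable T] {R : X → Z → T → Prop}
    (h : ∀ t, Good Γ fun x z => R x z t) : Good Γ fun x z => ∀ t, R x z t :=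
  ⟨fun z => Measurable.forall fun t => (h t).meas z,
    fun δ x z => forall_congr' fun t => (h t).equi δ x z⟩

lemma const (R : Prop) : Good Γ fun (_ : X) (_ : Z) => R :=
  ⟨fun _ => measurable_const, fun _ _ _ => Iff.rfl⟩

lemma pure {R : Z → Prop} (h : ∀ (δ : Γ) z, R z ↔ R (RA.act δ z)) : Good Γ fun (_ : X) z => R z :=
  ⟨fun _ => measurable_const, fun δ _ z => h δ z⟩

lemma comp (hP : Good Γ P) {f : Z' → Z} (hf : Eqv Γ f) : Good Γ fun x z => P x (f z) :=
  ⟨fun z => hP.meas _, fun δ x z => by rw [hP.equi, hf]⟩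

lemma eq {f g : Z → Z'} (hf : Eqv Γ f) (hg : Eqv Γ g) : Good Γ fun (_ : X) z => f z = g z :=
  pure fun δ z => by rw [hf, hg, (RA.inj δ).eq_iff]

lemma congr (hP : Good Γ P) (h : ∀ x z, Q x z ↔ P x z) : Good Γ Q := by
  have : Q = P := by funext x z; exact propext (h x z)
  rwa [this]

lemma sep [DecidableEq Γ] {g h : Z → FreeGroup Γ} {s : Z → Γ × Bool} (hg : Eqv Γ g)
    (hs : Eqv Γ s) (hh : Eqv Γ h) : Good Γ fun (_ : X) z => Sep (g z) (s z) (h z) :=
  pure fun δ z => by rw [hg, hs, hh]; exact (sep_rho δ _ _ _).symm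

end Good

/-- Measurable equivariant fields of subgroups. -/
abbrev GSub (L : X → Subgroup (FreeGroup Γ)) : Prop := Good Γ fun x (g : FreeGroup Γ) => g ∈ L x

/-- Measurable equivariant fields of sets of types. -/
abbrev GSet (S : X → Set Γ) : Prop := Good Γ fun x (u : Γ) => u ∈ S x

lemma GSub.mem {Z : Type*} [RA Γ Z] {L : X → Subgroup (FreeGroup Γ)} (hL : GSub L)
    {g : Z → FreeGroup Γ} (hg : Eqv Γ g) : Good Γ fun x z => g z ∈ L x := hL.comp hg

lemma GSet.mem {Z : Type*} [RA Γ Z] {S : X → Set Γ} (hS : GSet S)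
    {g : Z → Γ} (hg : Eqv Γ g) : Good Γ fun x z => g z ∈ S x := hS.comp hg

/-- One step of the decomposition of a `Good` goal along the logical structure. -/
macro "good_step" : tactic => `(tactic| first
  | with_reducible exact Good.const _
  | with_reducible apply Good.and
  | with_reducible apply Good.or
  | with_reducible apply Good.not
  | with_reducible apply Good.ex
  | (with_reducible apply Good.ex'; intro _)
  | with_reducible apply Good.imp
  | with_reducible apply Good.all
  | (with_reducible apply Good.all'; intro _)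
  | exact Good.eq (by eqv) (by eqv)
  | exact Good.sep (by eqv) (by eqv) (by eqv)
  | exact GSub.mem (by assumption) (by eqv)
  | exact GSet.mem (by assumption) (by eqv))

variable [Countable Γ] [DecidableEq Γ]

lemma mem_closure_iff_list {G : Type*} [Group G] {T : Set G} {g : G} :
    g ∈ Subgroup.closure T ↔ ∃ l : List G, (∀ y, y ∈ l → y ∈ T ∨ y⁻¹ ∈ T) ∧ l.prod = g := by
  constructor
  · intro h
    rw [← Subgroup.mem_toSubmonoid, Subgroup.closure_toSubmonoid] at h
    obtain ⟨l, h1, h2⟩ := Submonoid.exists_list_of_mem_closure h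
    exact ⟨l, fun y hy => by simpa using h1 y hy, h2⟩
  · rintro ⟨l, h1, rfl⟩
    apply Subgroup.list_prod_mem
    intro y hy
    rcases h1 y hy with h | h
    · exact Subgroup.subset_closure h
    · exact (Subgroup.inv_mem_iff _).1 (Subgroup.subset_closure h)

lemma gsub_closure {T : X → Set (FreeGroup Γ)} (hT : Good Γ fun x (g : FreeGroup Γ) => g ∈ T x) :
    GSub fun x => Subgroup.closure (T x) := by
  refine Good.congr ?_ fun x z => mem_closure_iff_list
  refine Good.ex (Good.and (Good.all (Good.imp (Good.pure ?_) (Good.or (hT.comp (by eqv))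
    (hT.comp (f := fun z : (FreeGroup Γ × List (FreeGroup Γ)) × FreeGroup Γ => z.2⁻¹) (by eqv)))))
    (Good.eq ?_ (by eqv)))
  · intro δ z
    exact (List.mem_map_of_injective (rho_injective δ)).symm
  · intro δ z
    exact (map_list_prod (rho δ) z.2).symm

section Defs

variable {Z : Type*} [RA Γ Z] {L : X → Subgroup (FreeGroup Γ)} (hL : GSub L)
  {S : X → Set Γ} (hS : GSet S) (c : Cfg Γ Γ) [c.RI]
include hL

lemma good_hull {g : Z → FreeGroup Γ} {s : Z → Γ × Bool} (hg : Eqv Γ g) (hs : Eqv Γ s) :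
    Good Γ fun x z => Hull (L x) (g z) (s z) := by
  refine Good.comp (P := fun x (w : FreeGroup Γ × Γ × Bool) => Hull (L x) w.1 w.2)
    (f := fun z => (g z, s z)) ?_ (fun δ z => by simp [hg δ z, hs δ z])
  unfold Hull
  repeat' good_step

lemma good_avail {p : Z → FreeGroup Γ} {u : Z → Γ} (hp : Eqv Γ p) (hu : Eqv Γ u) :
    Good Γ fun x z => c.Avail (L x) (p z) (u z) := by
  refine Good.comp (P := fun x (w : FreeGroup Γ × Γ) => c.Avail (L x) w.1 w.2)
    (f := fun z => (p z, u z)) ?_ (fun δ z => by simp [hp δ z, hu δ z])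
  unfold Cfg.Avail
  repeat' first | good_step | exact good_hull hL (by eqv) (by eqv)

lemma good_light {g : Z → FreeGroup Γ} (hg : Eqv Γ g) :
    Good Γ fun x z => Light (L x) (g z) := by
  refine Good.comp (P := fun x (w : FreeGroup Γ) => Light (L x) w) ?_ hg
  unfold Light
  repeat' first | good_step | exact good_hull hL (by eqv) (by eqv)

lemma good_blk {p : Z → FreeGroup Γ} {u : Z → Γ} (hp : Eqv Γ p) (hu : Eqv Γ u) (k : ℕ) :
    Good Γ fun x z => c.Blk (L x) (p z) (u z) k := by
  refine Good.comp (P := fun x (w : FreeGroup Γ × Γ) => c.Blk (L x) w.1 w.2 k)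
    (f := fun z => (p z, u z)) ?_ (fun δ z => by simp [hp δ z, hu δ z])
  unfold Cfg.Blk
  repeat' first | good_step | exact good_light hL (by eqv)

include hS

lemma gsub_step : GSub fun x => c.step (L x) (S x) := by
  apply gsub_closure
  simp only [Set.mem_union, SetLike.mem_coe, Set.mem_ofPred_eq]
  repeat' first | good_step | exact good_avail hL c (by eqv) (by eqv)

lemma good_rmv {p : Z → FreeGroup Γ} {u : Z → Γ} (hp : Eqv Γ p) (hu : Eqv Γ u) (k : ℕ) :
    Good Γ fun x z => c.Rmv (L x) (S x) (p z) (u z) k := by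
  refine Good.comp (P := fun x (w : FreeGroup Γ × Γ) => c.Rmv (L x) (S x) w.1 w.2 k)
    (f := fun z => (p z, u z)) ?_ (fun δ z => by simp [hp δ z, hu δ z])
  unfold Cfg.Rmv
  repeat' first | good_step | exact good_blk hL c (by eqv) (by eqv) _

lemma good_re {g : Z → FreeGroup Γ} {a : Z → Γ} (hg : Eqv Γ g) (ha : Eqv Γ a) :
    Good Γ fun x z => c.RE (L x) (S x) (g z) (a z) := by
  refine Good.comp (P := fun x (w : FreeGroup Γ × Γ) => c.RE (L x) (S x) w.1 w.2)
    (f := fun z => (g z, a z)) ?_ (fun δ z => by simp [hg δ z, ha δ z])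
  unfold Cfg.RE
  repeat' first | good_step | exact good_rmv hL hS c (by eqv) (by eqv) _

lemma good_keep {g : Z → FreeGroup Γ} {a : Z → Γ} (hg : Eqv Γ g) (ha : Eqv Γ a) :
    Good Γ fun x z => c.Keep (L x) (S x) (g z) (a z) :=
  (good_hull hL hg (fun δ z => by simp [ha δ z])).and (good_re hL hS c hg ha).not

lemma good_W : Good Γ fun x (w : FreeGroup Γ × Γ × FreeGroup Γ) =>
    c.W (L x) (S x) w.1 w.2.1 = w.2.2 := by
  refine Good.congr ?_ fun x z => Cfg.W_eq_iff
  unfold Cfg.WRel
  repeat' first | good_step | exact good_rmv hL hS c (by eqv) (by eqv) _ |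
    exact good_re hL hS c (by eqv) (by eqv)

lemma gsub_cut : GSub fun x => c.cut (L x) (S x) := by
  refine Good.congr (P := fun x (h : FreeGroup Γ) => h ∈ L x ∧ ∀ g a,
    (¬ Sep g (a, true) 1 → Sep g (a, true) h → c.Keep (L x) (S x) g a) ∧
    (¬ Sep g (a, false) 1 → Sep g (a, false) h → c.Keep (L x) (S x) (g * (of a)⁻¹) a)) ?_ ?_
  · repeat' first | good_step | exact good_keep hL hS c (by eqv) (by eqv)
  · intro x h
    rw [Cfg.mem_cut, reach_iff (symE_symm _)]
    simp only [Prod.forall, Bool.forall_bool, symE_true, symE_false, and_comm]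

lemma good_th : Good Γ fun x (w : FreeGroup Γ × FreeGroup Γ) => c.th (L x) (S x) w.1 = w.2 := by
  have hW := good_W hL hS c
  constructor
  · rintro ⟨g, h⟩
    induction g using ind_right generalizing h with
    | h1 => simp
    | hs g a =>
      simp only [Cfg.th_mul_of]
      constructor
      · intro H h
        have : ∀ x, c.th (L x) (S x) g * c.W (L x) (S x) g a = h ↔
            ∃ y, c.W (L x) (S x) g a = y ∧ c.th (L x) (S x) g = h * y⁻¹ := by
          intro x; simp [eq_mul_inv_iff_mul_eq]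
        simp only [this]
        exact Measurable.exists fun y => (hW.meas (g, a, y)).and (H _)
      · intro H h
        have : ∀ x, c.th (L x) (S x) g = h ↔ ∃ y, c.W (L x) (S x) g a = y ∧
            c.th (L x) (S x) g * c.W (L x) (S x) g a = h * y := by
          intro x; simp
        simp only [this]
        exact Measurable.exists fun y => (hW.meas (g, a, y)).and (H _)
  · rintro δ x ⟨g, h⟩
    have hW' : ∀ g a, c.W (L x) (S x) (rho δ g) (a * δ) =
        rho δ (c.W (L (δ • x)) (S (δ • x)) g a) :=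
      fun g a => (hW.equi δ x (g, a, _)).1 rfl
    have : c.th (L x) (S x) (rho δ g) = rho δ (c.th (L (δ • x)) (S (δ • x)) g) := by
      induction g using ind_right with
      | h1 => simp
      | hs g a =>
        rw [_root_.map_mul, rho_of, Cfg.th_mul_of, Cfg.th_mul_of, _root_.map_mul, hW',
          mul_left_inj]
    simp only [act_prod, act_free, this, (rho_injective δ).eq_iff]

end Defs

section Proc

variable {L : ℕ → X → Subgroup (FreeGroup Γ)} (hL : ∀ t, GSub (L t))
  {P : ℕ → X → Set Γ} (hP : ∀ t, GSet (P t)) (c : Cfg Γ Γ) [c.RI] (T : ℕ) {Z : Type*} [RA Γ Z]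
include hL

lemma good_HH (t : ℕ) {g : Z → FreeGroup Γ} {a : Z → Γ} (hg : Eqv Γ g) (ha : Eqv Γ a) :
    Good Γ fun x z => Cfg.HH (fun t => L t x) T t (g z) (a z) := by
  refine Good.comp (P := fun x (w : FreeGroup Γ × Γ) => Cfg.HH (fun t => L t x) T t w.1 w.2)
    (f := fun z => (g z, a z)) ?_ (fun δ z => by simp [hg δ z, ha δ z])
  unfold Cfg.HH
  exact Good.ex (Good.and ((hL T).mem (by eqv)) (good_hull (hL t) (by eqv) (by eqv)))

include hP

lemma good_add (t : ℕ) {p : Z → FreeGroup Γ} {u : Z → Γ} (hp : Eqv Γ p) (hu : Eqv Γ u) :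
    Good Γ fun x z => c.Add (fun t => L t x) (fun t => P t x) T t (p z) (u z) := by
  refine Good.comp (P := fun x (w : FreeGroup Γ × Γ) =>
    c.Add (fun t => L t x) (fun t => P t x) T t w.1 w.2)
    (f := fun z => (p z, u z)) ?_ (fun δ z => by simp [hp δ z, hu δ z])
  unfold Cfg.Add
  exact Good.ex (Good.and ((hL T).mem (by eqv)) (Good.and ((hP t).mem (by eqv))
    (good_avail (hL t) c (by eqv) (by eqv))))

lemma good_new (n : ℕ) {p : Z → FreeGroup Γ} {u : Z → Γ} (hp : Eqv Γ p) (hu : Eqv Γ u) :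
    Good Γ fun x z => c.New (fun t => L t x) (fun t => P t x) T (p z) (u z) n := by
  refine Good.comp (P := fun x (w : FreeGroup Γ × Γ) =>
    c.New (fun t => L t x) (fun t => P t x) T w.1 w.2 n)
    (f := fun z => (p z, u z)) ?_ (fun δ z => by simp [hp δ z, hu δ z])
  unfold Cfg.New
  repeat' first | good_step | exact good_add hL hP c T _ (by eqv) (by eqv) |
    exact good_HH hL T _ (by eqv) (by eqv)

end Proc

end Crest.Agent.R191
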