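import Mathlib
import Crest.Prelude.Def_Cost

/-!
Row 191 (S0291): contraction of a graphing onto a section; countably valued measurable maps.
-/

set_option autoImplicit false

namespace Crest.Agent.R191.InitAux

open MeasureTheory Set Filter
open scoped ENNReal Topology

/-- Maps with measurable fibres. -/
def CM {X Y : Type*} [MeasurableSpace X] (f : X → Y) : Prop := ∀ y, MeasurableSet {x | f x = y}

section CM

variable {X Y Z : Type*} [MeasurableSpace X]

theorem CM.set [Countable Y] {f : X → Y} (hf : CM f) (p : Y → Prop) :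
    MeasurableSet {x | p (f x)} := by
  have : {x | p (f x)} = ⋃ y : {y // p y}, {x | f x = y} := by
    ext x; simp
  rw [this]
  exact MeasurableSet.iUnion (fun y => hf y)

theorem CM.comp [Countable Y] {f : X → Y} (hf : CM f) (g : Y → Z) : CM (fun x => g (f x)) :=
  fun z => hf.set (fun y => g y = z)

theorem CM.pair {f : X → Y} {g : X → Z} (hf : CM f) (hg : CM g) : CM (fun x => (f x, g x)) := by
  rintro ⟨y, z⟩
  have : {x | (f x, g x) = (y, z)} = {x | f x = y} ∩ {x | g x = z} := by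
    ext x; simp
  rw [this]
  exact (hf y).inter (hg z)

theorem CM.comp₂ {W : Type*} [Countable Y] [Countable Z] {f : X → Y} {g : X → Z} (hf : CM f)
    (hg : CM g) (k : Y → Z → W) : CM (fun x => k (f x) (g x)) :=
  (hf.pair hg).comp (fun p => k p.1 p.2)

theorem CM.precomp {X' : Type*} [MeasurableSpace X'] {f : X → Y} (hf : CM f) {s : X' → X}
    (hs : Measurable s) : CM (fun x => f (s x)) := fun y => hs (hf y)

theorem CM.const (y : Y) : CM (fun _ : X => y) := fun _ => MeasurableSet.const _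

theorem CM.ite {f g : X → Y} (hf : CM f) (hg : CM g) {p : X → Prop} [DecidablePred p]
    (hp : MeasurableSet {x | p x}) : CM (fun x => if p x then f x else g x) := by
  intro y
  have : {x | (if p x then f x else g x) = y}
      = ({x | p x} ∩ {x | f x = y}) ∪ ({x | p x}ᶜ ∩ {x | g x = y}) := by
    ext x; by_cases h : p x <;> simp [h]
  rw [this]
  exact (hp.inter (hf y)).union (hp.compl.inter (hg y))

end CM

theorem exists_finset_of_mem_closure {G : Type*} [Group G] {S : Set G} {g : G}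
    (hg : g ∈ Subgroup.closure S) : ∃ T : Finset G, (T : Set G) ⊆ S ∧
      g ∈ Subgroup.closure (T : Set G) := by
  classical
  induction hg using Subgroup.closure_induction with
  | mem x hx => exact ⟨{x}, by simpa using hx, Subgroup.subset_closure (by simp)⟩
  | one => exact ⟨∅, by simp, one_mem _⟩
  | mul x y _ _ hx hy =>
    obtain ⟨T, hT, hx⟩ := hx
    obtain ⟨T', hT', hy⟩ := hy
    refine ⟨T ∪ T', by simp [hT, hT'], mul_mem ?_ ?_⟩
    · exact Subgroup.closure_mono (by simp) hx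
    · exact Subgroup.closure_mono (by simp) hy
  | inv x _ hx =>
    obtain ⟨T, hT, hx⟩ := hx
    exact ⟨T, hT, inv_mem hx⟩

theorem measurableSet_mem_closure {X G : Type*} [MeasurableSpace X] [Group G] [Countable G]
    (S : X → Set G) (hS : ∀ g, MeasurableSet {x | g ∈ S x}) (g : G) :
    MeasurableSet {x | g ∈ Subgroup.closure (S x)} := by
  have : {x | g ∈ Subgroup.closure (S x)} =
      ⋃ T : {T : Finset G // g ∈ Subgroup.closure (T : Set G)}, ⋂ t ∈ T.1, {x | t ∈ S x} := by
    ext x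
    simp only [mem_ofPred_eq, mem_iUnion, mem_iInter]
    constructor
    · intro h
      obtain ⟨T, hT, hg⟩ := exists_finset_of_mem_closure h
      exact ⟨⟨T, hg⟩, fun t ht => hT ht⟩
    · rintro ⟨⟨T, hg⟩, hT⟩
      exact Subgroup.closure_mono (fun t ht => hT t ht) hg
  rw [this]
  exact MeasurableSet.iUnion (fun T => Finset.measurableSet_biInter _ (fun t _ => hS t))

section Contract

variable {Γ X : Type*} [Group Γ] [MulAction Γ X] (Φ : ℕ → Γ × Set X) (A : Set X)

/-- The index of the edge used at stage `n`. -/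
def ei (n : ℕ) : ℕ := (Nat.unpair (Nat.unpair n).1).1

/-- The orientation of the edge used at stage `n`. -/
def eo (n : ℕ) : Prop := (Nat.unpair (Nat.unpair n).1).2 = 0

theorem exists_stage (i : ℕ) (o : Prop) (n : ℕ) : ∃ m, n ≤ m ∧ ei m = i ∧ (eo m ↔ o) := by
  classical
  refine ⟨Nat.pair (Nat.pair i (if o then 0 else 1)) n, Nat.right_le_pair _ _, ?_, ?_⟩
  · simp [ei]
  · by_cases h : o <;> simp [eo, h]

open Classical in
/-- The group element of the oriented edge used at stage `n`. -/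
noncomputable def es (n : ℕ) : Γ := if eo n then (Φ (ei n)).1 else (Φ (ei n)).1⁻¹

open Classical in
/-- The domain of the oriented edge used at stage `n`. -/
def eB (n : ℕ) : Set X :=
  if eo n then (Φ (ei n)).2 else {y | (Φ (ei n)).1⁻¹ • y ∈ (Φ (ei n)).2}

/-- The points reached before stage `n`. -/
def DD : ℕ → Set X
  | 0 => A
  | n + 1 => DD n ∪ {y | y ∈ eB Φ n ∧ es Φ n • y ∈ DD n}

/-- The points reached at stage `n`. -/
def NN (n : ℕ) : Set X := {y | y ∈ eB Φ n ∧ es Φ n • y ∈ DD Φ A n ∧ y ∉ DD Φ A n}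

open Classical in
/-- The transport to the root. -/
noncomputable def cc : ℕ → X → Γ
  | 0 => fun _ => 1
  | n + 1 => fun y => if y ∈ NN Φ A n then cc n (es Φ n • y) * es Φ n else cc n y

open Classical in
/-- The transport to the root, in the limit. -/
noncomputable def cInf (y : X) : Γ := if h : ∃ n, y ∈ DD Φ A n then cc Φ A (Nat.find h) y else 1

theorem DD_mono : Monotone (DD Φ A) :=
  monotone_nat_of_le_succ (fun _ => subset_union_left)

theorem NN_sub (n : ℕ) : NN Φ A n ⊆ DD Φ A (n + 1) := fun _ h => Or.inr ⟨h.1, h.2.1⟩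

theorem cc_stable {n m : ℕ} (h : n ≤ m) {y : X} (hy : y ∈ DD Φ A n) :
    cc Φ A m y = cc Φ A n y := by
  induction m, h using Nat.le_induction with
  | base => rfl
  | succ m hm ih =>
    have : y ∉ NN Φ A m := fun h => h.2.2 (DD_mono Φ A hm hy)
    simp only [cc, if_neg this, ih]

theorem cInf_eq {n : ℕ} {y : X} (hy : y ∈ DD Φ A n) : cInf Φ A y = cc Φ A n y := by
  classical
  have h : ∃ n, y ∈ DD Φ A n := ⟨n, hy⟩
  rw [cInf, dif_pos h, cc_stable Φ A (Nat.find_min' h hy) (Nat.find_spec h)]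

theorem cInf_NN {n : ℕ} {y : X} (hy : y ∈ NN Φ A n) :
    cInf Φ A y = cInf Φ A (es Φ n • y) * es Φ n := by
  rw [cInf_eq Φ A (NN_sub Φ A n hy), cInf_eq Φ A hy.2.1]
  simp only [cc, if_pos hy]

theorem iUnion_DD : (⋃ n, DD Φ A n) ⊆ A ∪ ⋃ n, NN Φ A n := by
  refine iUnion_subset (fun n => ?_)
  induction n with
  | zero => exact subset_union_left
  | succ n ih =>
    intro y hy
    by_cases h : y ∈ DD Φ A n
    · exact ih h
    · rcases hy with hy | hy
      · exact absurd hy h
      · exact Or.inr (mem_iUnion.2 ⟨n, hy.1, hy.2, h⟩)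

theorem step_iff {y y' : X} (h : Crest.Dynamics.GraphingStep Φ y y') :
    y ∈ (⋃ n, DD Φ A n) ↔ y' ∈ ⋃ n, DD Φ A n := by
  obtain ⟨i, hi, rfl⟩ := h
  simp only [mem_iUnion]
  constructor
  · rintro ⟨n, hn⟩
    obtain ⟨m, hm, h1, h2⟩ := exists_stage i False n
    have h3 : ¬ eo m := h2.1
    refine ⟨m + 1, Or.inr ⟨?_, ?_⟩⟩
    · simpa [eB, h3, h1] using hi
    · simpa [es, h3, h1] using DD_mono Φ A hm hn
  · rintro ⟨n, hn⟩
    obtain ⟨m, hm, h1, h2⟩ := exists_stage i True n
    have h3 : eo m := h2.2 trivial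
    refine ⟨m + 1, Or.inr ⟨?_, ?_⟩⟩
    · simpa [eB, h3, h1] using hi
    · simpa [es, h3, h1] using DD_mono Φ A hm hn

theorem eqv_iff {y y' : X} (h : Relation.EqvGen (Crest.Dynamics.GraphingStep Φ) y y') :
    y ∈ (⋃ n, DD Φ A n) ↔ y' ∈ ⋃ n, DD Φ A n := by
  induction h with
  | rel _ _ h => exact step_iff Φ A h
  | refl => rfl
  | symm _ _ _ ih => exact ih.symm
  | trans _ _ _ _ _ ih ih' => exact ih.trans ih'

open Classical in
/-- The base points of the parent edges of stage `n`. -/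
def base (n : ℕ) : Set X :=
  if eo n then NN Φ A n else {y | (Φ (ei n)).1 • y ∈ NN Φ A n}

theorem base_spec {n : ℕ} {y : X} (hy : y ∈ base Φ A n) :
    y ∈ (Φ (ei n)).2 ∧ y ∈ DD Φ A (n + 1) ∧ (Φ (ei n)).1 • y ∈ DD Φ A (n + 1) ∧
      (y ∉ DD Φ A n ∨ (Φ (ei n)).1 • y ∉ DD Φ A n) ∧
      cInf Φ A y = cInf Φ A ((Φ (ei n)).1 • y) * (Φ (ei n)).1 := by
  by_cases h : eo n
  · simp only [base, if_pos h] at hy
    have h1 := cInf_NN Φ A hy
    have h2 := NN_sub Φ A n hy
    obtain ⟨h3, h4, h5⟩ := hy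
    simp only [eB, es, if_pos h] at h1 h3 h4
    exact ⟨h3, h2, DD_mono Φ A (Nat.le_succ n) h4, Or.inl h5, h1⟩
  · simp only [base, if_neg h, mem_ofPred_eq] at hy
    have h1 := cInf_NN Φ A hy
    have h2 := NN_sub Φ A n hy
    obtain ⟨h3, h4, h5⟩ := hy
    simp only [eB, es, if_neg h, mem_ofPred_eq, inv_smul_smul] at h1 h3 h4
    refine ⟨h3, DD_mono Φ A (Nat.le_succ n) h4, h2, Or.inr h5, ?_⟩
    rw [h1]; simp

variable [MeasurableSpace X]

variable {Φ A} (hm : ∀ g : Γ, Measurable (fun x : X => g • x)) (hΦ : ∀ i, MeasurableSet (Φ i).2)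
  (hA : MeasurableSet A)

include hm hΦ in
theorem meas_eB (n : ℕ) : MeasurableSet (eB Φ n) := by
  unfold eB
  split_ifs
  · exact hΦ _
  · exact hm _ (hΦ _)

include hm hΦ hA in
theorem meas_DD (n : ℕ) : MeasurableSet (DD Φ A n) := by
  induction n with
  | zero => exact hA
  | succ n ih => exact ih.union ((meas_eB hm hΦ n).inter (hm _ ih))

include hm hΦ hA in
theorem meas_NN (n : ℕ) : MeasurableSet (NN Φ A n) :=
  (meas_eB hm hΦ n).inter ((hm _ (meas_DD hm hΦ hA n)).inter (meas_DD hm hΦ hA n).compl)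

include hm hΦ hA in
theorem meas_base (n : ℕ) : MeasurableSet (base Φ A n) := by
  unfold base
  split_ifs
  · exact meas_NN hm hΦ hA n
  · exact hm _ (meas_NN hm hΦ hA n)

include hm hΦ hA in
theorem cm_cc [Countable Γ] (n : ℕ) : CM (cc Φ A n) := by
  induction n with
  | zero => exact CM.const _
  | succ n ih =>
    classical
    exact CM.ite ((ih.precomp (hm _)).comp (· * es Φ n)) ih (meas_NN hm hΦ hA n)

include hm hΦ hA in
theorem cm_cInf [Countable Γ] : CM (cInf Φ A) := by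
  intro γ
  have : {x | cInf Φ A x = γ} = (⋃ n, DD Φ A n ∩ {x | cc Φ A n x = γ}) ∪
      ((⋃ n, DD Φ A n)ᶜ ∩ {_x | 1 = γ}) := by
    ext x
    simp only [mem_ofPred_eq, mem_union, mem_iUnion, mem_inter_iff, mem_compl_iff]
    by_cases h : ∃ n, x ∈ DD Φ A n
    · obtain ⟨n, hn⟩ := h
      constructor
      · intro h1
        exact Or.inl ⟨n, hn, by rw [← cInf_eq Φ A hn, h1]⟩
      · rintro (⟨m, hm, h1⟩ | ⟨h1, _⟩)
        · rw [cInf_eq Φ A hm, h1]
        · exact absurd ⟨n, hn⟩ h1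
    · rw [cInf, dif_neg h]
      constructor
      · intro h1; exact Or.inr ⟨h, h1⟩
      · rintro (⟨m, hm, _⟩ | ⟨_, h1⟩)
        · exact absurd ⟨m, hm⟩ h
        · exact h1
  rw [this]
  exact (MeasurableSet.iUnion (fun n => (meas_DD hm hΦ hA n).inter (cm_cc hm hΦ hA n γ))).union
    ((MeasurableSet.iUnion (meas_DD hm hΦ hA)).compl.inter (MeasurableSet.const _))

end Contract

theorem exists_contraction {Γ X : Type*} [Group Γ] [Countable Γ] [MulAction Γ X]
    [MeasurableSpace X] (μ : Measure X) [IsProbabilityMeasure μ]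
    (hmp : ∀ g : Γ, MeasurePreserving (fun x : X => g • x) μ μ)
    (Φ : ℕ → Γ × Set X) (hΦ : ∀ i, MeasurableSet (Φ i).2) (A : Set X) (hA : MeasurableSet A)
    (hsat : ∀ᵐ x ∂μ, ∃ y ∈ A, Relation.EqvGen (Crest.Dynamics.GraphingStep Φ) x y)
    (ε : ℝ≥0∞) (hcost : ∑' i, μ (Φ i).2 < 1 + ε) :
    ∃ (c : X → Γ) (Q : ℕ → Set X), CM c ∧ (∀ y ∈ A, c y = 1) ∧ (∀ i, MeasurableSet (Q i)) ∧
      ∑' i, μ (Q i) ≤ ε + μ A ∧
      ∀ i, ∀ y ∈ (Φ i).2, y ∉ Q i → c y = c ((Φ i).1 • y) * (Φ i).1 := by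
  classical
  have hm : ∀ g : Γ, Measurable (fun x : X => g • x) := fun g => (hmp g).measurable
  let R : ℕ → ℕ → Set X := fun i n => if ei n = i then base Φ A n else ∅
  have hR : ∀ i n, MeasurableSet (R i n) := by
    intro i n
    simp only [R]
    split_ifs
    · exact meas_base hm hΦ hA n
    · exact MeasurableSet.empty
  have hRs : ∀ i n y, y ∈ R i n → ei n = i ∧ y ∈ base Φ A n := by
    intro i n y hy
    simp only [R] at hy
    split_ifs at hy with h
    · exact ⟨h, hy⟩
    · exact absurd hy (notMem_empty _)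
  let P : ℕ → Set X := fun i => ⋃ n, R i n
  have hP : ∀ i, MeasurableSet (P i) := fun i => MeasurableSet.iUnion (hR i)
  have hPsub : ∀ i, P i ⊆ (Φ i).2 := by
    intro i y hy
    obtain ⟨n, hn⟩ := mem_iUnion.1 hy
    obtain ⟨rfl, h2⟩ := hRs i n y hn
    exact (base_spec Φ A h2).1
  have hdisj : ∀ i, Pairwise (Function.onFun Disjoint (R i)) := by
    intro i
    rw [pairwise_disjoint_on]
    intro n m hnm
    rw [Set.disjoint_left]
    intro y hn hm'
    obtain ⟨h1, h2⟩ := hRs i n y hn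
    obtain ⟨h3, h4⟩ := hRs i m y hm'
    obtain ⟨_, a1, a2, _⟩ := base_spec Φ A h2
    obtain ⟨_, _, _, a3, _⟩ := base_spec Φ A h4
    rw [h1] at a2
    rw [h3] at a3
    rcases a3 with a3 | a3
    · exact a3 (DD_mono Φ A hnm a1)
    · exact a3 (DD_mono Φ A hnm a2)
  have hbase : ∀ n, μ (base Φ A n) = μ (NN Φ A n) := by
    intro n
    unfold base
    split_ifs
    · rfl
    · exact (hmp _).measure_preimage (meas_NN hm hΦ hA n).nullMeasurableSet
  have hsumP : ∑' i, μ (P i) = ∑' n, μ (NN Φ A n) := by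
    simp only [P]
    rw [tsum_congr (fun i => measure_iUnion (hdisj i) (hR i)), ENNReal.tsum_comm]
    refine tsum_congr (fun n => ?_)
    rw [tsum_eq_single (ei n)]
    · simp only [R, if_true, hbase]
    · intro i hi
      simp only [R, if_neg (Ne.symm hi), measure_empty]
  have hone : 1 ≤ μ A + ∑' i, μ (P i) := by
    rw [hsumP, ← measure_univ (μ := μ)]
    refine le_trans (measure_mono_ae ?_) ((measure_union_le A (⋃ n, NN Φ A n)).trans
      (add_le_add le_rfl (measure_iUnion_le _)))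
    filter_upwards [hsat] with x hx _
    obtain ⟨y, hy, hxy⟩ := hx
    exact iUnion_DD Φ A ((eqv_iff Φ A hxy).2 (mem_iUnion.2 ⟨0, hy⟩))
  have hsplit : ∑' i, μ ((Φ i).2 \ P i) + ∑' i, μ (P i) = ∑' i, μ (Φ i).2 := by
    rw [← ENNReal.tsum_add]
    refine tsum_congr (fun i => ?_)
    rw [← measure_union' disjoint_sdiff_left ((hΦ i).diff (hP i)), sdiff_union_of_subset (hPsub i)]
  have hfin : ∑' i, μ (P i) ≠ ⊤ :=
    ne_top_of_le_ne_top (ne_top_of_lt hcost) (hsplit ▸ le_add_self)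
  refine ⟨cInf Φ A, fun i => (Φ i).2 \ P i, cm_cInf hm hΦ hA, ?_, fun i => (hΦ i).diff (hP i),
    ?_, ?_⟩
  · intro y hy
    rw [cInf_eq Φ A (n := 0) hy]; rfl
  · rw [← ENNReal.add_le_add_iff_right hfin, hsplit]
    refine hcost.le.trans ?_
    rw [add_comm, add_assoc]
    exact add_le_add le_rfl hone
  · intro i y hy hyQ
    have : y ∈ P i := by
      by_contra h
      exact hyQ ⟨hy, h⟩
    obtain ⟨n, hn⟩ := mem_iUnion.1 this
    obtain ⟨rfl, h2⟩ := hRs i n y hn
    exact (base_spec Φ A h2).2.2.2.2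

end Crest.Agent.R191.InitAux
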