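import Crest.Agent.R191.Grp
import Crest.Agent.R191.InitAux
import Crest.Prelude.Def_Cost

/-!
Row 191 (S0291): from a cheap graphing to a sparse generating family of the small cancellation group.
-/

set_option autoImplicit false

namespace Crest.Agent.R191

open MeasureTheory
open scoped ENNReal

namespace InitAux

open Set Filter Topology

variable {ℓ : ℕ} (hℓ : 4 ≤ ℓ) {X : Type} [MulAction (Gam ℓ) X]

/-- The subgroup generated by a family seen from `x`, together with the relators. -/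
noncomputable def Fam (w : ℕ → X → FreeGroup (Gam ℓ)) (x : X) : Subgroup (FreeGroup (Gam ℓ)) :=
  Subgroup.closure {g | ∃ (γ : Gam ℓ) (i : ℕ), g = rho γ (w i (γ • x))} ⊔ (Gam.cfg hℓ).N

theorem gen_mem (w : ℕ → X → FreeGroup (Gam ℓ)) (x : X) (γ : Gam ℓ) (i : ℕ) :
    rho γ (w i (γ • x)) ∈ Fam hℓ w x :=
  Subgroup.mem_sup_left (Subgroup.subset_closure ⟨γ, i, rfl⟩)

theorem Fam_le {w : ℕ → X → FreeGroup (Gam ℓ)} {x : X} {K : Subgroup (FreeGroup (Gam ℓ))}
    (h1 : ∀ γ i, rho γ (w i (γ • x)) ∈ K) (h2 : (Gam.cfg hℓ).N ≤ K) : Fam hℓ w x ≤ K := by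
  refine sup_le ((Subgroup.closure_le _).2 ?_) h2
  rintro _ ⟨γ, i, rfl⟩
  exact h1 γ i

theorem rho_mem_Fam {w : ℕ → X → FreeGroup (Gam ℓ)} {x : X} (γ : Gam ℓ)
    {g : FreeGroup (Gam ℓ)} (hg : g ∈ Fam hℓ w (γ • x)) : rho γ g ∈ Fam hℓ w x := by
  have : Fam hℓ w (γ • x) ≤ (Fam hℓ w x).comap (rho γ) := by
    refine Fam_le hℓ (fun γ' i => ?_) (fun g hg => ?_)
    · rw [Subgroup.mem_comap, rho_rho, smul_smul]
      exact gen_mem hℓ w x _ i
    · exact Subgroup.mem_sup_right (rho_mem_N _ (Gam.cfg_σ_mul hℓ) γ hg)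
  exact this hg

theorem Fam_eq_top {w : ℕ → X → FreeGroup (Gam ℓ)}
    (h : ∀ x, FreeGroup.of 1 ∈ Fam hℓ w x) (x : X) : Fam hℓ w x = ⊤ := by
  rw [eq_top_iff, ← FreeGroup.closure_range_of, Subgroup.closure_le]
  rintro _ ⟨γ, rfl⟩
  simpa using rho_mem_Fam hℓ γ (h (γ • x))

theorem meas_Fam [MeasurableSpace X] (hm : ∀ g : Gam ℓ, Measurable (fun x : X => g • x))
    {w : ℕ → X → FreeGroup (Gam ℓ)} (hw : ∀ i, CM (w i)) (g : FreeGroup (Gam ℓ)) :
    MeasurableSet {x | g ∈ Fam hℓ w x} := by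
  have e : ∀ x, Fam hℓ w x = Subgroup.closure
      ({g | ∃ (γ : Gam ℓ) (i : ℕ), g = rho γ (w i (γ • x))} ∪ ((Gam.cfg hℓ).N : Set _)) := by
    intro x
    rw [Subgroup.closure_union, Subgroup.closure_eq]; rfl
  simp only [e]
  refine measurableSet_mem_closure _ (fun g => ?_) g
  have : {x : X | g ∈ {g | ∃ (γ : Gam ℓ) (i : ℕ), g = rho γ (w i (γ • x))} ∪
      ((Gam.cfg hℓ).N : Set _)} =
      (⋃ γ : Gam ℓ, ⋃ i : ℕ, {x | g = rho γ (w i (γ • x))}) ∪ {_x | g ∈ (Gam.cfg hℓ).N} := by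
    ext x; simp
  rw [this]
  refine (MeasurableSet.iUnion (fun γ => MeasurableSet.iUnion (fun i => ?_))).union
    (MeasurableSet.const _)
  exact ((hw i).precomp (hm γ)).set (fun u => g = rho γ u)

theorem beta_of_mem {δ : Gam ℓ} (hδ : δ ∈ Subgroup.closure (Set.range (Gam.kk (ℓ := ℓ)))) :
    Gam.beta hℓ δ = 1 := by
  induction hδ using Subgroup.closure_induction with
  | mem x hx => obtain ⟨j, rfl⟩ := hx; exact Gam.beta_kk hℓ j
  | one => exact Gam.beta_one hℓ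
  | mul x y _ _ hx hy => rw [Gam.beta_mul, hx, hy, map_one, one_mul]
  | inv x _ hx =>
    have := Gam.beta_mul hℓ x x⁻¹
    rw [mul_inv_cancel, Gam.beta_one, hx, map_one, mul_one] at this
    exact this.symm

/-- The label of the edge `y → g • y`. -/
noncomputable def lab (c : X → Gam ℓ) (g : Gam ℓ) (y : X) : Gam.GG hℓ :=
  (Gam.beta hℓ (c y))⁻¹ * Gam.beta hℓ (c (g • y) * g)

theorem of_one_mem (Φ : ℕ → Gam ℓ × Set X) (A : Set X) (c : X → Gam ℓ)
    (hcA : ∀ y ∈ A, c y = 1) (w : ℕ → X → FreeGroup (Gam ℓ))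
    (hw : ∀ i, ∀ y ∈ (Φ i).2, (QuotientGroup.mk (w i y) : Gam.GG hℓ) = lab hℓ c (Φ i).1 y)
    (x : X) (hfree : ∀ g : Gam ℓ, g • x = x → g = 1)
    (hgen : ∀ g : Gam ℓ, Relation.EqvGen (Crest.Dynamics.GraphingStep Φ) x (g • x))
    (hsat : ∀ g : Gam ℓ, ∃ h ∈ Subgroup.closure (Set.range (Gam.kk (ℓ := ℓ))), h • g • x ∈ A) :
    FreeGroup.of 1 ∈ Fam hℓ w x := by
  classical
  let HH : Subgroup (Gam.GG hℓ) := (Fam hℓ w x).map (QuotientGroup.mk' _)
  let a : Gam ℓ → Gam.GG hℓ := fun γ => Gam.beta hℓ (c (γ • x) * γ)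
  have hinj : ∀ γ γ' : Gam ℓ, γ • x = γ' • x → γ = γ' := by
    intro γ γ' h
    have := hfree (γ'⁻¹ * γ) (by rw [mul_smul, h, inv_smul_smul])
    exact (inv_mul_eq_one.1 this).symm
  let ab : X → Gam.GG hℓ ⧸ HH := fun y =>
    if h : ∃ γ : Gam ℓ, γ • x = y then QuotientGroup.mk (a h.choose) else QuotientGroup.mk 1
  have hab : ∀ γ : Gam ℓ, ab (γ • x) = QuotientGroup.mk (a γ) := by
    intro γ
    have h : ∃ γ' : Gam ℓ, γ' • x = γ • x := ⟨γ, rfl⟩
    simp only [ab, dif_pos h]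
    rw [hinj _ _ h.choose_spec]
  have hstep : ∀ y y', Crest.Dynamics.GraphingStep Φ y y' → ab y = ab y' := by
    rintro y _ ⟨i, hi, rfl⟩
    by_cases h : ∃ γ : Gam ℓ, γ • x = y
    · obtain ⟨γ, rfl⟩ := h
      rw [smul_smul, hab, hab, QuotientGroup.eq]
      refine ⟨rho γ (w i (γ • x)), gen_mem hℓ w x γ i, ?_⟩
      rw [QuotientGroup.mk'_apply, ← Gam.rhoG_mk, hw i _ hi]
      simp only [a, lab, ← mul_assoc, ← smul_smul]
      rw [Gam.beta_mul hℓ _ γ, Gam.beta_mul hℓ _ γ, map_mul, map_inv]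
      group
    · have h' : ¬ ∃ γ : Gam ℓ, γ • x = (Φ i).1 • y := by
        rintro ⟨γ, hγ⟩
        exact h ⟨(Φ i).1⁻¹ * γ, by rw [mul_smul, hγ, inv_smul_smul]⟩
      simp only [ab, dif_neg h, dif_neg h']
  have heqv : ∀ y y', Relation.EqvGen (Crest.Dynamics.GraphingStep Φ) y y' → ab y = ab y' := by
    intro y y' h
    induction h with
    | rel _ _ h => exact hstep _ _ h
    | refl => rfl
    | symm _ _ _ ih => exact ih.symm
    | trans _ _ _ _ _ ih ih' => exact ih.trans ih'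
  have hall : ∀ γ γ' : Gam ℓ, (a γ)⁻¹ * a γ' ∈ HH := by
    intro γ γ'
    rw [← QuotientGroup.eq, ← hab, ← hab, ← heqv _ _ (hgen γ), ← heqv _ _ (hgen γ')]
  -- `a γ` and `beta γ` are in the same coset
  have hb : ∀ γ : Gam ℓ, (a γ)⁻¹ * Gam.beta hℓ γ ∈ HH := by
    intro γ
    obtain ⟨δ, hδ, hA⟩ := hsat γ
    have := hall γ (δ * γ)
    simp only [a] at this ⊢
    rw [mul_smul, hcA _ hA, one_mul, Gam.beta_mul hℓ δ γ, beta_of_mem hℓ hδ, map_one,
      mul_one] at this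
    exact this
  have h1 : Gam.beta hℓ (Gam.T 0) ∈ HH := by
    have e1 := hb 1
    have e2 := hb (Gam.T 0)
    have e3 := hall 1 (Gam.T 0)
    rw [Gam.beta_one, mul_one] at e1
    have := HH.mul_mem (HH.mul_mem (HH.inv_mem e1) e3) e2
    simpa [mul_assoc] using this
  rw [Gam.beta_T_zero] at h1
  obtain ⟨u, hu, hu'⟩ := h1
  rw [QuotientGroup.mk'_apply, QuotientGroup.eq] at hu'
  have := (Fam hℓ w x).mul_mem hu (Subgroup.mem_sup_right hu')
  simpa using this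

open Classical in
/-- Truncation of a family. -/
noncomputable def trunc (w : ℕ → X → FreeGroup (Gam ℓ)) (n i : ℕ) (x : X) : FreeGroup (Gam ℓ) :=
  if i < n ∧ FreeGroup.norm (w i x) ≤ n then w i x else 1

theorem Fam_trunc_mono (w : ℕ → X → FreeGroup (Gam ℓ)) (x : X) {n m : ℕ} (h : n ≤ m) :
    Fam hℓ (trunc w n) x ≤ Fam hℓ (trunc w m) x := by
  refine Fam_le hℓ (fun γ i => ?_) le_sup_right
  by_cases h1 : i < n ∧ FreeGroup.norm (w i (γ • x)) ≤ n
  · have h2 : i < m ∧ FreeGroup.norm (w i (γ • x)) ≤ m := ⟨by omega, by omega⟩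
    have := gen_mem hℓ (trunc w m) x γ i
    simp only [trunc, if_pos h1, if_pos h2] at this ⊢
    exact this
  · simp only [trunc, if_neg h1, map_one]
    exact one_mem _

theorem exists_trunc (w : ℕ → X → FreeGroup (Gam ℓ)) (x : X) {g : FreeGroup (Gam ℓ)}
    (hg : g ∈ Fam hℓ w x) : ∃ n, g ∈ Fam hℓ (trunc w n) x := by
  have : Fam hℓ w x ≤ ⨆ n, Fam hℓ (trunc w n) x := by
    refine Fam_le hℓ (fun γ i => ?_) (le_iSup_of_le 0 le_sup_right)
    refine Subgroup.mem_iSup_of_mem (i + 1 + FreeGroup.norm (w i (γ • x))) ?_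
    have := gen_mem hℓ (trunc w (i + 1 + FreeGroup.norm (w i (γ • x)))) x γ i
    rwa [trunc, if_pos ⟨by omega, by omega⟩] at this
  exact (Subgroup.mem_iSup_of_directed
    (Monotone.directed_le (fun n m h => Fam_trunc_mono hℓ w x h))).1 (this hg)

end InitAux

open InitAux Set Filter Topology in
theorem init_family {ℓ : ℕ} (hℓ : 4 ≤ ℓ) {X : Type} [MeasurableSpace X]
    [MulAction (Gam ℓ) X] (μ : Measure X) [IsProbabilityMeasure μ]
    (hfree : Crest.Dynamics.IsFreePMPAction (Gam ℓ) X μ)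
    (A : Set X) (hA : MeasurableSet A)
    (hsat : ∀ᵐ x ∂μ, ∃ h ∈ Subgroup.closure (Set.range (Gam.kk (ℓ := ℓ))), h • x ∈ A)
    (ε δ : ℝ≥0∞) (hδ : 0 < δ) (hcost : Crest.Dynamics.actionCost (Gam ℓ) X μ < 1 + ε) :
    ∃ w : ℕ → X → FreeGroup (Gam ℓ), (∀ i g, MeasurableSet {x | w i x = g}) ∧
      ∑' i, μ {x | w i x ≠ 1} ≤ ε + μ A + δ ∧
      ∑' i, ∫⁻ x, (FreeGroup.norm (w i x) : ℝ≥0∞) ∂μ < ⊤ ∧
      ∀ x, Subgroup.closure {g | ∃ (γ : Gam ℓ) (i : ℕ), g = rho γ (w i (γ • x))} ⊔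
        (Gam.cfg hℓ).N = ⊤ := by
  classical
  obtain ⟨hmp, hfr⟩ := hfree
  have hm : ∀ g : Gam ℓ, Measurable (fun x : X => g • x) := fun g => (hmp g).measurable
  obtain ⟨_, ⟨Φ, ⟨hΦ, N0, hN0, hgen⟩, rfl⟩, hlt⟩ := sInf_lt_iff.1 hcost
  have hgen' : ∀ᵐ x ∂μ, ∀ g : Gam ℓ,
      Relation.EqvGen (Crest.Dynamics.GraphingStep Φ) x (g • x) := by
    filter_upwards [measure_eq_zero_iff_ae_notMem.1 hN0] with x hx using hgen x hx
  obtain ⟨c, Q, hc, hcA, hQ, hQs, hcQ⟩ := exists_contraction μ hmp Φ hΦ A hA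
    (by
      filter_upwards [hgen', hsat] with x h1 h2
      obtain ⟨h, _, hh⟩ := h2
      exact ⟨_, hh, h1 h⟩) ε hlt
  let w0 : ℕ → X → FreeGroup (Gam ℓ) := fun i y =>
    if y ∈ Q i then (lab hℓ c (Φ i).1 y).out else 1
  have hw0 : ∀ i, CM (w0 i) := by
    intro i
    refine CM.ite ?_ (CM.const _) (hQ i)
    exact hc.comp₂ (hc.precomp (hm (Φ i).1))
      (fun u v => ((Gam.beta hℓ u)⁻¹ * Gam.beta hℓ (v * (Φ i).1)).out)
  have hw0' : ∀ i, ∀ y ∈ (Φ i).2,
      (QuotientGroup.mk (w0 i y) : Gam.GG hℓ) = lab hℓ c (Φ i).1 y := by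
    intro i y hy
    by_cases h : y ∈ Q i
    · simp only [w0, if_pos h, QuotientGroup.out_eq']
    · simp only [w0, if_neg h, lab, ← hcQ i y hy h, inv_mul_cancel, QuotientGroup.mk_one]
  have hfree' : ∀ᵐ x ∂μ, ∀ g : Gam ℓ, g • x = x → g = 1 := by
    rw [ae_all_iff]
    intro g
    by_cases hg : g = 1
    · exact Eventually.of_forall (fun _ _ => hg)
    · filter_upwards [measure_eq_zero_iff_ae_notMem.1 (hfr g hg)] with x hx h using absurd h hx
  have hsat' : ∀ᵐ x ∂μ, ∀ g : Gam ℓ,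
      ∃ h ∈ Subgroup.closure (Set.range (Gam.kk (ℓ := ℓ))), h • g • x ∈ A := by
    rw [ae_all_iff]
    intro g
    exact (hmp g).quasiMeasurePreserving.ae hsat
  have hae : ∀ᵐ x ∂μ, FreeGroup.of 1 ∈ Fam hℓ w0 x := by
    filter_upwards [hfree', hgen', hsat'] with x h1 h2 h3
    exact of_one_mem hℓ Φ A c hcA w0 hw0' x h1 h2 h3
  have htr : ∀ n i, CM (trunc w0 n i) := fun n i =>
    (hw0 i).comp (fun u => if i < n ∧ FreeGroup.norm u ≤ n then u else 1)
  let B : ℕ → Set X := fun n => {x | FreeGroup.of 1 ∈ Fam hℓ (trunc w0 n) x}ᶜ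
  have hB : ∀ n, MeasurableSet (B n) := fun n => (meas_Fam hℓ hm (htr n) _).compl
  have hanti : Antitone B := fun n m h x hx hx' => hx (Fam_trunc_mono hℓ w0 x h hx')
  have hnull : μ (⋂ n, B n) = 0 := by
    rw [measure_eq_zero_iff_ae_notMem]
    filter_upwards [hae] with x hx hx'
    obtain ⟨n, hn⟩ := exists_trunc hℓ w0 x hx
    exact mem_iInter.1 hx' n hn
  have hlim := tendsto_measure_iInter_atTop (μ := μ) (fun n => (hB n).nullMeasurableSet) hanti
    ⟨0, measure_ne_top _ _⟩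
  rw [hnull] at hlim
  obtain ⟨n, hn⟩ := (hlim.eventually (gt_mem_nhds hδ)).exists
  have hn' : μ (B n) < δ := hn
  let w : ℕ → X → FreeGroup (Gam ℓ) := fun i =>
    Nat.casesOn i (fun x => if x ∈ B n then FreeGroup.of 1 else 1) (fun i => trunc w0 n i)
  have hw_zero : ∀ x, w 0 x = if x ∈ B n then FreeGroup.of 1 else 1 := fun _ => rfl
  have hw_succ : ∀ i, w (i + 1) = trunc w0 n i := fun _ => rfl
  refine ⟨w, ?_, ?_, ?_, ?_⟩
  · intro i
    cases i with
    | zero => exact CM.ite (CM.const _) (CM.const _) (hB n)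
    | succ i => exact htr n i
  · rw [tsum_eq_zero_add' ENNReal.summable, add_comm]
    refine add_le_add (le_trans (ENNReal.tsum_le_tsum (fun i => measure_mono ?_)) hQs)
      (le_trans (measure_mono ?_) hn'.le)
    · intro x hx
      by_contra h
      apply hx
      simp only [hw_succ, trunc, w0, if_neg h, ite_self]
    · intro x hx
      by_contra h
      apply hx
      simp only [hw_zero, if_neg h]
  · have hb : ∀ i x, (FreeGroup.norm (w i x) : ℝ≥0∞) ≤ if i < n + 1 then ((n + 1 : ℕ) : ℝ≥0∞)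
        else 0 := by
      intro i x
      cases i with
      | zero =>
        rw [if_pos (by omega), Nat.cast_le, hw_zero]
        split_ifs <;> simp
      | succ i =>
        rw [hw_succ, trunc]
        by_cases h : i < n ∧ FreeGroup.norm (w0 i x) ≤ n
        · rw [if_pos h, if_pos (by omega), Nat.cast_le]; omega
        · rw [if_neg h]; simp
    refine lt_of_le_of_lt (ENNReal.tsum_le_tsum (fun i =>
      (lintegral_mono (hb i)).trans (le_of_eq (by rw [lintegral_const, measure_univ, mul_one])))) ?_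
    rw [tsum_eq_sum (s := Finset.range (n + 1))
      (fun i hi => if_neg (fun h => hi (Finset.mem_range.2 h)))]
    refine ENNReal.sum_lt_top.2 (fun i _ => ?_)
    split_ifs
    · exact ENNReal.natCast_lt_top _
    · exact ENNReal.zero_lt_top
  · refine Fam_eq_top hℓ (fun x => ?_)
    by_cases h : x ∈ B n
    · have := gen_mem hℓ w x 1 0
      rwa [one_smul, hw_zero, if_pos h, rho_one] at this
    · have h1 : FreeGroup.of 1 ∈ Fam hℓ (trunc w0 n) x := not_not.1 h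
      exact Fam_le hℓ (fun γ i => gen_mem hℓ w x γ (i + 1)) le_sup_right h1

end Crest.Agent.R191
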