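import Crest.Agent.R191.Est3

/-!
Row 191 (S0291): the lower bound for the intensity of generating families.
-/

set_option autoImplicit false
set_option linter.unusedSectionVars false

namespace Crest.Agent.R191

open MeasureTheory FreeGroup
open scoped ENNReal

variable {Γ : Type*} [Group Γ] [Countable Γ] [DecidableEq Γ] {X : Type*} [MeasurableSpace X]
  [MulAction Γ X] {μ : Measure X} (hμ : ∀ γ : Γ, MeasurePreserving (fun x : X => γ • x) μ μ)
  {c : Cfg Γ Γ} [c.RI]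

variable (μ c) in
/-- Admissible fields of subgroups. -/
structure State (k α : ℝ≥0∞) where
  L : X → Subgroup (FreeGroup Γ)
  S : Set X
  w : ℕ → X → FreeGroup Γ
  hL : GSub L
  hS : MeasurableSet S
  hSα : μ S ≤ α
  hw : ∀ i g, MeasurableSet {x | w i x = g}
  hk : ∑' i, μ {x | w i x ≠ 1} ≤ k
  hwL : ∀ i x, w i x ∈ L x
  gen : ∀ x, L x ≤ Subgroup.closure (fam w x ∪ c.loops (L x) (Sx S x))
  surj : ∀ x, L x ⊔ c.N = ⊤
  fin : EE μ L < ⊤

variable {k α : ℝ≥0∞}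

/-- The intensity of closed cells of allowed type. -/
noncomputable def State.C (s : State μ c k α) : ℝ≥0∞ :=
  nu μ s.L fun x p => ind (c.loop p 1 ∈ s.L x ∧ x ∈ s.S)

include hμ in
lemma State.C_fin (s : State μ c k α) : s.C < ⊤ :=
  ((nu_mono fun _ _ => ind_mono And.left).trans (closed_le hμ c s.hL)).trans_lt
    (ENNReal.mul_lt_top (by simp) s.fin)

include hμ in
lemma State.exists_cut (s : State μ c k α) : ∃ s' : State μ c k α, EE μ s'.L +
    4 * nu μ s.L (fun x p => ind (∃ k, c.Rmv (s.L x) (Sx s.S x) p 1 k)) ≤ EE μ s.L := by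
  have hS := gset_Sx hμ s.hS
  have hth := good_th s.hL hS c
  have key := EE_cut_le hμ c s.hL hS
  refine ⟨⟨fun x => c.cut (s.L x) (Sx s.S x), s.S, fun i x => c.th (s.L x) (Sx s.S x) (s.w i x),
    gsub_cut s.hL hS c, s.hS, s.hSα, ?_, ?_, ?_, ?_, ?_, ?_⟩, key⟩
  · intro i g
    have : {x | c.th (s.L x) (Sx s.S x) (s.w i x) = g} =
        ⋃ h, {x | s.w i x = h} ∩ {x | c.th (s.L x) (Sx s.S x) h = g} := by
      ext x; simp
    rw [this]
    exact MeasurableSet.iUnion fun h => (s.hw i h).inter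
      (measurableSet_setOfPred.2 (hth.meas (h, g)))
  · refine le_trans (ENNReal.tsum_le_tsum fun i => measure_mono ?_) s.hk
    intro x hx h
    apply hx
    simp [h]
  · exact fun i x => (Cfg.th_mem (s.hwL i x)).1
  · intro x
    refine (Cfg.cut_gen (Wd := fam s.w x) ?_ (s.gen x)).trans (Subgroup.closure_mono ?_)
    · rintro _ ⟨γ, i, rfl⟩
      exact (s.hL.equi γ x _).1 (s.hwL i _)
    · apply Set.union_subset_union_left
      rintro _ ⟨_, ⟨γ, i, rfl⟩, rfl⟩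
      exact ⟨γ, i, (hth.equi γ x (_, _)).1 rfl⟩
  · exact fun x => Cfg.cut_sup_N (s.surj x)
  · exact (le_self_add.trans key).trans_lt s.fin

variable (c) in
/-- The growth process. -/
def proc (L₀ : X → Subgroup (FreeGroup Γ)) (P : ℕ → Set X) : ℕ → X → Subgroup (FreeGroup Γ)
  | 0 => L₀
  | t + 1 => fun x => c.step (proc L₀ P t x) (Sx (P t) x)

include hμ in
lemma State.exists_grow [IsProbabilityMeasure μ] {β : ℝ≥0∞} (hβ : β < 1)
    (s : State μ c k (2 * β)) (P : ℕ → Set X) (hP : ∀ t, MeasurableSet (P t))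
    (hPβ : ∀ t, μ (P t) ≤ β) (hcov : ∀ x t₀, ∃ t, t₀ ≤ t ∧ x ∈ P t) :
    ∃ s' : State μ c k (2 * β), β ≤ s'.C ∧ EE μ s'.L ≤ EE μ s.L + 2 * s'.C := by
  let L := proc c s.L P
  have hstep : ∀ t x, L (t + 1) x = c.step (L t x) (Sx (P t) x) := fun _ _ => rfl
  have hP' : ∀ t, GSet (Γ := Γ) (Sx (P t)) := fun t => gset_Sx hμ (hP t)
  have hL : ∀ t, GSub (L t) := by
    intro t
    induction t with
    | zero => exact s.hL
    | succ t ih => exact gsub_step ih (hP' t) c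
  have hmono : ∀ x, Monotone fun t => L t x := fun x => c.proc_mono fun t => hstep t x
  have hav : ∀ t, Good Γ fun x (w : FreeGroup Γ × Γ) => c.Avail (L t x) w.1 w.2 :=
    fun t => good_avail (hL t) c (by eqv) (by eqv)
  let S : ℕ → Set X := fun t => {x | (x ∈ s.S ∧ ∃ p, c.loop p 1 ∈ s.L x) ∨
    ∃ t', t' < t ∧ x ∈ P t' ∧ ∃ p, c.Avail (L t' x) p 1}
  have hS : ∀ t, MeasurableSet (S t) := fun t => measurableSet_setOfPred.2
    (((measurableSet_setOfPred.1 s.hS).and (Measurable.exists fun p => s.hL.meas _)).or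
      (Measurable.exists fun t' => measurable_const.and ((measurableSet_setOfPred.1 (hP t')).and
        (Measurable.exists fun p => (hav t').meas (p, 1)))))
  have hSm : Monotone S := by
    rintro t t' h x (hx | ⟨t₀, h1, h2⟩)
    · exact .inl hx
    · exact .inr ⟨t₀, h1.trans_le h, h2⟩
  have hSu : ⋃ t, S t = Set.univ := by
    rw [Set.eq_univ_iff_forall]
    intro x
    obtain ⟨t, h1, h2⟩ := c.proc_exhaust (L := fun t => L t x) (P := fun t => Sx (P t) x)
      (fun t => hstep t x) (fun u t₀ => hcov (u • x) t₀) (s.surj x) 1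
    exact Set.mem_iUnion.2 ⟨t + 1, .inr ⟨t, by omega, one_mem_Sx.1 h1, h2⟩⟩
  have hex : ∃ t, β ≤ μ (S t) := by
    have := hSm.measure_iUnion (μ := μ)
    rw [hSu, measure_univ] at this
    obtain ⟨t, ht⟩ := lt_iSup_iff.1 (this ▸ hβ)
    exact ⟨t, ht.le⟩
  classical
  obtain ⟨T, hT, hTmin⟩ : ∃ T, β ≤ μ (S T) ∧ ∀ t, t < T → μ (S t) < β :=
    ⟨Nat.find hex, Nat.find_spec hex, fun t ht => not_le.1 (Nat.find_min hex ht)⟩
  have hSα : μ (S T) ≤ 2 * β := by
    cases T with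
    | zero =>
      refine (measure_mono ?_).trans s.hSα
      rintro x (hx | ⟨t, h, -⟩)
      · exact hx.1
      · omega
    | succ T =>
      have : S (T + 1) ⊆ S T ∪ P T := by
        rintro x (hx | ⟨t, h1, h2, h3⟩)
        · exact .inl (.inl hx)
        · rcases (show t < T ∨ t = T by omega) with h | rfl
          · exact .inl (.inr ⟨t, h, h2, h3⟩)
          · exact .inr h2
      rw [two_mul]
      exact (measure_mono this).trans ((measure_union_le _ _).trans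
        (add_le_add (hTmin T (by omega)).le (hPβ T)))
  have hadd : ∀ t, t < T → ∀ x p u, u • x ∈ P t → c.Avail (L t x) p u → u • x ∈ S T :=
    fun t ht x p u h1 h2 => .inr ⟨t, ht, h1, rho u⁻¹ p,
      ((hav t).equi u x (rho u⁻¹ p, 1)).2 (by simpa using h2)⟩
  have hgen : ∀ x t, t ≤ T → L t x ≤ Subgroup.closure (fam s.w x ∪ c.loops (L T x) (Sx (S T) x)) := by
    intro x t
    induction t with
    | zero =>
      intro _
      refine (s.gen x).trans (Subgroup.closure_mono (Set.union_subset_union_right _ ?_))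
      rintro _ ⟨h1, p, u, h2, rfl⟩
      refine ⟨hmono x (Nat.zero_le T) h1, p, u, .inl ⟨h2, rho u⁻¹ p, ?_⟩, rfl⟩
      rw [s.hL.equi]; simpa using h1
    | succ t ih =>
      intro ht
      rw [hstep, Cfg.step, Subgroup.closure_le]
      rintro g (hg | ⟨p, u, h1, h2, rfl⟩)
      · exact ih (by omega) hg
      · exact Subgroup.subset_closure (.inr ⟨hmono x ht (c.loop_mem_step h1 h2), p, u,
          hadd t ht x p u h1 h2, rfl⟩)
  refine ⟨⟨L T, S T, s.w, hL T, hS T, hSα, s.hw, s.hk, fun i x => hmono x (Nat.zero_le T) (s.hwL i x),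
    fun x => hgen x T le_rfl, fun x => ?_, EE_proc_fin hμ c hL hP' hstep s.fin T⟩, ?_, ?_⟩
  · rw [eq_top_iff, ← s.surj x]
    exact sup_le_sup_right (hmono x (Nat.zero_le T)) _
  · refine hT.trans ?_
    rw [← lintegral_ind μ (measurableSet_setOfPred.1 (hS T))]
    refine lintegral_mono fun x => ind_le fun hx => ?_
    have : ∃ p, c.loop p 1 ∈ L T x := by
      rcases hx with ⟨-, p, h⟩ | ⟨t, h1, h2, p, h3⟩
      · exact ⟨p, hmono x (Nat.zero_le T) h⟩
      · exact ⟨p, hmono x h1 (c.loop_mem_step (one_mem_Sx.2 h2) h3)⟩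
    obtain ⟨p, hp⟩ := this
    refine le_trans (ind_of ⟨hp, hx⟩).ge (le_sumL (f := fun p => ind (c.loop p 1 ∈ L T x ∧ x ∈ S T))
      (fun l hl g => ?_) p)
    rw [c.loop_mul_mem hl]
  · refine (EE_proc_le hμ c hL hP' hstep T).trans (add_le_add le_rfl (mul_le_mul_right ?_ _))
    refine nu_mono fun x p => ind_mono ?_
    rintro ⟨t, ht, h⟩
    refine ⟨h.loop_mem c (fun t => hstep t x) ht, ?_⟩
    obtain ⟨l, -, h1, h2⟩ := h
    simpa using hadd t ht x _ 1 h1 h2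

lemma arith {k η C Cr C' N q : ℝ≥0∞} (hC : C ≠ ⊤) (hq : 480 ≤ q) (hq' : q ≠ ⊤)
    (h1 : C ≤ Cr + C') (h1' : C' ≤ C) (h2 : 4 * Cr ≤ η + 2 * C)
    (h3 : 40 * q * C' ≤ 400 * N + 20 * q * C') (h4 : N ≤ 6 * (k + C)) : C ≤ k + η := by
  have hC' : C' ≠ ⊤ := ne_top_of_le_ne_top hC h1'
  have h5 : 20 * q * C' ≤ 400 * N := by
    rw [← ENNReal.add_le_add_iff_right (a := 20 * q * C') (by finiteness)]
    refine le_trans (le_of_eq ?_) h3
    ring
  have h6 : 2400 * (4 * C') ≤ 2400 * (k + C) := by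
    calc _ = 20 * 480 * C' := by ring
      _ ≤ 20 * q * C' := by gcongr
      _ ≤ 400 * (6 * (k + C)) := h5.trans (by gcongr)
      _ = _ := by ring
  rw [ENNReal.mul_le_mul_iff_right (by simp) (by simp)] at h6
  rw [← ENNReal.add_le_add_iff_right (a := 3 * C) (by finiteness)]
  calc _ = 4 * C := by ring
    _ ≤ 4 * Cr + 4 * C' := by rw [← mul_add]; gcongr
    _ ≤ η + 2 * C + (k + C) := by gcongr
    _ = _ := by ring

include hμ in
theorem main_bound [IsProbabilityMeasure μ] [StandardBorelSpace X]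
    (hfree : ∀ g : Γ, g ≠ 1 → μ {x : X | g • x = x} = 0) {q : ℕ} (hq : c.ℓ = 4 * q) (hq' : 480 ≤ q)
    {β : ℝ≥0∞} (hβ : β < 1)
    (hspec : ∀ S, MeasurableSet S → μ S ≤ 2 * β → ∑ n : Fin c.ℓ, ∑ n' : Fin c.ℓ,
      μ ({x | (c.σ n 1)⁻¹ • x ∈ S} ∩ {x | (c.σ n' 1)⁻¹ • x ∈ S}) ≤ 5 * c.ℓ * μ S)
    (P : ℕ → Set X) (hP : ∀ t, MeasurableSet (P t))
    (hPβ : ∀ t, μ (P t) ≤ β) (hcov : ∀ x t₀, ∃ t, t₀ ≤ t ∧ x ∈ P t)
    (w : ℕ → X → FreeGroup Γ) (hw : ∀ i g, MeasurableSet {x | w i x = g})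
    (hlen : ∑' i, ∫⁻ x, (norm (w i x) : ℝ≥0∞) ∂μ < ⊤)
    (hsurj : ∀ x, Subgroup.closure (fam w x) ⊔ c.N = ⊤) : β ≤ ∑' i, μ {x | w i x ≠ 1} := by
  set k := ∑' i, μ {x | w i x ≠ 1}
  let s₀ : State μ c k (2 * β) := ⟨fun x => Subgroup.closure (fam w x), ∅, w,
    gsub_closure (good_fam hμ hw), MeasurableSet.empty, by simp, hw, le_rfl,
    fun i x => Subgroup.subset_closure ⟨1, i, by simp⟩,
    fun x => Subgroup.closure_mono Set.subset_union_left, hsurj,
    (EE_closure_le hμ hw).trans_lt hlen⟩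
  set E := ⨅ s : State μ c k (2 * β), EE μ s.L with hE
  have hEfin : E ≠ ⊤ := ((iInf_le _ s₀).trans_lt s₀.fin).ne
  refine ENNReal.le_of_forall_pos_le_add fun η hη _ => ?_
  obtain ⟨s₁, hs₁⟩ := iInf_lt_iff.1 (ENNReal.lt_add_right hEfin (by simpa using hη.ne') :
    E < E + η)
  obtain ⟨s, h1, h2⟩ := s₁.exists_grow hμ hβ P hP hPβ hcov
  obtain ⟨s', h3⟩ := s.exists_cut hμ
  have hS := gset_Sx hμ s.hS
  let Q : X → FreeGroup Γ → Γ → Prop := fun x p u => c.loop p u ∈ s.L x ∧ u ∈ Sx s.S x ∧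
    ¬ ∃ k, c.Rmv (s.L x) (Sx s.S x) p u k
  have hR : Good Γ fun x (w : FreeGroup Γ × Γ) => ∃ k, c.Rmv (s.L x) (Sx s.S x) w.1 w.2 k :=
    Good.ex' fun k => good_rmv s.hL hS c (by eqv) (by eqv) k
  have h4 := heavy_le hμ c s.hL s.hSα hq hspec Q
    (Good.and (s.hL.mem (by eqv)) (Good.and (hS.mem (by eqv)) hR.not))
    (fun x l hl p u => by simp only [Q, c.loop_mul_mem hl, Cfg.rmv_mul hl])
    (fun x p h => one_mem_Sx.1 h.2.1)
    (fun x p u h => ⟨h.1, Cfg.heavy_of_not_rmv h.2.1 h.1 h.2.2⟩)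
  have h5 := NN_le hμ c hfree s.hL s.fin s.hS s.hw s.hwL s.gen
  refine h1.trans (arith (s.C_fin hμ).ne (q := q) (by exact_mod_cast hq') (by simp)
    (Cr := nu μ s.L fun x p => ind (∃ k, c.Rmv (s.L x) (Sx s.S x) p 1 k)) ?_ ?_ ?_ h4
    (h5.trans (by gcongr; exacts [s.hk, le_rfl])))
  · rw [← nu_add s.hL fun p => measurable_ind (hR.meas (p, 1))]
    refine nu_mono fun x p => (ind_mono fun h => ?_).trans ind_or_le
    by_cases h' : ∃ k, c.Rmv (s.L x) (Sx s.S x) p 1 k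
    · exact .inl h'
    · exact .inr ⟨h.1, one_mem_Sx.2 h.2, h'⟩
  · exact nu_mono fun x p => ind_mono fun h => ⟨h.1, one_mem_Sx.1 h.2.1⟩
  · rw [← ENNReal.add_le_add_iff_left hEfin, ← add_assoc]
    exact (add_le_add (iInf_le _ s') le_rfl).trans (h3.trans (h2.trans (by gcongr)))

end Crest.Agent.R191
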