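import Mathlib

/-!
Row 191: positivity of the trace of an idempotent (abstract form).
-/

set_option autoImplicit false

namespace Crest.Agent.R191.Rk

theorem lemmaK {R : Type*} [NonUnitalRing R] [Module ℝ R] [IsScalarTower ℝ R R]
    (B : R →ₗ[ℝ] R →ₗ[ℝ] ℝ) (hs : ∀ a b, B a b = B b a) (hp : ∀ a, 0 ≤ B a a) (u e e' : R) (C : ℝ)
    (he : e * e = e) (hu : e * u = e) (htr : ∀ f, B (f * e) u = B (e * f) u)
    (hadj : ∀ a b, B (e * a) b = B a (e' * b))
    (hC : ∀ g, B (e' * g) (e' * g) ≤ C * B g g) : 0 ≤ B e u := by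
  have cs : ∀ a b, (B a b) ^ 2 ≤ B a a * B b b := fun a b => by
    have := LinearMap.BilinForm.apply_mul_apply_le_of_forall_zero_le B hp a b
    rw [hs b a] at this
    rw [sq]; exact this
  let C' := max C 1
  have hC1 : 1 ≤ C' := le_max_right _ _
  have hC' : ∀ g, B (e' * g) (e' * g) ≤ C' * B g g := fun g =>
    (hC g).trans (mul_le_mul_of_nonneg_right (le_max_left _ _) (hp g))
  let L : Set ℝ := {r | ∃ f, f * e = f ∧ r = B (u - f) (u - f)}
  have hne : L.Nonempty := ⟨_, 0, zero_mul _, rfl⟩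
  have hbdd : BddBelow L := ⟨0, by rintro r ⟨f, -, rfl⟩; exact hp _⟩
  have key : ∀ η > 0, ∃ s : ℝ, s ^ 2 ≤ η * C' * B u u ∧ s - η / 4 ≤ B e u := by
    intro η hη
    obtain ⟨r, ⟨f, hf, rfl⟩, hr⟩ := exists_lt_of_csInf_lt hne (lt_add_of_pos_right (sInf L) hη)
    have h1 : ∀ b, b * e = b → ∀ t : ℝ, 0 ≤ B b b * (t * t) + (-2 * B (u - f) b) * t + η := by
      intro b hb t
      have h2 : sInf L ≤ B (u - (f + t • b)) (u - (f + t • b)) :=
        csInf_le hbdd ⟨f + t • b, by rw [add_mul, smul_mul_assoc, hf, hb], rfl⟩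
      have h3 : u - (f + t • b) = (u - f) - t • b := by abel
      rw [h3] at h2
      have h4 : B ((u - f) - t • b) ((u - f) - t • b) =
          B (u - f) (u - f) - 2 * t * B (u - f) b + t * t * B b b := by
        generalize u - f = v
        simp only [map_sub, map_smul, LinearMap.sub_apply, LinearMap.smul_apply, smul_eq_mul]
        rw [hs b v]; ring
      rw [h4] at h2
      nlinarith
    have h2 : ∀ b, b * e = b → (B (u - f) b) ^ 2 ≤ η * B b b := by
      intro b hb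
      have := discrim_le_zero (h1 b hb)
      unfold discrim at this
      nlinarith
    have h3 : -η / 4 ≤ B f u := by
      have h4 := h1 f hf (-2)
      have h5 : B (u - f) f = B f u - B f f := by
        rw [map_sub, LinearMap.sub_apply, hs u f]
      rw [h5] at h4
      nlinarith
    have hg : (e * (u - f)) * e = e * (u - f) := by
      rw [mul_sub, hu, sub_mul, he, mul_assoc, hf]
    set g := e * (u - f) with hgdef
    have h4 : (B g g) ^ 2 ≤ η * (C' * B g g) := by
      have h5 := h2 (e' * g) (by rw [mul_assoc, hg])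
      rw [← hadj] at h5
      exact h5.trans (mul_le_mul_of_nonneg_left (hC' g) hη.le)
    have h5 : B g g ≤ η * C' := by
      rcases (hp g).lt_or_eq with h | h
      · nlinarith
      · rw [← h]; positivity
    refine ⟨B g u, (cs g u).trans (mul_le_mul_of_nonneg_right h5 (hp u)), ?_⟩
    have h6 : B g u = B e u - B f u := by
      rw [hgdef, mul_sub, hu, map_sub, LinearMap.sub_apply, ← htr, hf]
    linarith
  by_contra hneg
  push Not at hneg
  set ε := -B e u with hε
  have hε0 : 0 < ε := by linarith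
  have hM : 0 < C' * B u u + 1 := by have := hp u; positivity
  obtain ⟨s, hs1, hs2⟩ := key (min ε (ε ^ 2 / 4 / (C' * B u u + 1))) (by positivity)
  set η := min ε (ε ^ 2 / 4 / (C' * B u u + 1)) with hη
  have h1 : η ≤ ε := min_le_left _ _
  have h2 : η * (C' * B u u + 1) ≤ ε ^ 2 / 4 := (le_div_iff₀ hM).1 (min_le_right _ _)
  have h3 : 0 < η := by positivity
  have h4 : s ≤ -(3 / 4 * ε) := by linarith
  nlinarith

theorem lemmaK' {A : Type*} [Ring A] [Algebra ℝ A] (p : Submodule ℝ A)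
    (hmul : ∀ a b, a ∈ p → b ∈ p → a * b ∈ p) (B : A → A → ℝ)
    (hadd : ∀ a ∈ p, ∀ b ∈ p, ∀ c ∈ p, B (a + b) c = B a c + B b c)
    (hsmul : ∀ (r : ℝ), ∀ a ∈ p, ∀ b ∈ p, B (r • a) b = r * B a b)
    (hs : ∀ a b, B a b = B b a) (hp : ∀ a, 0 ≤ B a a) (u e e' : A) (hup : u ∈ p) (hep : e ∈ p)
    (hep' : e' ∈ p) (C : ℝ)
    (he : e * e = e) (hu : e * u = e) (htr : ∀ f ∈ p, B (f * e) u = B (e * f) u)
    (hadj : ∀ a b, B (e * a) b = B a (e' * b))
    (hC : ∀ g ∈ p, B (e' * g) (e' * g) ≤ C * B g g) : 0 ≤ B e u := by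
  let R : NonUnitalSubalgebra ℝ A := p.toNonUnitalSubalgebra hmul
  let B' : R →ₗ[ℝ] R →ₗ[ℝ] ℝ := LinearMap.mk₂ ℝ (fun a b => B a.1 b.1)
    (fun a b c => hadd _ a.2 _ b.2 _ c.2) (fun r a b => hsmul r _ a.2 _ b.2)
    (fun a b c => by
      change B a.1 (b.1 + c.1) = _
      rw [hs, hadd _ b.2 _ c.2 _ a.2, hs b.1, hs c.1])
    (fun r a b => by
      change B a.1 (r • b.1) = _
      rw [hs, hsmul r _ b.2 _ a.2, hs b.1, smul_eq_mul])
  exact lemmaK B' (fun a b => hs _ _) (fun a => hp _) ⟨u, hup⟩ ⟨e, hep⟩ ⟨e', hep'⟩ C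
    (Subtype.ext he) (Subtype.ext hu) (fun f => htr _ f.2) (fun a b => hadj _ _)
    (fun g => hC _ g.2)

end Crest.Agent.R191.Rk
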