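import Mathlib

/-!
Row 191 (S0291): geometry of the Cayley tree of a free group, hulls of subgroups, path integrals.
-/

set_option autoImplicit false
set_option linter.unusedSectionVars false

namespace Crest.Agent.R191

open FreeGroup

section Tree

variable {A : Type*}

/-- The inverse letter. -/
def inv' (s : A × Bool) : A × Bool := (s.1, !s.2)

@[simp] lemma inv'_inv' (s : A × Bool) : inv' (inv' s) = s := by simp [inv']

@[simp] lemma inv'_true (a : A) : inv' (a, true) = (a, false) := rfl
@[simp] lemma inv'_false (a : A) : inv' (a, false) = (a, true) := rfl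

lemma inv'_ne (s : A × Bool) : inv' s ≠ s := by
  rcases s with ⟨a, b⟩; cases b <;> simp [inv']

/-- The group element of a letter. -/
def el (s : A × Bool) : FreeGroup A := mk [s]

@[simp] lemma el_true (a : A) : el (a, true) = of a := rfl

lemma el_inv' (s : A × Bool) : el (inv' s) = (el s)⁻¹ := by
  rcases s with ⟨a, b⟩
  simp [el, inv', inv_mk, invRev]

@[simp] lemma el_false (a : A) : el (a, false) = (of a)⁻¹ := el_inv' (a, true)

lemma mk_cons (s : A × Bool) (w : List (A × Bool)) : mk (s :: w) = el s * mk w := by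
  simp [el, mul_mk]

lemma mk_concat (s : A × Bool) (w : List (A × Bool)) : mk (w ++ [s]) = mk w * el s := by
  simp [el, mul_mk]

/-- Induction along right multiplication by generators. -/
lemma ind_right {P : FreeGroup A → Prop} (h1 : P 1) (hs : ∀ h a, P h ↔ P (h * of a))
    (g : FreeGroup A) : P g := by
  have key : ∀ g : FreeGroup A, ∀ h, P h ↔ P (h * g) := by
    intro g
    induction g using FreeGroup.induction_on with
    | C1 => simp
    | of a => exact fun h => hs h a
    | inv_of a _ => intro h; rw [hs (h * (of a)⁻¹) a]; simp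
    | mul x y hx hy => intro h; rw [hx h, hy (h * x), mul_assoc]
  simpa using (key g 1).1 h1

variable [DecidableEq A]

/-- The reduced word of `y` starts with the letter `s`. -/
def St (s : A × Bool) (y : FreeGroup A) : Prop := y.toWord.head? = some s

lemma St.unique {s t : A × Bool} {y : FreeGroup A} (h : St s y) (h' : St t y) : s = t := by
  unfold St at h h'; rw [h] at h'; exact Option.some.inj h'

lemma not_St_one (s : A × Bool) : ¬ St s (1 : FreeGroup A) := by simp [St]

lemma exists_St {y : FreeGroup A} (h : y ≠ 1) : ∃ s, St s y := by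
  unfold St
  cases hw : y.toWord with
  | nil => exact absurd (toWord_eq_nil_iff.1 hw) h
  | cons s w => exact ⟨s, rfl⟩

@[simp] lemma toWord_el (s : A × Bool) : (el s).toWord = [s] := rfl

lemma St_el (s : A × Bool) : St s (el s) := rfl

lemma toWord_el_mul (s : A × Bool) (y : FreeGroup A) :
    (el s * y).toWord = reduce (s :: y.toWord) := by
  rw [toWord_mul]; simp

lemma toWord_el_mul_of_not {s : A × Bool} {y : FreeGroup A} (h : ¬ St (inv' s) y) :
    (el s * y).toWord = s :: y.toWord := by
  rw [toWord_el_mul, reduce.cons, reduce_toWord]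
  unfold St at h
  cases hw : y.toWord with
  | nil => rfl
  | cons t w =>
    rw [hw] at h
    simp only
    rw [if_neg]
    rintro ⟨h1, h2⟩
    apply h
    rcases s with ⟨a, b⟩; rcases t with ⟨c, d⟩
    simp only at h1 h2
    subst h1 h2
    simp [inv']

lemma toWord_of_St {s : A × Bool} {y : FreeGroup A} (h : St (inv' s) y) :
    y.toWord = inv' s :: (el s * y).toWord := by
  rw [toWord_el_mul, reduce.cons, reduce_toWord]
  unfold St at h
  cases hw : y.toWord with
  | nil => rw [hw] at h; simp at h
  | cons t w =>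
    rw [hw] at h
    simp only [List.head?_cons, Option.some.injEq] at h
    subst h
    simp [inv']

lemma St_el_mul {s : A × Bool} {y : FreeGroup A} : St s (el s * y) ↔ ¬ St (inv' s) y := by
  constructor
  · intro h h'
    have h1 := toWord_of_St h'
    have h2 : IsReduced y.toWord := isReduced_toWord
    unfold St at h
    cases hw : (el s * y).toWord with
    | nil => rw [hw] at h; simp at h
    | cons t w =>
      rw [hw] at h h1
      simp only [List.head?_cons, Option.some.injEq] at h
      subst h
      rw [h1, isReduced_cons_cons] at h2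
      have := h2.1 rfl
      rcases t with ⟨a, b⟩
      cases b <;> simp [inv'] at this
  · intro h
    unfold St
    rw [toWord_el_mul_of_not h]; rfl

lemma invRev_cons' (s : A × Bool) (w : List (A × Bool)) :
    invRev (s :: w) = invRev w ++ [inv' s] := by
  simp [invRev, inv']

lemma toWord_mul_el (y : FreeGroup A) (t : A × Bool) :
    (y * el t).toWord = y.toWord ++ [t] ∨ y.toWord = (y * el t).toWord ++ [inv' t] := by
  have e : (y * el t)⁻¹ = el (inv' t) * y⁻¹ := by rw [el_inv']; group
  by_cases h : St (inv' (inv' t)) y⁻¹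
  · right
    have := toWord_of_St h
    rw [← e, toWord_inv, toWord_inv] at this
    have h2 := congrArg invRev this
    rw [invRev_invRev, invRev_cons', invRev_invRev] at h2
    simpa using h2
  · left
    have := toWord_el_mul_of_not h
    rw [← e, toWord_inv, toWord_inv] at this
    have h2 := congrArg invRev this
    rw [invRev_invRev, invRev_cons', invRev_invRev] at h2
    simpa using h2

/-- Crossing lemma. -/
lemma St_cross {s t : A × Bool} {y : FreeGroup A} (h : St s y) (h' : ¬ St s (y * el t)) :
    y = el s ∧ t = inv' s := by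
  unfold St at h h'
  rcases toWord_mul_el y t with e | e
  · exfalso; apply h'; rw [e]
    cases hw : y.toWord with
    | nil => rw [hw] at h; simp at h
    | cons r w => rw [hw] at h; simpa using h
  · cases hw : (y * el t).toWord with
    | nil =>
      rw [hw] at e
      rw [e] at h
      simp only [List.nil_append, List.head?_cons, Option.some.injEq] at h
      subst h
      refine ⟨toWord_injective ?_, by simp⟩
      rw [e]; rfl
    | cons r w =>
      exfalso; apply h'
      rw [hw] at e; rw [e] at h; rw [hw]; simpa using h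

lemma norm_el (s : A × Bool) : norm (el s) = 1 := rfl

lemma norm_lt_of_St {s : A × Bool} {y : FreeGroup A} (h : St s y) :
    norm ((el s)⁻¹ * y) + 1 = norm y := by
  have h' : St (inv' (inv' s)) y := by simpa using h
  have := toWord_of_St h'
  rw [el_inv'] at this
  unfold FreeGroup.norm
  rw [this]; simp

lemma St_mul_of_norm_lt {s : A × Bool} (q : FreeGroup A) :
    ∀ {y : FreeGroup A}, St s y → norm q < norm y → St s (y * q) := by
  have key : ∀ w : List (A × Bool), ∀ {y : FreeGroup A}, St s y → w.length < norm y →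
      St s (y * mk w) := by
    intro w
    induction w with
    | nil => intro y h _; simpa [← one_eq_mk] using h
    | cons t w ih =>
      intro y h hl
      rw [mk_cons, ← mul_assoc]
      apply ih
      · by_contra h'
        have := (St_cross h h').1
        rw [this, norm_el] at hl
        simp at hl
      · have := norm_mul_le (y * el t) (el t)⁻¹
        rw [norm_inv_eq, norm_el] at this
        simp only [mul_inv_cancel_right, List.length_cons] at this hl
        omega
  intro y h hl
  have := key q.toWord h hl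
  rwa [mk_toWord] at this

lemma head?_invRev (w : List (A × Bool)) : (invRev w).head? = w.getLast?.map inv' := by
  induction w using List.reverseRecOn with
  | nil => simp [invRev]
  | append_singleton w s _ => simp [invRev, inv']

lemma toWord_mul_of_St {t : A × Bool} {y u : FreeGroup A} (hy : ¬ St t y⁻¹) (hu : St t u) :
    (y * u).toWord = y.toWord ++ u.toWord := by
  rw [toWord_mul]
  apply IsReduced.reduce_eq
  unfold FreeGroup.IsReduced
  rw [List.isChain_append]
  refine ⟨isReduced_toWord, isReduced_toWord, ?_⟩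
  intro x hx z hz hxz
  unfold St at hy hu
  rw [hu] at hz
  simp only [Option.mem_def, Option.some.injEq] at hz hx
  subst hz
  rw [toWord_inv, head?_invRev, hx] at hy
  by_contra hne
  apply hy
  rcases x with ⟨a, b⟩; rcases t with ⟨c, d⟩
  simp only at hxz hne
  subst hxz
  cases b <;> cases d <;> simp_all [inv']

/-- `h` lies beyond the directed edge that leaves `g` with letter `s`. -/
def Sep (g : FreeGroup A) (s : A × Bool) (h : FreeGroup A) : Prop := St s (g⁻¹ * h)

lemma Sep_mul (l g : FreeGroup A) (s : A × Bool) (h : FreeGroup A) :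
    Sep (l * g) s (l * h) ↔ Sep g s h := by
  unfold Sep; simp [mul_assoc]

lemma Sep_rev (g : FreeGroup A) (s : A × Bool) (h : FreeGroup A) :
    Sep (g * el s) (inv' s) h ↔ ¬ Sep g s h := by
  unfold Sep
  have : g⁻¹ * h = el s * ((g * el s)⁻¹ * h) := by group
  rw [this, St_el_mul, not_not]

lemma not_Sep_self (g : FreeGroup A) (s : A × Bool) : ¬ Sep g s g := by
  unfold Sep; simpa using not_St_one s

lemma Sep_next (g : FreeGroup A) (s : A × Bool) : Sep g s (g * el s) := by
  unfold Sep; simpa using St_el s

lemma Sep_cross {g h : FreeGroup A} {s t : A × Bool} (h1 : Sep g s h) (h2 : ¬ Sep g s (h * el t)) :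
    h = g * el s ∧ t = inv' s := by
  unfold Sep at h1 h2
  rw [← mul_assoc] at h2
  obtain ⟨e1, e2⟩ := St_cross h1 h2
  exact ⟨by rw [← e1]; group, e2⟩

lemma Sep_cross' {g h : FreeGroup A} {s t : A × Bool} (h1 : ¬ Sep g s h)
    (h2 : Sep g s (h * el t)) : h = g ∧ t = s := by
  have h3 : ¬ Sep g s (h * el t * el (inv' t)) := by rw [el_inv']; simpa using h1
  obtain ⟨e1, e2⟩ := Sep_cross h2 h3
  have e3 : t = s := by
    have := congrArg inv' e2; simpa using this
  subst e3
  exact ⟨mul_right_cancel e1, rfl⟩

/-- Two points beyond an edge look the same from a point that is not beyond it. -/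
lemma Sep_same {g y h₁ h₂ : FreeGroup A} {t s : A × Bool} (hg : ¬ Sep y t g)
    (h1 : Sep y t h₁) (h2 : Sep y t h₂) (hs : Sep g s h₁) : Sep g s h₂ := by
  unfold Sep at *
  have hy : ¬ St t (g⁻¹ * y)⁻¹ := by simpa using hg
  have e1 := toWord_mul_of_St hy h1
  have e2 := toWord_mul_of_St hy h2
  have e1' : g⁻¹ * y * (y⁻¹ * h₁) = g⁻¹ * h₁ := by group
  have e2' : g⁻¹ * y * (y⁻¹ * h₂) = g⁻¹ * h₂ := by group
  rw [e1'] at e1; rw [e2'] at e2
  unfold St at *
  rw [e1] at hs; rw [e2]
  rw [List.head?_append] at hs ⊢
  rw [h1] at hs; rw [h2]; exact hs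

/-- Vertices reachable from `1` along directed edges in `E`. -/
inductive Reach (E : FreeGroup A → A × Bool → Prop) : FreeGroup A → Prop
  | one : Reach E 1
  | step {g : FreeGroup A} {s : A × Bool} : Reach E g → E g s → Reach E (g * el s)

omit [DecidableEq A] in
lemma Reach.mono {E E' : FreeGroup A → A × Bool → Prop} (hE : ∀ g s, E g s → E' g s)
    {h : FreeGroup A} (H : Reach E h) : Reach E' h := by
  induction H with
  | one => exact .one
  | step _ h2 ih => exact ih.step (hE _ _ h2)

/-- A set of directed edges closed under reversal. -/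
def Symm (E : FreeGroup A → A × Bool → Prop) : Prop := ∀ g s, E g s → E (g * el s) (inv' s)

omit [DecidableEq A] in
lemma Symm.rev {E : FreeGroup A → A × Bool → Prop} (hE : Symm E) {g : FreeGroup A}
    {s : A × Bool} (h : E (g * el s) (inv' s)) : E g s := by
  have := hE _ _ h
  rw [el_inv'] at this
  simpa using this

lemma Reach.sep {E : FreeGroup A → A × Bool → Prop} (hE : Symm E) {h : FreeGroup A}
    (H : Reach E h) {g : FreeGroup A} {s : A × Bool} (hn : ¬ E g s) : Sep g s h ↔ Sep g s 1 := by
  induction H with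
  | one => rfl
  | @step y t _ h2 ih =>
    rw [← ih]
    constructor
    · intro h3
      by_contra h4
      obtain ⟨rfl, rfl⟩ := Sep_cross' h4 h3
      exact hn h2
    · intro h3
      by_contra h4
      obtain ⟨rfl, rfl⟩ := Sep_cross h3 h4
      exact hn (hE.rev h2)

lemma reach_of_sep {E : FreeGroup A → A × Bool → Prop} :
    ∀ {h : FreeGroup A}, (∀ g s, ¬ Sep g s 1 → Sep g s h → E g s) → Reach E h := by
  have key : ∀ n : ℕ, ∀ h : FreeGroup A, norm h = n →
      (∀ g s, ¬ Sep g s 1 → Sep g s h → E g s) → Reach E h := by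
    intro n
    induction n with
    | zero => intro h hn _; rw [norm_eq_zero.1 hn]; exact .one
    | succ n ih =>
      intro h hn H
      have hne : h⁻¹ ≠ 1 := by
        intro h0
        rw [inv_eq_one] at h0; rw [h0] at hn; simp at hn
      obtain ⟨r, hr⟩ := exists_St hne
      have hnorm := norm_lt_of_St hr
      set h' := h * el r with hh'
      have hn' : norm h' = n := by
        have : (el r)⁻¹ * h⁻¹ = h'⁻¹ := by rw [hh']; group
        rw [this, norm_inv_eq, norm_inv_eq] at hnorm
        omega
      have e : h = h' * el (inv' r) := by rw [hh', el_inv']; group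
      have hs1 : Sep h r 1 := by unfold Sep; simpa using hr
      rw [e]
      refine (ih h' hn' ?_).step ?_
      · intro g s h1 h2
        apply H g s h1
        by_contra h3
        rw [e] at h3
        obtain ⟨e1, e2⟩ := Sep_cross h2 h3
        have e3 : r = s := by
          have := congrArg inv' e2; simpa using this
        subst e3
        have : h = g := mul_right_cancel (hh'.symm.trans e1)
        subst this
        exact h1 hs1
      · apply H
        · rw [hh', Sep_rev]; exact not_not.2 hs1
        · rw [hh', Sep_rev]; exact not_Sep_self _ _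
  intro h H
  exact key _ h rfl H

lemma reach_iff {E : FreeGroup A → A × Bool → Prop} (hE : Symm E) {h : FreeGroup A} :
    Reach E h ↔ ∀ g s, ¬ Sep g s 1 → Sep g s h → E g s := by
  refine ⟨fun H g s h1 h2 => ?_, reach_of_sep⟩
  by_contra hn
  exact h1 ((H.sep hE hn).1 h2)

omit [DecidableEq A] in
/-- Concatenation of paths, for an edge set invariant under `l`. -/
lemma Reach.mul {E : FreeGroup A → A × Bool → Prop} {l h : FreeGroup A}
    (hl : ∀ g s, E g s → E (l * g) s) (H1 : Reach E l) (H2 : Reach E h) : Reach E (l * h) := by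
  induction H2 with
  | one => simpa using H1
  | step _ h2 ih => rw [← mul_assoc]; exact ih.step (hl _ _ h2)

omit [DecidableEq A] in
/-- Going back along a translated path. -/
lemma Reach.back {E : FreeGroup A → A × Bool → Prop} (hE : Symm E) {l h : FreeGroup A}
    (hl : ∀ g s, E g s → E (l * g) s) (H2 : Reach E h) (H1 : Reach E (l * h)) : Reach E l := by
  induction H2 with
  | one => simpa using H1
  | @step g s _ h2 ih =>
    apply ih
    have := H1.step (s := inv' s) (by rw [← mul_assoc]; exact hE _ _ (hl _ _ h2))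
    rw [el_inv'] at this
    simpa [mul_assoc] using this

/-- The directed edge `(g, s)` lies in the convex hull of `L`. -/
def Hull (L : Subgroup (FreeGroup A)) (g : FreeGroup A) (s : A × Bool) : Prop :=
  ∃ h₁ ∈ L, ∃ h₂ ∈ L, Sep g s h₁ ∧ ¬ Sep g s h₂

lemma hull_symm (L : Subgroup (FreeGroup A)) : Symm (Hull L) := by
  rintro g s ⟨h₁, m1, h₂, m2, s1, s2⟩
  exact ⟨h₂, m2, h₁, m1, (Sep_rev _ _ _).2 s2, by rw [Sep_rev]; exact not_not.2 s1⟩

lemma hull_rev {L : Subgroup (FreeGroup A)} {g : FreeGroup A} {s : A × Bool} :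
    Hull L (g * el s) (inv' s) ↔ Hull L g s :=
  ⟨(hull_symm L).rev, hull_symm L g s⟩

lemma Hull.mul {L : Subgroup (FreeGroup A)} {l g : FreeGroup A} {s : A × Bool} (hl : l ∈ L)
    (h : Hull L g s) : Hull L (l * g) s := by
  obtain ⟨h₁, m1, h₂, m2, s1, s2⟩ := h
  exact ⟨l * h₁, L.mul_mem hl m1, l * h₂, L.mul_mem hl m2, (Sep_mul _ _ _ _).2 s1,
    fun h => s2 ((Sep_mul _ _ _ _).1 h)⟩

lemma hull_mul {L : Subgroup (FreeGroup A)} {l g : FreeGroup A} {s : A × Bool} (hl : l ∈ L) :
    Hull L (l * g) s ↔ Hull L g s :=
  ⟨fun h => by simpa using h.mul (L.inv_mem hl), Hull.mul hl⟩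

lemma Hull.mono {L L' : Subgroup (FreeGroup A)} (hL : L ≤ L') {g : FreeGroup A} {s : A × Bool}
    (h : Hull L g s) : Hull L' g s := by
  obtain ⟨h₁, m1, h₂, m2, s1, s2⟩ := h
  exact ⟨h₁, hL m1, h₂, hL m2, s1, s2⟩

lemma reach_hull_of_mem {L : Subgroup (FreeGroup A)} {h : FreeGroup A} (hh : h ∈ L) :
    Reach (Hull L) h :=
  reach_of_sep fun _ _ h1 h2 => ⟨h, hh, 1, L.one_mem, h2, h1⟩

lemma reach_hull_of_hull {L : Subgroup (FreeGroup A)} {g : FreeGroup A} {s : A × Bool}
    (h : Hull L g s) : Reach (Hull L) g := by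
  obtain ⟨h₁, m1, h₂, m2, s1, s2⟩ := h
  apply reach_of_sep
  intro y t h1 h2
  by_cases c1 : Sep y t h₁
  · exact ⟨h₁, m1, 1, L.one_mem, c1, h1⟩
  by_cases c2 : Sep y t h₂
  · exact ⟨h₂, m2, 1, L.one_mem, c2, h1⟩
  exfalso
  apply s2
  exact Sep_same (y := y * el t) (t := inv' t) (by rw [Sep_rev]; exact not_not.2 h2)
    ((Sep_rev _ _ _).2 c1) ((Sep_rev _ _ _).2 c2) s1

lemma Hull.other {L : Subgroup (FreeGroup A)} {g : FreeGroup A} {s : A × Bool}
    (h : Hull L g s) (hg : g ∉ L) : ∃ s', s' ≠ s ∧ Hull L g s' := by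
  obtain ⟨h₁, m1, h₂, m2, s1, s2⟩ := h
  have hne : g⁻¹ * h₂ ≠ 1 := by
    intro h0
    rw [inv_mul_eq_one] at h0
    exact hg (h0 ▸ m2)
  obtain ⟨s', hs'⟩ := exists_St hne
  have hss : s' ≠ s := by rintro rfl; exact s2 hs'
  exact ⟨s', hss, h₂, m2, h₁, m1, hs', fun h => hss (St.unique h s1)⟩

lemma hull_of_mem_of_mem {L : Subgroup (FreeGroup A)} {g : FreeGroup A} {s : A × Bool}
    (h1 : g ∈ L) (h2 : g * el s ∈ L) : Hull L g s :=
  ⟨_, h2, _, h1, Sep_next _ _, not_Sep_self _ _⟩

/-- A symmetric edge set along which all of `L` can be reached contains the hull. -/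
lemma hull_subset {L : Subgroup (FreeGroup A)} {E : FreeGroup A → A × Bool → Prop} (hE : Symm E)
    (H : ∀ h ∈ L, Reach E h) {g : FreeGroup A} {s : A × Bool} (h : Hull L g s) : E g s := by
  obtain ⟨h₁, m1, h₂, m2, s1, s2⟩ := h
  by_contra hn
  exact s2 (((H _ m2).sep hE hn).2 (((H _ m1).sep hE hn).1 s1))

/-- The elements of `L` reachable along an `L`-invariant symmetric edge set form a subgroup. -/
def reachSub (L : Subgroup (FreeGroup A)) (E : FreeGroup A → A × Bool → Prop) (hE : Symm E)
    (hinv : ∀ l ∈ L, ∀ g s, E g s → E (l * g) s) : Subgroup (FreeGroup A) where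
  carrier := {h | h ∈ L ∧ Reach E h}
  one_mem' := ⟨L.one_mem, .one⟩
  mul_mem' := fun {a b} ha hb => ⟨L.mul_mem ha.1 hb.1, Reach.mul (hinv a ha.1) ha.2 hb.2⟩
  inv_mem' := fun {a} ha => ⟨L.inv_mem ha.1,
    Reach.back hE (hinv _ (L.inv_mem ha.1)) ha.2 (by simpa using Reach.one)⟩

/-- If a generating set of `L` is reachable along an invariant symmetric edge set, so is `L`. -/
lemma reach_of_closure {T : Set (FreeGroup A)} {E : FreeGroup A → A × Bool → Prop} (hE : Symm E)
    (hinv : ∀ l ∈ Subgroup.closure T, ∀ g s, E g s → E (l * g) s) (hT : ∀ h ∈ T, Reach E h) :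
    ∀ h ∈ Subgroup.closure T, Reach E h := by
  intro h hh
  have : Subgroup.closure T ≤ reachSub _ E hE hinv :=
    (Subgroup.closure_le _).2 fun h hh => ⟨Subgroup.subset_closure hh, hT h hh⟩
  exact (this hh).2

end Tree

section Integral

variable {A M : Type*} [Group M]

/-- One step along a generator, recording the weight of the edge. -/
def stepPerm (W : FreeGroup A → A → M) (a : A) : Equiv.Perm (FreeGroup A × M) where
  toFun p := (p.1 * of a, p.2 * W p.1 a)
  invFun p := (p.1 * (of a)⁻¹, p.2 * (W (p.1 * (of a)⁻¹) a)⁻¹)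
  left_inv p := by simp
  right_inv p := by simp

/-- The product of the edge weights along the path from `1` to `h`. -/
def pint (W : FreeGroup A → A → M) (h : FreeGroup A) : M :=
  (FreeGroup.lift (fun a => (stepPerm W a)⁻¹) h⁻¹ (1, 1)).2

lemma pint_aux (W : FreeGroup A → A → M) (h : FreeGroup A) :
    (FreeGroup.lift (fun a => (stepPerm W a)⁻¹) h⁻¹ (1, 1)).1 = h := by
  induction h using ind_right with
  | h1 => simp
  | hs h a =>
    rw [mul_inv_rev, _root_.map_mul, _root_.map_inv _ (of a), lift_apply_of, inv_inv,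
      Equiv.Perm.mul_apply]
    simp [stepPerm]

@[simp] lemma pint_one (W : FreeGroup A → A → M) : pint W 1 = 1 := by simp [pint]

lemma pint_mul_of (W : FreeGroup A → A → M) (h : FreeGroup A) (a : A) :
    pint W (h * of a) = pint W h * W h a := by
  unfold pint
  rw [mul_inv_rev, _root_.map_mul, _root_.map_inv, lift_apply_of, inv_inv, Equiv.Perm.mul_apply]
  have := pint_aux W h
  simp only [stepPerm, Equiv.coe_fn_mk] at this ⊢
  rw [this]

lemma pint_mul_inv_of (W : FreeGroup A → A → M) (h : FreeGroup A) (a : A) :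
    pint W (h * (of a)⁻¹) = pint W h * (W (h * (of a)⁻¹) a)⁻¹ := by
  have := pint_mul_of W (h * (of a)⁻¹) a
  rw [inv_mul_cancel_right] at this
  rw [this]; simp

lemma pint_unique {W : FreeGroup A → A → M} {f : FreeGroup A → M} (m : M) (h1 : f 1 = m)
    (hs : ∀ h a, f (h * of a) = f h * W h a) (h : FreeGroup A) : f h = m * pint W h := by
  induction h using ind_right with
  | h1 => simpa using h1
  | hs h a => rw [hs, pint_mul_of, ← mul_assoc, mul_left_inj]

lemma pint_mul {W : FreeGroup A → A → M} {l : FreeGroup A} (hl : ∀ g a, W (l * g) a = W g a)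
    (h : FreeGroup A) : pint W (l * h) = pint W l * pint W h :=
  pint_unique (f := fun h => pint W (l * h)) _ (by simp)
    (fun h a => by simp only [← mul_assoc, pint_mul_of, hl]) h

end Integral

end Crest.Agent.R191
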