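import Crest.Agent.R191.Grp
import Crest.Prelude.Def_Cost

/-!
Row 191 (S0291): free actions of `Gam ℓ` of cost close to one.
-/

set_option autoImplicit false

namespace Crest.Agent.R191

open MeasureTheory
open scoped ENNReal

namespace UpperAux

variable {ℓ : ℕ} (N : ℕ)

/-- First character. -/
noncomputable def phi : Gam ℓ →* Multiplicative (ZMod N) :=
  Gam.lift (fun j => Multiplicative.ofAdd ((j.val : ℕ) : ZMod N)) 1 (by simp)

/-- Second character. -/
noncomputable def psi : Gam ℓ →* Multiplicative (ZMod N) :=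
  Gam.lift (fun _ => 1) (Multiplicative.ofAdd 1) (by simp)

theorem gen_all (hℓ : 4 ≤ ℓ) {Y : Type*} [MulAction (Gam ℓ) Y] (R : Y → Y → Prop)
    (hR : Equivalence R) (p q : Y → ZMod N)
    (hp : ∀ (g : Gam ℓ) y, p (g • y) = (phi N g).toAdd + p y)
    (hq : ∀ (g : Gam ℓ) y, q (g • y) = (psi N g).toAdd + q y) [NeZero N]
    (hz : ∀ y, R y ((Gam.z : Gam ℓ) • y))
    (hk : ∀ (j : ZMod ℓ) y, q y = 0 → R y (Gam.kk j • y))
    (ha : ∀ y, (p y).val < ℓ - 1 → R y ((Gam.T 0 : Gam ℓ) • y)) (g : Gam ℓ) (y : Y) :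
    R y (g • y) := by
  have : NeZero ℓ := ⟨by omega⟩
  let H : Subgroup (Gam ℓ) :=
    { carrier := {g | ∀ y, R y (g • y)}
      one_mem' := fun y => by rw [one_smul]; exact hR.refl y
      mul_mem' := fun {a b} ha hb y => by rw [mul_smul]; exact hR.trans (hb y) (ha _)
      inv_mem' := fun {a} ha y => by
        have := ha (a⁻¹ • y)
        rw [smul_inv_smul] at this
        exact hR.symm this }
  have h1 : (Gam.z : Gam ℓ) ∈ H := hz
  have h2 : ∀ j : ZMod ℓ, Gam.kk j ∈ H := by
    intro j
    intro y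
    have e1 : q ((Gam.z : Gam ℓ) ^ (-q y).val • y) = 0 := by
      rw [hq, map_pow]
      simp [psi]
    have e2 := hk j _ e1
    have e3 : Gam.kk j • (Gam.z : Gam ℓ) ^ (-q y).val • y
        = (Gam.z : Gam ℓ) ^ (-q y).val • Gam.kk j • y := by
      rw [smul_smul, smul_smul, ((show Commute Gam.z (Gam.kk j) from Gam.z_comm j).pow_left _).eq]
    rw [e3] at e2
    exact hR.trans (H.pow_mem h1 _ y) (hR.trans e2 (hR.symm (H.pow_mem h1 _ _)))
  have h3 : ∀ c : ℕ, ∀ y, p y = (c : ZMod N) → R y ((Gam.T 0 : Gam ℓ) • y) := by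
    intro c
    induction c using Nat.strong_induction_on with
    | _ c ih =>
      intro y hy
      by_cases hc : c < ℓ - 1
      · apply ha
        rw [hy, ZMod.val_natCast]
        exact lt_of_le_of_lt (Nat.mod_le _ _) hc
      · obtain ⟨d, rfl⟩ : ∃ d, c = (ℓ - 1) + d := ⟨c - (ℓ - 1), by omega⟩
        set y' := (Gam.T ((ℓ - 1 : ℕ) : ZMod ℓ))⁻¹ • y with hy'
        have hT : ∀ m : ℕ, m < ℓ → ∀ y, p (Gam.T (m : ZMod ℓ) • y) = m + p y := by
          intro m hm y
          rw [hp]
          simp only [phi, Gam.lift_T, ZMod.val_natCast_of_lt hm, toAdd_ofAdd]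
        have e0 : Gam.T ((ℓ - 1 : ℕ) : ZMod ℓ) • y' = y := smul_inv_smul _ _
        have e1 : p y' = d := by
          have := hT (ℓ - 1) (by omega) y'
          rw [e0, hy, Nat.cast_add] at this
          exact (add_left_cancel this).symm
        have e2 : ∀ m : ℕ, m ≤ ℓ - 1 → R ((Gam.T 0 : Gam ℓ) • y') (Gam.T (m : ZMod ℓ) • y') := by
          intro m hm
          induction m with
          | zero => rw [Nat.cast_zero]; exact hR.refl _
          | succ m ihm =>
            rw [Nat.cast_succ, Gam.T_succ, mul_smul, mul_smul, ← mul_smul (Gam.kk _), mul_smul]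
            refine hR.trans (ihm (by omega)) (hR.trans (ih (m + d) (by omega) _ ?_) (h2 _ _))
            rw [hT m (by omega), e1, Nat.cast_add]
        have e3 := e2 (ℓ - 1) le_rfl
        rw [e0] at e3
        have e4 : (Gam.T 0 : Gam ℓ) • y'
            = Gam.kk ((ℓ - 1 : ℕ) : ZMod ℓ) • (Gam.T 0 : Gam ℓ) • y := by
          have : ((ℓ - 1 : ℕ) : ZMod ℓ) + 1 = 0 := by
            rw [← Nat.cast_succ, show (ℓ - 1).succ = ℓ by omega, ZMod.natCast_self]
          conv_lhs => rw [← this, Gam.T_succ, mul_smul, e0, mul_smul]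
        refine hR.trans (hR.symm e3) ?_
        rw [e4]
        exact hR.symm (h2 _ _)
  have h4 : (Gam.T 0 : Gam ℓ) ∈ H := fun y => h3 (p y).val y (by simp)
  have h5 : ∀ m : ℕ, Gam.T (m : ZMod ℓ) ∈ H := by
    intro m
    induction m with
    | zero => rw [Nat.cast_zero]; exact h4
    | succ m ih => rw [Nat.cast_succ, Gam.T_succ]; exact H.mul_mem (H.mul_mem (h2 _) h4) ih
  exact Gam.mem_of_gen H (fun j => by simpa using h5 j.val) h1 g y

/-- The skew product action. -/
noncomputable instance act {X : Type} [MulAction (Gam ℓ) X] :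
    MulAction (Gam ℓ) (ZMod N × ZMod N × X) where
  smul g y := ((phi N g).toAdd + y.1, (psi N g).toAdd + y.2.1, g • y.2.2)
  one_smul y := by
    show ((phi N 1).toAdd + y.1, (psi N 1).toAdd + y.2.1, (1 : Gam ℓ) • y.2.2) = y
    simp
  mul_smul g h y := by
    show ((phi N (g * h)).toAdd + y.1, (psi N (g * h)).toAdd + y.2.1, (g * h) • y.2.2)
      = ((phi N g).toAdd + ((phi N h).toAdd + y.1), (psi N g).toAdd + ((psi N h).toAdd + y.2.1),
        g • h • y.2.2)
    simp [add_assoc, mul_smul]

theorem smul_def {X : Type} [MulAction (Gam ℓ) X] (g : Gam ℓ) (y : ZMod N × ZMod N × X) :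
    g • y = ((phi N g).toAdd + y.1, (psi N g).toAdd + y.2.1, g • y.2.2) := rfl

/-- The uniform measure. -/
noncomputable def un : Measure (ZMod N) := (N : ℝ≥0∞)⁻¹ • Measure.count

instance [NeZero N] : IsProbabilityMeasure (un N) := ⟨by
  simp only [un, Measure.smul_apply, Measure.count_univ, smul_eq_mul]
  rw [ENat.card_eq_coe_fintype_card, ZMod.card]
  simp only [ENat.toENNReal_coe]
  exact ENNReal.inv_mul_cancel (by simpa using NeZero.ne N) (by simp)⟩

theorem un_pres [NeZero N] (a : ZMod N) : MeasurePreserving (fun t => a + t) (un N) (un N) :=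
  (measurePreserving_add_left (Measure.count : Measure (ZMod N)) a).smul_measure _

theorem un_le [NeZero N] (k : ℕ) : un N {t | t.val < k} ≤ k / N := by
  have : {t : ZMod N | t.val < k} ⊆ ((Finset.range k).image (fun n : ℕ => (n : ZMod N)) : Finset _) := by
    intro t ht
    simp only [Finset.coe_image, Finset.coe_range, Set.mem_image, Set.mem_Iio]
    exact ⟨t.val, ht, by simp⟩
  refine (measure_mono this).trans ?_
  simp only [un, Measure.smul_apply, Measure.count_apply_finset, smul_eq_mul]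
  rw [div_eq_mul_inv, mul_comm]
  gcongr
  exact Finset.card_image_le.trans (by simp)

end UpperAux

open UpperAux in
theorem upper {ℓ : ℕ} (hℓ : 4 ≤ ℓ) {X : Type} [MeasurableSpace X] [StandardBorelSpace X]
    [MulAction (Gam ℓ) X] (μ : Measure X) [IsProbabilityMeasure μ]
    (hfree : Crest.Dynamics.IsFreePMPAction (Gam ℓ) X μ) (M : ℕ) (hM : 0 < M) :
    ∃ (Y : Type) (_ : MeasurableSpace Y) (_ : StandardBorelSpace Y) (ν : Measure Y)
      (_ : IsProbabilityMeasure ν) (_ : MulAction (Gam ℓ) Y),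
      Crest.Dynamics.IsFreePMPAction (Gam ℓ) Y ν ∧
      Crest.Dynamics.actionCost (Gam ℓ) Y ν ≤ 1 + 99 / (M : ENNReal) := by
  classical
  obtain ⟨N, hN⟩ : ∃ N, N = ℓ * M := ⟨_, rfl⟩
  have : NeZero N := ⟨by rw [hN]; positivity⟩
  have : NeZero ℓ := ⟨by omega⟩
  let ν : Measure (ZMod N × ZMod N × X) := (un N).prod ((un N).prod μ)
  refine ⟨ZMod N × ZMod N × X, inferInstance, inferInstance, ν, inferInstance, act N, ⟨?_, ?_⟩, ?_⟩
  · intro g
    exact (un_pres N _).prod ((un_pres N _).prod (hfree.1 g))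
  · intro g hg
    have h1 : MeasurePreserving (fun y : ZMod N × ZMod N × X => y.2.2) ν μ :=
      (measurePreserving_snd (μ := un N) (ν := μ)).comp measurePreserving_snd
    refine measure_mono_null ?_ (h1.quasiMeasurePreserving.preimage_null (hfree.2 g hg))
    intro y hy
    exact congrArg (fun y : ZMod N × ZMod N × X => y.2.2) hy
  · let Φ : ℕ → Gam ℓ × Set (ZMod N × ZMod N × X) := fun i =>
      match i with
      | 0 => (Gam.z, Set.univ)
      | 1 => (Gam.T 0, {t | t.val < ℓ} ×ˢ Set.univ)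
      | i + 2 => (Gam.kk (i : ZMod ℓ),
          if i < ℓ then Set.univ ×ˢ ({t | t.val < 1} ×ˢ Set.univ) else ∅)
    refine le_trans (sInf_le ⟨Φ, ⟨?_, ∅, measure_empty, ?_⟩, rfl⟩) ?_
    · intro i
      match i with
      | 0 => exact MeasurableSet.univ
      | 1 => exact (MeasurableSet.of_discrete).prod MeasurableSet.univ
      | i + 2 =>
        simp only [Φ]
        split_ifs
        · exact MeasurableSet.univ.prod ((MeasurableSet.of_discrete).prod MeasurableSet.univ)
        · exact MeasurableSet.empty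
    · intro y _ g
      refine gen_all N hℓ _ (Relation.EqvGen.is_equivalence _) (fun y => y.1) (fun y => y.2.1)
        (fun _ _ => rfl) (fun _ _ => rfl) ?_ ?_ ?_ g y
      · intro y
        exact Relation.EqvGen.rel _ _ ⟨0, Set.mem_univ _, rfl⟩
      · intro j y hy
        refine Relation.EqvGen.rel _ _ ⟨j.val + 2, ?_, ?_⟩
        · simp only [Φ, if_pos j.val_lt]
          simp [hy]
        · simp [Φ]
      · intro y hy
        refine Relation.EqvGen.rel _ _ ⟨1, ?_, rfl⟩
        simp only [Φ]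
        simp only [Set.mem_prod, Set.mem_ofPred_eq, Set.mem_univ, and_true]
        omega
    · unfold Crest.Dynamics.graphingCost
      rw [tsum_eq_zero_add' ENNReal.summable, tsum_eq_zero_add' ENNReal.summable]
      have e0 : ν (Φ 0).2 = 1 := measure_univ
      have e1 : ν (Φ (0 + 1)).2 ≤ ℓ / N := by
        show ν ({t | t.val < ℓ} ×ˢ Set.univ) ≤ _
        simp only [ν, Measure.prod_prod, measure_univ, mul_one]
        exact un_le N ℓ
      have e2 : ∑' i, ν (Φ (i + 1 + 1)).2 ≤ ℓ / N := by
        rw [tsum_eq_sum (s := Finset.range ℓ)]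
        · refine (Finset.sum_le_card_nsmul _ _ (1 / (N : ℝ≥0∞)) (fun i hi => ?_)).trans ?_
          · show ν (if i < ℓ then Set.univ ×ˢ ({t | t.val < 1} ×ˢ Set.univ) else ∅) ≤ _
            rw [if_pos (Finset.mem_range.1 hi)]
            simp only [ν, Measure.prod_prod, measure_univ, mul_one, one_mul]
            simpa using un_le N 1
          · simp [div_eq_mul_inv]
        · intro i hi
          show ν (if i < ℓ then Set.univ ×ˢ ({t | t.val < 1} ×ˢ Set.univ) else ∅) = _
          rw [if_neg (fun h => hi (Finset.mem_range.2 h)), measure_empty]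
      rw [e0]
      refine add_le_add le_rfl ((add_le_add e1 e2).trans ?_)
      have e3 : (ℓ : ℝ≥0∞) / N = 1 / M := by
        rw [hN, Nat.cast_mul]
        have := ENNReal.mul_div_mul_left (1 : ℝ≥0∞) (M : ℝ≥0∞) (c := ℓ)
          (by simpa using NeZero.ne ℓ) (by simp)
        rwa [mul_one] at this
      rw [e3, ← ENNReal.add_div]
      gcongr
      norm_num

end Crest.Agent.R191
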